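import Vale.Agent.Lib.P084T.C1

set_option linter.unusedSectionVars false

/-! # P084T part C2. See `notes/P084_blueprint.md`, section C2. -/

open MeasureTheory Set Filter Topology
open scoped RealInnerProductSpace ENNReal NNReal

namespace Vale.Agent.Lib.P084T

variable {E : Type*} [NormedAddCommGroup E] [InnerProductSpace ℝ E] [FiniteDimensional ℝ E]
  [CompleteSpace E] [MeasurableSpace E] [BorelSpace E]
variable {N N' : NF E}

/-- The chord formula. -/
theorem chord_formula (N : NF E) {v : E} (hv : v ≠ 0) {G : E → ℝ≥0∞} (hG : Measurable G) :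
    ∫⁻ z in N.ball, G (entryPt N v z) =
      (Module.finrank ℝ E : ℝ≥0∞) * ∫⁻ z in N.ball,
        G (rad N z) * ENNReal.ofReal (len N v (rad N z)) * ENNReal.ofReal (-⟪grad N z, v⟫) := by
  have hn : 0 < Module.finrank ℝ E := finrank_pos_of_ne hv
  have hn' : (0 : ℝ) < (Module.finrank ℝ E : ℝ) := by exact_mod_cast hn
  have mentry : Measurable (entryPt N v) :=
    (measurable_entryPt N).comp (measurable_const.prodMk measurable_id)
  have mlen : Measurable (len N v) :=
    (measurable_len N).comp (measurable_const.prodMk measurable_id)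
  have mB : MeasurableSet N.ball := (isOpen_lt N.continuous continuous_const).measurableSet
  have mT : MeasurableSet (Tube N v) :=
    (measurable_const.prodMk measurable_id) (measurableSet_tube N)
  have h1 := cos_lemma N hv (g := fun a => G a * ENNReal.ofReal (len N v a))
    (hG.mul (ENNReal.measurable_ofReal.comp mlen))
  rw [h1]
  have hlen : ∀ w ∈ Tube N v, len N v (entryPt N v w) = len N v w := by
    intro w hw
    obtain ⟨h0, h2, -, -⟩ := tm_entryPt N hv hw.1
    unfold len at h2 ⊢
    rw [h0, h2, zero_add]
  have h2 : ∫⁻ w in Tube N v, G (entryPt N v w) * ENNReal.ofReal (len N v (entryPt N v w)) =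
      ∫⁻ w in Tube N v, G (entryPt N v w) * ENNReal.ofReal (len N v w) :=
    setLIntegral_congr_fun mT (fun w hw => by rw [hlen w hw])
  rw [h2, ← lintegral_const_mul' _ _ (ENNReal.natCast_ne_top _),
    ← lintegral_indicator mB, ← lintegral_indicator mT]
  refine line_fubini_eq hv ((hG.comp mentry).indicator mB)
    ((measurable_const.mul ((hG.comp mentry).mul (ENNReal.measurable_ofReal.comp mlen))).indicator mT)
    (Eventually.of_forall fun w => ?_)
  by_cases hh : hits N v w
  · have mS₁ : MeasurableSet {t : ℝ | w + t • v ∈ N.ball} :=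
      mB.preimage (measurable_const.add (measurable_id.smul_const v))
    have mS₂ : MeasurableSet {t : ℝ | w + t • v ∈ Tube N v} :=
      mT.preimage (measurable_const.add (measurable_id.smul_const v))
    have e₁ : ∀ t : ℝ, N.ball.indicator (fun z => G (entryPt N v z)) (w + t • v) =
        {t : ℝ | w + t • v ∈ N.ball}.indicator (fun _ => G (entryPt N v w)) t := by
      intro t
      by_cases ht : w + t • v ∈ N.ball
      · rw [indicator_of_mem ht, indicator_of_mem (show t ∈ {t : ℝ | w + t • v ∈ N.ball} from ht),
          entryPt_add N hv hh]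
      · rw [indicator_of_notMem ht,
          indicator_of_notMem (show t ∉ {t : ℝ | w + t • v ∈ N.ball} from ht)]
    have e₂ : ∀ t : ℝ, (Tube N v).indicator
        (fun z => (Module.finrank ℝ E : ℝ≥0∞) * (G (entryPt N v z) * ENNReal.ofReal (len N v z)))
        (w + t • v) =
        {t : ℝ | w + t • v ∈ Tube N v}.indicator
          (fun _ => (Module.finrank ℝ E : ℝ≥0∞) * (G (entryPt N v w) * ENNReal.ofReal (len N v w))) t := by
      intro t
      by_cases ht : w + t • v ∈ Tube N v
      · rw [indicator_of_mem ht, indicator_of_mem (show t ∈ {t : ℝ | w + t • v ∈ Tube N v} from ht),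
          entryPt_add N hv hh, len_add N hv hh]
      · rw [indicator_of_notMem ht,
          indicator_of_notMem (show t ∉ {t : ℝ | w + t • v ∈ Tube N v} from ht)]
    simp_rw [e₁, e₂]
    rw [lintegral_indicator_const mS₁, lintegral_indicator_const mS₂, volume_line_ball N hv hh,
      volume_line_tube N hv hh]
    have e₃ : (Module.finrank ℝ E : ℝ≥0∞) * ENNReal.ofReal (1 / (Module.finrank ℝ E : ℝ)) = 1 := by
      rw [← ENNReal.ofReal_natCast, ← ENNReal.ofReal_mul hn'.le, mul_one_div_cancel hn'.ne',
        ENNReal.ofReal_one]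
    calc G (entryPt N v w) * ENNReal.ofReal (len N v w)
        = ((Module.finrank ℝ E : ℝ≥0∞) * ENNReal.ofReal (1 / (Module.finrank ℝ E : ℝ))) *
            (G (entryPt N v w) * ENNReal.ofReal (len N v w)) := by rw [e₃, one_mul]
      _ = _ := by ring
  · have n₁ : ∀ t : ℝ, w + t • v ∉ N.ball := fun t ht => hh ⟨t, ht⟩
    have n₂ : ∀ t : ℝ, w + t • v ∉ Tube N v := fun t ht => hh ((hits_add N v w t).mp ht.1)
    simp [indicator_of_notMem (n₁ _), indicator_of_notMem (n₂ _)]

end Vale.Agent.Lib.P084T
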