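import Vale.Agent.Lib.P084T.A2

set_option linter.unusedSectionVars false

/-! # P084T part D1. See `notes/P084_blueprint.md`, section D1. -/

open MeasureTheory Set Filter Topology
open scoped RealInnerProductSpace ENNReal NNReal

namespace Vale.Agent.Lib.P084T

variable {E : Type*} [NormedAddCommGroup E] [InnerProductSpace ℝ E] [FiniteDimensional ℝ E]
  [CompleteSpace E] [MeasurableSpace E] [BorelSpace E]
variable {N N' : NF E}

/-- Basic estimate for two nonzero points. -/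
private theorem RadIso.sub_le_aux (R : RadIso N N') {x y : E} (hx : x ≠ 0) (hy : y ≠ 0)
    (hxy : N y ≤ N x) : N' (R.F x - R.F y) ≤ 3 * N (x - y) := by
  have hr : 0 < N x := N.pos x hx
  have hs : 0 < N y := N.pos y hy
  set r := N x with hrd
  set s := N y with hsd
  set xh := r⁻¹ • x with hxh
  set yh := s⁻¹ • y with hyh
  have hxh1 : N xh = 1 := by
    rw [hxh, N.smul_eq, abs_of_pos (inv_pos.mpr hr), ← hrd, inv_mul_cancel₀ hr.ne']
  have hyh1 : N yh = 1 := by
    rw [hyh, N.smul_eq, abs_of_pos (inv_pos.mpr hs), ← hsd, inv_mul_cancel₀ hs.ne']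
  have hxe : x = r • xh := by rw [hxh, smul_smul, mul_inv_cancel₀ hr.ne', one_smul]
  have hye : y = s • yh := by rw [hyh, smul_smul, mul_inv_cancel₀ hs.ne', one_smul]
  have hFx : R.F x = r • R.F xh := by
    conv_lhs => rw [hxe]
    exact R.smul_F r xh hr
  have hFy : R.F y = s • R.F yh := by
    conv_lhs => rw [hye]
    exact R.smul_F s yh hs
  have hdec : R.F x - R.F y = r • (R.F xh - R.F yh) + (r - s) • R.F yh := by
    rw [hFx, hFy, smul_sub, sub_smul]
    abel
  have hnFy : N' (R.F yh) = 1 := by rw [R.norm_F, hyh1]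
  have h1 : N' (R.F x - R.F y) ≤ r * N (xh - yh) + (r - s) := by
    rw [hdec]
    refine (N'.add_le _ _).trans ?_
    rw [N'.smul_eq, N'.smul_eq, abs_of_pos hr, abs_of_nonneg (sub_nonneg.mpr hxy), hnFy,
      R.iso _ _ hxh1 hyh1, mul_one]
  have h2 : r * N (xh - yh) ≤ N (x - y) + (r - s) := by
    have e1 : r • (xh - yh) = (x - y) + (y - (r * s⁻¹) • y) := by
      rw [smul_sub, hxh, hyh, smul_smul, smul_smul, mul_inv_cancel₀ hr.ne', one_smul]
      abel
    have e2 : N (y - (r * s⁻¹) • y) = r - s := by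
      have e3 : y - (r * s⁻¹) • y = (1 - r * s⁻¹) • y := by
        rw [sub_smul, one_smul]
      rw [e3, N.smul_eq, ← hsd]
      have hle : 1 ≤ r * s⁻¹ := by
        rw [← div_eq_mul_inv, one_le_div hs]
        exact hxy
      rw [abs_of_nonpos (by linarith)]
      field_simp
      ring
    calc r * N (xh - yh) = N (r • (xh - yh)) := by rw [N.smul_eq, abs_of_pos hr]
      _ ≤ N (x - y) + N (y - (r * s⁻¹) • y) := by rw [e1]; exact N.add_le _ _
      _ = N (x - y) + (r - s) := by rw [e2]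
  have h3 : r - s ≤ N (x - y) := N.sub_le x y
  linarith

theorem RadIso.F_zero (R : RadIso N N') : R.F 0 = 0 := by
  have h := R.norm_F 0
  rw [N.map_zero'] at h
  by_contra hne
  exact (N'.pos _ hne).ne' h

/-- Global estimate. -/
private theorem RadIso.sub_le (R : RadIso N N') (x y : E) :
    N' (R.F x - R.F y) ≤ 3 * N (x - y) := by
  by_cases hx : x = 0
  · rw [hx, R.F_zero, zero_sub, zero_sub, N'.map_neg', N.map_neg', R.norm_F]
    nlinarith [N.nonneg y]
  by_cases hy : y = 0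
  · rw [hy, R.F_zero, sub_zero, sub_zero, R.norm_F]
    nlinarith [N.nonneg x]
  rcases le_total (N y) (N x) with h | h
  · exact R.sub_le_aux hx hy h
  · have := R.sub_le_aux hy hx h
    rw [← N'.map_neg', neg_sub, ← N.map_neg' (x - y), neg_sub]
    exact this

/-- The radial isometry is Lipschitz. -/
theorem RadIso.lipschitz_F (R : RadIso N N') : ∃ K : ℝ≥0, LipschitzWith K R.F := by
  obtain ⟨C, hC, h⟩ := N.exists_bounds
  obtain ⟨C', hC', h'⟩ := N'.exists_bounds
  refine ⟨⟨C' * 3 * C, by positivity⟩, LipschitzWith.of_dist_le_mul ?_⟩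
  intro x y
  simp only [dist_eq_norm]
  calc ‖R.F x - R.F y‖ ≤ C' * N' (R.F x - R.F y) := (h' _).2
    _ ≤ C' * (3 * N (x - y)) := mul_le_mul_of_nonneg_left (R.sub_le x y) hC'.le
    _ ≤ C' * (3 * (C * ‖x - y‖)) := by
        refine mul_le_mul_of_nonneg_left ?_ hC'.le
        have := (h (x - y)).1
        linarith
    _ = C' * 3 * C * ‖x - y‖ := by ring

theorem RadIso.continuous_F (R : RadIso N N') : Continuous R.F := by
  obtain ⟨K, hK⟩ := R.lipschitz_F
  exact hK.continuous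

/-- Differentiability of positively homogeneous maps along rays. -/
private theorem hom_hasFDerivAt {g : E → E} (hg : ∀ (c : ℝ) (y : E), 0 < c → g (c • y) = c • g y)
    {c : ℝ} (hc : 0 < c) {x : E} {L : E →L[ℝ] E} (h : HasFDerivAt g L x) :
    HasFDerivAt g L (c • x) := by
  have hci : 0 < c⁻¹ := inv_pos.mpr hc
  have e : g = fun y => c • g (c⁻¹ • y) := by
    funext y
    rw [← hg c _ hc, smul_smul, mul_inv_cancel₀ hc.ne', one_smul]
  have h' : HasFDerivAt g L (c⁻¹ • (c • x)) := by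
    rwa [smul_smul, inv_mul_cancel₀ hc.ne', one_smul]
  have hl : HasFDerivAt (fun y : E => c⁻¹ • y) (c⁻¹ • ContinuousLinearMap.id ℝ E) (c • x) :=
    (hasFDerivAt_id (c • x)).const_smul c⁻¹
  have hcomp := h'.comp (c • x) hl
  have hfin := hcomp.const_smul c
  have e2 : c • (L.comp (c⁻¹ • ContinuousLinearMap.id ℝ E)) = L := by
    ext v
    simp [smul_smul, mul_inv_cancel₀ hc.ne']
  rw [e2] at hfin
  rw [e]
  exact hfin

private theorem UT_smul {N : NF E} {c : ℝ} (hc : 0 < c) {x : E} (hU : UT N x) : UT N (c • x) := by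
  obtain ⟨C, δ, hδ, h⟩ := hU
  refine ⟨C / c, δ * c, by positivity, fun k hk => ?_⟩
  have hk' : ‖c⁻¹ • k‖ < δ := by
    rw [norm_smul, Real.norm_of_nonneg (inv_pos.mpr hc).le, inv_mul_lt_iff₀ hc, mul_comm]
    exact hk
  have e : c • x + k = c • (x + c⁻¹ • k) := by
    rw [smul_add, smul_smul, mul_inv_cancel₀ hc.ne', one_smul]
  rw [e, N.smul_eq, abs_of_pos hc, N.smul_eq, abs_of_pos hc, N.grad_smul hc x]
  have h1 := h (c⁻¹ • k) hk'
  rw [inner_smul_right, norm_smul, Real.norm_of_nonneg (inv_pos.mpr hc).le] at h1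
  have h2 := mul_le_mul_of_nonneg_left h1 hc.le
  have e2 : c * (N x + c⁻¹ * ⟪grad N x, k⟫ + C * (c⁻¹ * ‖k‖) ^ 2) =
      c * N x + ⟪grad N x, k⟫ + C / c * ‖k‖ ^ 2 := by
    field_simp
  rw [e2] at h2
  exact h2

/-- The good points form a cone, symmetric under the swap. -/
theorem RadIso.good_smul (R : RadIso N N') {x : E} (hx : x ∈ Good R) {c : ℝ} (hc : 0 < c) :
    c • x ∈ Good R := by
  obtain ⟨h0, hF, hG, hN, hN', hU, hU'⟩ := hx
  have hFc : R.F (c • x) = c • R.F x := R.smul_F c x hc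
  refine ⟨smul_ne_zero hc.ne' h0, ?_, ?_, ?_, ?_, ?_, ?_⟩
  · exact (hom_hasFDerivAt R.smul_F hc hF.hasFDerivAt).differentiableAt
  · rw [hFc]
    exact (hom_hasFDerivAt (g := R.G) R.swap.smul_F hc hG.hasFDerivAt).differentiableAt
  · exact (N.differentiableAt_smul_iff hc x).2 hN
  · rw [hFc]
    exact (N'.differentiableAt_smul_iff hc _).2 hN'
  · exact UT_smul hc hU
  · rw [hFc]
    exact UT_smul hc hU'

theorem RadIso.good_swap (R : RadIso N N') {x : E} (hx : x ∈ Good R) : R.F x ∈ Good R.swap := by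
  obtain ⟨h0, hF, hG, hN, hN', hU, hU'⟩ := hx
  have hne : R.F x ≠ 0 := by
    intro h
    have h1 := R.norm_F x
    rw [h, N'.map_zero'] at h1
    exact (N.pos x h0).ne' h1.symm
  refine ⟨hne, hG, ?_, hN', ?_, hU', ?_⟩
  · change DifferentiableAt ℝ R.F (R.G (R.F x))
    rw [R.G_F]
    exact hF
  · change DifferentiableAt ℝ (N : E → ℝ) (R.G (R.F x))
    rw [R.G_F]
    exact hN
  · change UT N (R.G (R.F x))
    rw [R.G_F]
    exact hU

theorem RadIso.fderiv_smul (R : RadIso N N') {c : ℝ} (hc : 0 < c) (x : E) :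
    fderiv ℝ R.F (c • x) = fderiv ℝ R.F x := by
  by_cases hd : DifferentiableAt ℝ R.F x
  · exact (hom_hasFDerivAt R.smul_F hc hd.hasFDerivAt).fderiv
  · have hnd : ¬DifferentiableAt ℝ R.F (c • x) := by
      intro h
      apply hd
      have := hom_hasFDerivAt R.smul_F (inv_pos.mpr hc) h.hasFDerivAt
      rw [smul_smul, inv_mul_cancel₀ hc.ne', one_smul] at this
      exact this.differentiableAt
    rw [fderiv_zero_of_not_differentiableAt hd, fderiv_zero_of_not_differentiableAt hnd]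

/-- The derivative at a good point. -/
theorem RadIso.good_apply_self (R : RadIso N N') {x : E} (hx : x ∈ Good R) :
    fderiv ℝ R.F x x = R.F x := by
  obtain ⟨h0, hF, -, -, -, -, -⟩ := hx
  have h1 : HasDerivAt (fun t : ℝ => R.F (x + t • x)) (fderiv ℝ R.F x x) 0 :=
    hF.hasFDerivAt.hasLineDerivAt x
  have h2 : HasDerivAt (fun t : ℝ => (1 + t) • R.F x) (R.F x) 0 := by
    have := ((hasDerivAt_id (0 : ℝ)).const_add 1).smul_const (R.F x)
    simpa using this
  have hev : (fun t : ℝ => R.F (x + t • x)) =ᶠ[𝓝 0] fun t : ℝ => (1 + t) • R.F x := by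
    have : Ioi (-1 : ℝ) ∈ 𝓝 (0 : ℝ) := Ioi_mem_nhds (by norm_num)
    filter_upwards [this] with t ht
    have ht' : 0 < 1 + t := by
      have : (-1 : ℝ) < t := ht
      linarith
    have e : x + t • x = (1 + t) • x := by rw [add_smul, one_smul]
    rw [e]
    exact R.smul_F _ _ ht'
  exact (h1.congr_of_eventuallyEq hev.symm).unique h2

theorem RadIso.good_grad (R : RadIso N N') {x : E} (hx : x ∈ Good R) (h : E) :
    ⟪grad N' (R.F x), fderiv ℝ R.F x h⟫ = ⟪grad N x, h⟫ := by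
  obtain ⟨-, hF, -, hN, hN', -, -⟩ := hx
  have hg' : HasFDerivAt (N' : E → ℝ) (InnerProductSpace.toDual ℝ E (grad N' (R.F x))) (R.F x) :=
    hN'.hasGradientAt.hasFDerivAt
  have hg : HasFDerivAt (N : E → ℝ) (InnerProductSpace.toDual ℝ E (grad N x)) x :=
    hN.hasGradientAt.hasFDerivAt
  have hc := hg'.comp x hF.hasFDerivAt
  have e : ((N' : E → ℝ) ∘ R.F) = (N : E → ℝ) := funext R.norm_F
  rw [e] at hc
  have hu := hc.unique hg
  have := congrArg (fun f : E →L[ℝ] ℝ => f h) hu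
  simpa [InnerProductSpace.toDual_apply_apply] using this

theorem RadIso.good_inverse (R : RadIso N N') {x : E} (hx : x ∈ Good R) :
    (fderiv ℝ R.G (R.F x)).comp (fderiv ℝ R.F x) = ContinuousLinearMap.id ℝ E ∧
      (fderiv ℝ R.F x).comp (fderiv ℝ R.G (R.F x)) = ContinuousLinearMap.id ℝ E := by
  obtain ⟨-, hF, hG, -, -, -, -⟩ := hx
  constructor
  · have hc := hG.hasFDerivAt.comp x hF.hasFDerivAt
    have e : (R.G ∘ R.F) = id := funext R.G_F
    rw [e] at hc
    exact hc.unique (hasFDerivAt_id x)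
  · have hF' : HasFDerivAt R.F (fderiv ℝ R.F x) (R.G (R.F x)) := by
      rw [R.G_F]
      exact hF.hasFDerivAt
    have hc := hF'.comp (R.F x) hG.hasFDerivAt
    have e : (R.F ∘ R.G) = id := funext R.F_G
    rw [e] at hc
    exact hc.unique (hasFDerivAt_id _)

/-- The radial projection of `x + ε h`, first order, for a tangent vector `h`. -/
private theorem rad_expansion (N : NF E) {x h : E} (hx1 : N x = 1)
    (hd : DifferentiableAt ℝ (N : E → ℝ) x) (hh : ⟪grad N x, h⟫ = 0) :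
    Tendsto (fun ε : ℝ => ε⁻¹ • (rad N (x + ε • h) - x)) (𝓝[>] 0) (𝓝 h) := by
  have hF : HasFDerivAt (N : E → ℝ) (InnerProductSpace.toDual ℝ E (grad N x)) x :=
    hd.hasGradientAt.hasFDerivAt
  have hL : HasDerivAt (fun t : ℝ => (N : E → ℝ) (x + t • h))
      ((InnerProductSpace.toDual ℝ E (grad N x)) h) 0 := hF.hasLineDerivAt h
  have h0 : (InnerProductSpace.toDual ℝ E (grad N x)) h = 0 := by
    simpa [InnerProductSpace.toDual_apply_apply] using hh
  rw [h0] at hL
  have hline : Tendsto (fun ε : ℝ => ε⁻¹ * (N (x + ε • h) - N x)) (𝓝[>] 0) (𝓝 0) := by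
    have := hL.tendsto_slope_zero_right
    simpa [smul_eq_mul] using this
  have hN1 : Tendsto (fun ε : ℝ => N (x + ε • h)) (𝓝[>] 0) (𝓝 1) := by
    have hc : Tendsto (fun ε : ℝ => x + ε • h) (𝓝[>] 0) (𝓝 x) := by
      have : Continuous (fun ε : ℝ => x + ε • h) := by fun_prop
      have h2 := this.tendsto 0
      simp only [zero_smul, add_zero] at h2
      exact h2.mono_left nhdsWithin_le_nhds
    have := (N.continuous.tendsto x).comp hc
    rwa [hx1] at this
  have hlim : Tendsto (fun ε : ℝ => (-(ε⁻¹ * (N (x + ε • h) - N x)) / N (x + ε • h)) • x +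
      (N (x + ε • h))⁻¹ • h) (𝓝[>] 0) (𝓝 ((-0 / 1 : ℝ) • x + (1 : ℝ)⁻¹ • h)) :=
    (((hline.neg).div hN1 one_ne_zero).smul_const x).add ((hN1.inv₀ one_ne_zero).smul_const h)
  have hval : ((-0 / 1 : ℝ) • x + (1 : ℝ)⁻¹ • h) = h := by simp
  rw [hval] at hlim
  refine hlim.congr' ?_
  have e1 : ∀ᶠ ε in 𝓝[>] (0 : ℝ), 0 < ε := self_mem_nhdsWithin
  have e3 : ∀ᶠ ε in 𝓝[>] (0 : ℝ), 0 < N (x + ε • h) := hN1.eventually (lt_mem_nhds one_pos)
  filter_upwards [e1, e3] with ε hε hpos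
  set M := N (x + ε • h) with hM
  have hne : M ≠ 0 := hpos.ne'
  simp only [rad, ← hM, hx1]
  have hs : (-(ε⁻¹ * (M - 1)) / M) = ε⁻¹ * (M⁻¹ - 1) := by
    field_simp
    ring
  rw [hs, smul_sub, smul_smul, smul_add, smul_smul]
  have e4 : ε⁻¹ * M⁻¹ * ε = M⁻¹ := by field_simp
  rw [e4, mul_sub, mul_one, sub_smul]
  abel

/-- The expansion of `F` along the sphere, first order. -/
theorem RadIso.good_expansion (R : RadIso N N') {x : E} (hx : x ∈ Good R) (hx1 : N x = 1) {h : E}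
    (hh : ⟪grad N x, h⟫ = 0) :
    Tendsto (fun ε : ℝ => ε⁻¹ • (R.F (rad N (x + ε • h)) - R.F x - ε • fderiv ℝ R.F x h))
      (𝓝[>] 0) (𝓝 0) := by
  obtain ⟨-, hF, -, hN, -, -, -⟩ := hx
  have hk := rad_expansion N hx1 hN hh
  have hD : HasFDerivWithinAt R.F (fderiv ℝ R.F x) univ x := hF.hasFDerivAt.hasFDerivWithinAt
  have hd0 : Tendsto (fun ε : ℝ => rad N (x + ε • h) - x) (𝓝[>] 0) (𝓝 0) := by
    have h1 : Tendsto (fun ε : ℝ => ε • (ε⁻¹ • (rad N (x + ε • h) - x))) (𝓝[>] 0)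
        (𝓝 ((0 : ℝ) • h)) :=
      (tendsto_id.mono_left nhdsWithin_le_nhds).smul hk
    rw [zero_smul] at h1
    refine h1.congr' ?_
    filter_upwards [self_mem_nhdsWithin] with ε hε
    have hε' : (0 : ℝ) < ε := hε
    rw [smul_smul, mul_inv_cancel₀ hε'.ne', one_smul]
  have hlim := hD.lim (c := fun ε : ℝ => ε⁻¹)
    (d := fun ε : ℝ => rad N (x + ε • h) - x) (v := h) hd0
    (Eventually.of_forall fun _ => mem_univ _) hk
  simp only [add_sub_cancel] at hlim
  have h2 := hlim.sub_const (fderiv ℝ R.F x h)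
  rw [sub_self] at h2
  refine h2.congr' ?_
  filter_upwards [self_mem_nhdsWithin] with ε hε
  have hε' : (0 : ℝ) < ε := hε
  rw [smul_sub (ε⁻¹) _ (ε • _), smul_smul, inv_mul_cancel₀ hε'.ne', one_smul]

/-- Tangent isometry at a point of the sphere. -/
private theorem RadIso.good_iso_unit (R : RadIso N N') {x : E} (hx : x ∈ Good R) (hx1 : N x = 1)
    {h : E} (hh : ⟪grad N x, h⟫ = 0) : N' (fderiv ℝ R.F x h) = N h := by
  have hx' := hx
  obtain ⟨-, -, -, hN, -, -, -⟩ := hx'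
  have hexp := R.good_expansion hx hx1 hh
  have hk := rad_expansion N hx1 hN hh
  have hA : Tendsto (fun ε : ℝ => N' (fderiv ℝ R.F x h +
      ε⁻¹ • (R.F (rad N (x + ε • h)) - R.F x - ε • fderiv ℝ R.F x h))) (𝓝[>] 0)
      (𝓝 (N' (fderiv ℝ R.F x h))) := by
    have h1 := (tendsto_const_nhds (x := fderiv ℝ R.F x h)).add hexp
    rw [add_zero] at h1
    exact (N'.continuous.tendsto _).comp h1
  have hB : Tendsto (fun ε : ℝ => N (ε⁻¹ • (rad N (x + ε • h) - x))) (𝓝[>] 0) (𝓝 (N h)) :=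
    (N.continuous.tendsto _).comp hk
  refine tendsto_nhds_unique (hA.congr' ?_) hB
  have hN1 : Tendsto (fun ε : ℝ => N (x + ε • h)) (𝓝[>] 0) (𝓝 1) := by
    have hc : Tendsto (fun ε : ℝ => x + ε • h) (𝓝[>] 0) (𝓝 x) := by
      have : Continuous (fun ε : ℝ => x + ε • h) := by fun_prop
      have h2 := this.tendsto 0
      simp only [zero_smul, add_zero] at h2
      exact h2.mono_left nhdsWithin_le_nhds
    have := (N.continuous.tendsto x).comp hc
    rwa [hx1] at this
  have e3 : ∀ᶠ ε in 𝓝[>] (0 : ℝ), 0 < N (x + ε • h) := hN1.eventually (lt_mem_nhds one_pos)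
  filter_upwards [self_mem_nhdsWithin, e3] with ε hε hpos
  have hε' : (0 : ℝ) < ε := hε
  have hne : x + ε • h ≠ 0 := by
    intro h0
    rw [h0, N.map_zero'] at hpos
    exact lt_irrefl _ hpos
  have hr1 : N (rad N (x + ε • h)) = 1 := N.norm_rad hne
  have hiso := R.iso _ x hr1 hx1
  have e1 : fderiv ℝ R.F x h + ε⁻¹ • (R.F (rad N (x + ε • h)) - R.F x - ε • fderiv ℝ R.F x h) =
      ε⁻¹ • (R.F (rad N (x + ε • h)) - R.F x) := by
    rw [smul_sub (ε⁻¹) _ (ε • _), smul_smul, inv_mul_cancel₀ hε'.ne', one_smul]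
    abel
  rw [e1, N'.smul_eq, N.smul_eq, hiso]

theorem RadIso.good_iso (R : RadIso N N') {x : E} (hx : x ∈ Good R) {h : E}
    (hh : ⟪grad N x, h⟫ = 0) : N' (fderiv ℝ R.F x h) = N h := by
  have h0 : x ≠ 0 := hx.1
  have hp : 0 < N x := N.pos x h0
  have hc : 0 < (N x)⁻¹ := inv_pos.mpr hp
  have hg := R.good_smul hx hc
  have h1 : N ((N x)⁻¹ • x) = 1 := by
    rw [N.smul_eq, abs_of_pos hc, inv_mul_cancel₀ hp.ne']
  have h2 : ⟪grad N ((N x)⁻¹ • x), h⟫ = 0 := by rw [N.grad_smul hc, hh]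
  have := R.good_iso_unit hg h1 h2
  rwa [R.fderiv_smul hc] at this

/-- Strict convexity passes to the target, and `F` is odd. -/
theorem RadIso.strictC (R : RadIso N N') (hSC : StrictC N) : StrictC N' := by
  intro x' y' hx' hy' hne
  by_contra hcon
  push Not at hcon
  set m' := (1 / 2 : ℝ) • (x' + y') with hm'd
  have hm'le : N' m' ≤ 1 := by
    rw [hm'd, N'.smul_eq, abs_of_pos (by norm_num : (0 : ℝ) < 1 / 2)]
    have := N'.add_le x' y'
    rw [hx', hy'] at this
    linarith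
  have hm'1 : N' m' = 1 := le_antisymm hm'le hcon
  have hG1 : ∀ z, N' z = 1 → N (R.G z) = 1 := by
    intro z hz
    have := R.norm_F (R.G z)
    rw [R.F_G] at this
    rw [← this, hz]
  set x := R.G x' with hx
  set y := R.G y' with hy
  set m := R.G m' with hm
  have hxu : N x = 1 := hG1 _ hx'
  have hyu : N y = 1 := hG1 _ hy'
  have hmu : N m = 1 := hG1 _ hm'1
  have hisoG : ∀ u v, N' u = 1 → N' v = 1 → N (R.G u - R.G v) = N' (u - v) := by
    intro u v hu hv
    have := R.iso _ _ (hG1 u hu) (hG1 v hv)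
    rw [R.F_G, R.F_G] at this
    exact this.symm
  have hxm : N (x - m) = N' (x' - m') := hisoG _ _ hx' hm'1
  have hmy : N (m - y) = N' (m' - y') := hisoG _ _ hm'1 hy'
  have hxy : N (x - y) = N' (x' - y') := hisoG _ _ hx' hy'
  set δ := (1 / 2 : ℝ) * N' (x' - y') with hδ
  have hδpos : 0 < δ := by
    have : 0 < N' (x' - y') := N'.pos _ (sub_ne_zero.mpr hne)
    positivity
  have e1 : x' - m' = (1 / 2 : ℝ) • (x' - y') := by
    rw [hm'd]; module
  have e2 : m' - y' = (1 / 2 : ℝ) • (x' - y') := by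
    rw [hm'd]; module
  have hn1 : N (x - m) = δ := by
    rw [hxm, e1, N'.smul_eq, abs_of_pos (by norm_num : (0 : ℝ) < 1 / 2)]
  have hn2 : N (m - y) = δ := by
    rw [hmy, e2, N'.smul_eq, abs_of_pos (by norm_num : (0 : ℝ) < 1 / 2)]
  have hn3 : N (x - y) = 2 * δ := by
    rw [hxy, hδ]; ring
  -- the two pieces coincide
  have hpq : x - m = m - y := by
    by_contra hpq
    have hd1 : N (δ⁻¹ • (x - m)) = 1 := by
      rw [N.smul_eq, abs_of_pos (inv_pos.mpr hδpos), hn1, inv_mul_cancel₀ hδpos.ne']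
    have hd2 : N (δ⁻¹ • (m - y)) = 1 := by
      rw [N.smul_eq, abs_of_pos (inv_pos.mpr hδpos), hn2, inv_mul_cancel₀ hδpos.ne']
    have hd3 : δ⁻¹ • (x - m) ≠ δ⁻¹ • (m - y) := by
      intro h
      exact hpq (smul_right_injective E (inv_pos.mpr hδpos).ne' h)
    have := hSC _ _ hd1 hd2 hd3
    have e3 : (1 / 2 : ℝ) • (δ⁻¹ • (x - m) + δ⁻¹ • (m - y)) = ((1 / 2 : ℝ) * δ⁻¹) • (x - y) := by
      rw [← smul_add, smul_smul]
      congr 1
      abel
    rw [e3, N.smul_eq, abs_of_pos (by positivity), hn3] at this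
    have h4 : (1 / 2 : ℝ) * δ⁻¹ * (2 * δ) = 1 := by field_simp
    linarith
  have hmid : m = (1 / 2 : ℝ) • (x + y) := by
    have h5 : (2 : ℝ) • m = x + y := by
      rw [two_smul]
      have : m + m - (x + y) = 0 := by
        have h6 := sub_eq_zero.mpr hpq
        have : m + m - (x + y) = -(x - m - (m - y)) := by abel
        rw [this, h6, neg_zero]
      exact sub_eq_zero.mp this
    rw [← h5, smul_smul]
    norm_num
  have hxney : x ≠ y := by
    intro h
    apply hne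
    have := congrArg R.F h
    rwa [hx, hy, R.F_G, R.F_G] at this
  have := hSC x y hxu hyu hxney
  rw [← hmid, hmu] at this
  exact lt_irrefl _ this

theorem RadIso.F_neg (R : RadIso N N') (hSC : StrictC N) {a : E} (ha : N a = 1) :
    R.F (-a) = -R.F a := by
  have hSC' := R.strictC hSC
  have hna : N (-a) = 1 := by rw [N.map_neg', ha]
  have hu : N' (R.F a) = 1 := by rw [R.norm_F, ha]
  have hv : N' (-R.F (-a)) = 1 := by rw [N'.map_neg', R.norm_F, hna]
  have hiso := R.iso a (-a) ha hna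
  have e : a - -a = (2 : ℝ) • a := by rw [two_smul]; abel
  rw [e, N.smul_eq, ha] at hiso
  by_contra hne
  have hne' : R.F a ≠ -R.F (-a) := by
    intro h
    apply hne
    rw [h, neg_neg]
  have := hSC' _ _ hu hv hne'
  rw [N'.smul_eq, abs_of_pos (by norm_num : (0 : ℝ) < 1 / 2), ← sub_eq_add_neg, hiso] at this
  norm_num at this

theorem RadIso.det_ne_zero (R : RadIso N N') {x : E} (hx : x ∈ Good R) :
    (fderiv ℝ R.F x).det ≠ 0 := by
  obtain ⟨h1, -⟩ := R.good_inverse hx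
  intro h0
  have h2 : LinearMap.det (((fderiv ℝ R.G (R.F x)).comp (fderiv ℝ R.F x) : E →L[ℝ] E) : E →ₗ[ℝ] E) = 1 := by
    rw [h1]
    simp
  have h3 : ((((fderiv ℝ R.G (R.F x)).comp (fderiv ℝ R.F x) : E →L[ℝ] E) : E →ₗ[ℝ] E)) =
      ((fderiv ℝ R.G (R.F x) : E →L[ℝ] E) : E →ₗ[ℝ] E) ∘ₗ ((fderiv ℝ R.F x : E →L[ℝ] E) : E →ₗ[ℝ] E) := rfl
  rw [h3, LinearMap.det_comp] at h2
  have h4 : LinearMap.det ((fderiv ℝ R.F x : E →L[ℝ] E) : E →ₗ[ℝ] E) = 0 := h0
  rw [h4, mul_zero] at h2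
  exact zero_ne_one h2

end Vale.Agent.Lib.P084T
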