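import Vale.Agent.Lib.P084T.Basic

set_option linter.unusedSectionVars false

/-! # P084T part G1. See `notes/P084_blueprint.md`, section G1. -/

open MeasureTheory Set Filter Topology
open scoped RealInnerProductSpace ENNReal NNReal

namespace Vale.Agent.Lib.P084T

variable {E : Type*} [NormedAddCommGroup E] [InnerProductSpace ℝ E] [FiniteDimensional ℝ E]
  [CompleteSpace E] [MeasurableSpace E] [BorelSpace E]
variable {N N' : NF E}

namespace G1

/-- The subgradient inequality. -/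
def Sub (g : E → ℝ) (x v : E) : Prop := ∀ y, g x + ⟪v, y - x⟫ ≤ g y

lemma sub_mono {g : E → ℝ} {x x' v v' : E} (h : Sub g x v) (h' : Sub g x' v') :
    0 ≤ ⟪v - v', x - x'⟫ := by
  have h1 := h x'
  have h2 := h' x
  have e1 : ⟪v, x' - x⟫ = - ⟪v, x - x'⟫ := by rw [← inner_neg_right, neg_sub]
  rw [e1] at h1
  rw [inner_sub_left]
  linarith

lemma sub_norm_le {g : E → ℝ} {K : ℝ≥0} (hL : LipschitzWith K g) {x v : E} (h : Sub g x v) :
    ‖v‖ ≤ K := by
  by_cases hv : v = 0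
  · simp [hv]
  have h1 := h (x + v)
  have h2 := hL.dist_le_mul (x + v) x
  rw [Real.dist_eq, dist_eq_norm] at h2
  simp only [add_sub_cancel_left] at h2 h1
  rw [real_inner_self_eq_norm_sq] at h1
  have h3 : g (x + v) - g x ≤ K * ‖v‖ := (le_abs_self _).trans h2
  have hv' : 0 < ‖v‖ := norm_pos_iff.mpr hv
  have h4 : ‖v‖ * ‖v‖ ≤ K * ‖v‖ := by nlinarith
  exact le_of_mul_le_mul_right h4 hv'

lemma exists_min {g : E → ℝ} {K : ℝ≥0} (hL : LipschitzWith K g) (y : E) :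
    ∃ x, ∀ u, g x + ‖x - y‖ ^ 2 / 2 ≤ g u + ‖u - y‖ ^ 2 / 2 := by
  have hg := hL.continuous
  have hc : Continuous (fun u => g u + ‖u - y‖ ^ 2 / 2) := by fun_prop
  refine hc.exists_forall_le ?_
  set α : ℝ := ‖y‖ + K + 1 with hα
  have hbound : ∀ u : E, ‖u‖ + (g 0 - α ^ 2 / 2) ≤ g u + ‖u - y‖ ^ 2 / 2 := by
    intro u
    have h1 := hL.dist_le_mul u 0
    rw [Real.dist_eq, dist_eq_norm, sub_zero] at h1
    have h2 : g 0 - K * ‖u‖ ≤ g u := by
      have := (abs_le.mp h1).1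
      linarith
    have h4 : (‖u‖ - ‖y‖) ^ 2 ≤ ‖u - y‖ ^ 2 := by
      have := abs_norm_sub_norm_le u y
      exact sq_le_sq' (by linarith [(abs_le.mp this).1]) (abs_le.mp this).2
    have h5 : (‖u‖ - ‖y‖) ^ 2 / 2 - (K + 1) * ‖u‖ + α ^ 2 / 2 = (‖u‖ - α) ^ 2 / 2 + ‖y‖ ^ 2 / 2 := by
      rw [hα]; ring
    nlinarith [sq_nonneg (‖u‖ - α), sq_nonneg ‖y‖]
  exact tendsto_atTop_mono hbound
    (tendsto_atTop_add_const_right _ _ tendsto_norm_cocompact_atTop)

lemma sub_of_min {g : E → ℝ} (hg : ConvexOn ℝ univ g) {x y : E}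
    (hmin : ∀ u, g x + ‖x - y‖ ^ 2 / 2 ≤ g u + ‖u - y‖ ^ 2 / 2) : Sub g x (y - x) := by
  intro u
  apply le_of_forall_pos_le_add
  intro ε hε
  set h := u - x with hh
  have hpos : 0 < ‖h‖ ^ 2 + 1 := by positivity
  set t : ℝ := min 1 (ε / (‖h‖ ^ 2 + 1)) with ht
  have ht0 : 0 < t := lt_min one_pos (div_pos hε hpos)
  have ht1 : t ≤ 1 := min_le_left _ _
  have ht2 : t * ‖h‖ ^ 2 ≤ ε := by
    have h1 : t ≤ ε / (‖h‖ ^ 2 + 1) := min_le_right _ _
    have h2 : t * (‖h‖ ^ 2 + 1) ≤ ε := (le_div_iff₀ hpos).mp h1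
    nlinarith
  have hconv : g (x + t • h) ≤ (1 - t) * g x + t * g u := by
    have := hg.2 (mem_univ x) (mem_univ u) (by linarith : 0 ≤ 1 - t) ht0.le (by ring)
    simp only [smul_eq_mul] at this
    have e : (1 - t) • x + t • u = x + t • h := by
      rw [hh]; module
    rwa [e] at this
  have hm := hmin (x + t • h)
  have hexp : ‖x + t • h - y‖ ^ 2 = ‖x - y‖ ^ 2 + 2 * (t * ⟪x - y, h⟫) + t ^ 2 * ‖h‖ ^ 2 := by
    have e : x + t • h - y = (x - y) + t • h := by abel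
    rw [e, norm_add_sq_real, inner_smul_right, norm_smul, mul_pow, Real.norm_eq_abs, sq_abs]
  have e2 : ⟪y - x, h⟫ = - ⟪x - y, h⟫ := by rw [← inner_neg_left, neg_sub]
  have h3 : t * (g x + ⟪y - x, h⟫) ≤ t * (g u + t * ‖h‖ ^ 2 / 2) := by
    rw [e2]
    nlinarith
  have h4 := le_of_mul_le_mul_left h3 ht0
  linarith

section R

variable {g : E → ℝ} {R : E → E}

lemma R_of_sub (hR : ∀ y, Sub g (R y) (y - R y)) {x v : E} (h : Sub g x v) : R (x + v) = x := by
  have h1 := sub_mono (hR (x + v)) h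
  set z := R (x + v)
  have e : (x + v - z) - v = -(z - x) := by abel
  rw [e, inner_neg_left, real_inner_self_eq_norm_sq] at h1
  have h2 : ‖z - x‖ ^ 2 = 0 := le_antisymm (by linarith) (sq_nonneg _)
  have h3 : ‖z - x‖ = 0 := by simpa using h2
  exact sub_eq_zero.mp (norm_eq_zero.mp h3)

lemma R_firm (hR : ∀ y, Sub g (R y) (y - R y)) (y y' : E) :
    ‖R y - R y'‖ ^ 2 ≤ ⟪R y - R y', y - y'⟫ := by
  have h1 := sub_mono (hR y) (hR y')
  have e : (y - R y) - (y' - R y') = (y - y') - (R y - R y') := by abel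
  rw [e, inner_sub_left, real_inner_self_eq_norm_sq, real_inner_comm] at h1
  linarith

lemma R_nonexp (hR : ∀ y, Sub g (R y) (y - R y)) (y y' : E) : ‖R y - R y'‖ ≤ ‖y - y'‖ := by
  have h1 := R_firm hR y y'
  have h2 := real_inner_le_norm (R y - R y') (y - y')
  by_cases h : R y - R y' = 0
  · simp [h]
  have h3 : 0 < ‖R y - R y'‖ := norm_pos_iff.mpr h
  have h4 : ‖R y - R y'‖ * ‖R y - R y'‖ ≤ ‖R y - R y'‖ * ‖y - y'‖ := by nlinarith
  exact le_of_mul_le_mul_left h4 h3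

lemma R_lip (hR : ∀ y, Sub g (R y) (y - R y)) : LipschitzWith 1 R := by
  refine LipschitzWith.of_dist_le_mul fun y y' => ?_
  simpa [dist_eq_norm] using R_nonexp hR y y'

/-- The Moreau envelope. -/
noncomputable def env (g : E → ℝ) (R : E → E) (y : E) : ℝ := g (R y) + ‖R y - y‖ ^ 2 / 2

lemma env_upper (hmin : ∀ y u, g (R y) + ‖R y - y‖ ^ 2 / 2 ≤ g u + ‖u - y‖ ^ 2 / 2) (y y' : E) :
    env g R y' ≤ env g R y + ⟪y - R y, y' - y⟫ + ‖y' - y‖ ^ 2 / 2 := by
  have h := hmin y' (R y)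
  have e : R y - y' = (R y - y) - (y' - y) := by abel
  have h2 := norm_sub_sq_real (R y - y) (y' - y)
  rw [← e] at h2
  have i : ⟪y - R y, y' - y⟫ = -⟪R y - y, y' - y⟫ := by rw [← inner_neg_left, neg_sub]
  simp only [env]
  rw [i]
  linarith

lemma env_lower (hR : ∀ y, Sub g (R y) (y - R y))
    (hmin : ∀ y u, g (R y) + ‖R y - y‖ ^ 2 / 2 ≤ g u + ‖u - y‖ ^ 2 / 2) (y y' : E) :
    env g R y + ⟪y - R y, y' - y⟫ - ‖y' - y‖ ^ 2 / 2 ≤ env g R y' := by
  have h := env_upper hmin y' y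
  have e1 : y' - R y' = (y - R y) + ((y' - y) - (R y' - R y)) := by abel
  have e2 : y - y' = -(y' - y) := by abel
  have h3 : ⟪y' - R y', y - y'⟫ =
      -⟪y - R y, y' - y⟫ - ⟪y' - y, y' - y⟫ + ⟪R y' - R y, y' - y⟫ := by
    rw [e1, e2, inner_neg_right, inner_add_left, inner_sub_left (y' - y) (R y' - R y) (y' - y)]
    ring
  have h4 : ⟪R y' - R y, y' - y⟫ ≤ ‖y' - y‖ ^ 2 := by
    have h5 := real_inner_le_norm (R y' - R y) (y' - y)
    have h6 := R_nonexp hR y' y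
    nlinarith [norm_nonneg (y' - y), norm_nonneg (R y' - R y)]
  rw [real_inner_self_eq_norm_sq] at h3
  have h7 : ‖y - y'‖ = ‖y' - y‖ := norm_sub_rev _ _
  rw [h3, h7] at h
  linarith

/-- The potential of `R`. -/
noncomputable def Phi (g : E → ℝ) (R : E → E) (y : E) : ℝ := ‖y‖ ^ 2 / 2 - env g R y

lemma Phi_est (hR : ∀ y, Sub g (R y) (y - R y))
    (hmin : ∀ y u, g (R y) + ‖R y - y‖ ^ 2 / 2 ≤ g u + ‖u - y‖ ^ 2 / 2) (y y' : E) :
    |Phi g R y' - Phi g R y - ⟪R y, y' - y⟫| ≤ ‖y' - y‖ ^ 2 := by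
  have h1 := env_upper hmin y y'
  have h2 := env_lower hR hmin y y'
  have h3 : ‖y'‖ ^ 2 = ‖y‖ ^ 2 + 2 * ⟪y, y' - y⟫ + ‖y' - y‖ ^ 2 := by
    have e : y' = y + (y' - y) := by abel
    conv_lhs => rw [e]
    rw [norm_add_sq_real]
  have h4 : ⟪y - R y, y' - y⟫ = ⟪y, y' - y⟫ - ⟪R y, y' - y⟫ := inner_sub_left _ _ _
  rw [h4] at h1 h2
  simp only [Phi]
  rw [abs_le]
  constructor <;> linarith [sq_nonneg ‖y' - y‖]

/-- The inner product as a bounded bilinear map. -/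
noncomputable def LL : E →L[ℝ] E →L[ℝ] ℝ :=
  (isBoundedBilinearMap_inner (𝕜 := ℝ) (E := E)).toContinuousLinearMap

lemma LL_apply (u w : E) : LL u w = ⟪u, w⟫ := rfl

lemma Phi_hasFDerivAt (hR : ∀ y, Sub g (R y) (y - R y))
    (hmin : ∀ y u, g (R y) + ‖R y - y‖ ^ 2 / 2 ≤ g u + ‖u - y‖ ^ 2 / 2) (y : E) :
    HasFDerivAt (Phi g R) (LL (R y)) y := by
  apply HasFDerivAt.of_isLittleO
  rw [Asymptotics.isLittleO_iff]
  intro c hc
  filter_upwards [Metric.ball_mem_nhds y hc] with y' hy'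
  rw [Metric.mem_ball, dist_eq_norm] at hy'
  rw [LL_apply, Real.norm_eq_abs]
  refine (Phi_est hR hmin y y').trans ?_
  nlinarith [norm_nonneg (y' - y)]

lemma A_symm (hR : ∀ y, Sub g (R y) (y - R y))
    (hmin : ∀ y u, g (R y) + ‖R y - y‖ ^ 2 / 2 ≤ g u + ‖u - y‖ ^ 2 / 2) {y : E}
    (hd : DifferentiableAt ℝ R y) (v w : E) :
    ⟪fderiv ℝ R y v, w⟫ = ⟪fderiv ℝ R y w, v⟫ := by
  have h1 : ∀ᶠ z in 𝓝 y, HasFDerivAt (Phi g R) ((LL : E →L[ℝ] E →L[ℝ] ℝ) (R z)) z :=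
    Eventually.of_forall (Phi_hasFDerivAt hR hmin)
  have h2 : HasFDerivAt (fun z => (LL : E →L[ℝ] E →L[ℝ] ℝ) (R z))
      ((LL : E →L[ℝ] E →L[ℝ] ℝ).comp (fderiv ℝ R y)) y :=
    (LL : E →L[ℝ] E →L[ℝ] ℝ).hasFDerivAt.comp y hd.hasFDerivAt
  exact second_derivative_symmetric_of_eventually h1 h2 v w

lemma A_firm (hR : ∀ y, Sub g (R y) (y - R y)) {y : E} (hd : DifferentiableAt ℝ R y) (w : E) :
    ‖fderiv ℝ R y w‖ ^ 2 ≤ ⟪fderiv ℝ R y w, w⟫ := by
  have h1 : HasDerivAt (fun t : ℝ => R (y + t • w)) (fderiv ℝ R y w) 0 := by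
    have h2 : HasDerivAt (fun t : ℝ => y + t • w) w 0 := by
      simpa using ((hasDerivAt_id (0 : ℝ)).smul_const w).const_add y
    have h3 : HasFDerivAt R (fderiv ℝ R y) (y + (0 : ℝ) • w) := by
      simpa using hd.hasFDerivAt
    exact h3.comp_hasDerivAt 0 h2
  have h4 := hasDerivAt_iff_tendsto_slope.mp h1
  have h5 := (h4.norm).pow 2
  have h6 := h4.inner (𝕜 := ℝ) (tendsto_const_nhds (x := w))
  refine le_of_tendsto_of_tendsto h5 h6 ?_
  filter_upwards [self_mem_nhdsWithin] with t ht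
  have ht0 : t ≠ 0 := ht
  simp only [slope, zero_smul, add_zero, sub_zero, vsub_eq_sub]
  have hf := R_firm hR (y + t • w) y
  have e : y + t • w - y = t • w := by abel
  rw [e, inner_smul_right] at hf
  set s := R (y + t • w) - R y
  rw [norm_smul, mul_pow, inner_smul_left, Real.norm_eq_abs, sq_abs]
  simp only [conj_trivial]
  have ht2 : 0 < t ^ 2 := by positivity
  have e3 : t⁻¹ * ⟪s, w⟫ = (t⁻¹) ^ 2 * (t * ⟪s, w⟫) := by
    field_simp
  rw [e3]
  exact mul_le_mul_of_nonneg_left hf (by positivity)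

end R

lemma image_null {R : E → E} (hR : LipschitzWith 1 R) {s : Set E} (hs : (volume : Measure E) s = 0) :
    (volume : Measure E) (R '' s) = 0 := by
  have h1 := hR.hausdorffMeasure_image_le (d := (Module.finrank ℝ E : ℝ)) (by positivity) s
  have hac1 : (volume : Measure E) ≪ (Measure.hausdorffMeasure (Module.finrank ℝ E : ℝ) : Measure E) :=
    Measure.absolutelyContinuous_isAddHaarMeasure _ _
  have hac2 : (Measure.hausdorffMeasure (Module.finrank ℝ E : ℝ) : Measure E) ≪ (volume : Measure E) :=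
    Measure.absolutelyContinuous_isAddHaarMeasure _ _
  have h2 := hac2 hs
  apply hac1
  rw [h2] at h1
  simpa using h1

/-- First order expansion at a differentiability point. -/
lemma expansion {g : E → ℝ} {x : E} (hd : DifferentiableAt ℝ g x) {ε : ℝ} (hε : 0 < ε) :
    ∃ δ > 0, ∀ h : E, ‖h‖ < δ → |g (x + h) - g x - ⟪gradient g x, h⟫| ≤ ε * ‖h‖ := by
  have h1 := hasGradientAt_iff_isLittleO_nhds_zero.mp hd.hasGradientAt
  have h2 := h1.def hε
  obtain ⟨δ, hδ, h3⟩ := Metric.eventually_nhds_iff.mp h2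
  refine ⟨δ, hδ, fun h hh => ?_⟩
  have := h3 (y := h) (by simpa [dist_eq_norm] using hh)
  simpa using this

lemma sub_of_diff {g : E → ℝ} (hg : ConvexOn ℝ univ g) {x : E} (hd : DifferentiableAt ℝ g x) :
    Sub g x (gradient g x) := by
  intro u
  set h := u - x with hh
  suffices hs : ⟪gradient g x, h⟫ ≤ g u - g x by linarith
  apply le_of_forall_pos_le_add
  intro ε hε
  have hpos : 0 < ‖h‖ + 1 := by positivity
  obtain ⟨δ, hδ, hexp⟩ := expansion hd (div_pos hε hpos)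
  set t : ℝ := min 1 (δ / (2 * (‖h‖ + 1))) with ht
  have ht0 : 0 < t := lt_min one_pos (by positivity)
  have ht1 : t ≤ 1 := min_le_left _ _
  have ht2 : t * ‖h‖ < δ := by
    have h1 : t ≤ δ / (2 * (‖h‖ + 1)) := min_le_right _ _
    have h2 : t * (2 * (‖h‖ + 1)) ≤ δ := (le_div_iff₀ (by positivity)).mp h1
    nlinarith [norm_nonneg h]
  have hconv : g (x + t • h) ≤ (1 - t) * g x + t * g u := by
    have := hg.2 (mem_univ x) (mem_univ u) (by linarith : 0 ≤ 1 - t) ht0.le (by ring)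
    simp only [smul_eq_mul] at this
    have e : (1 - t) • x + t • u = x + t • h := by
      rw [hh]; module
    rwa [e] at this
  have h3 := hexp (t • h) (by rw [norm_smul, Real.norm_eq_abs, abs_of_pos ht0]; exact ht2)
  rw [norm_smul, Real.norm_eq_abs, abs_of_pos ht0, inner_smul_right] at h3
  have h4 := (abs_le.mp h3).1
  have h5 : t * ⟪gradient g x, h⟫ ≤ t * (g u - g x + ε / (‖h‖ + 1) * ‖h‖) := by
    nlinarith
  have h6 := le_of_mul_le_mul_left h5 ht0
  have h7 : ε / (‖h‖ + 1) * ‖h‖ ≤ ε := by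
    rw [div_mul_eq_mul_div, div_le_iff₀ hpos]
    nlinarith [norm_nonneg h]
  linarith

/-- Subgradients near a differentiability point are close to the gradient. -/
lemma sub_close {g : E → ℝ} {K : ℝ≥0} (hL : LipschitzWith K g) {x : E}
    (hd : DifferentiableAt ℝ g x) {η : ℝ} (hη : 0 < η) :
    ∃ δ > 0, ∀ x' v', ‖x' - x‖ < δ → Sub g x' v' → ‖v' - gradient g x‖ ≤ η := by
  obtain ⟨δ₀, hδ₀, hexp⟩ := expansion hd (half_pos hη)
  set s : ℝ := δ₀ / 2 with hs
  have hs0 : 0 < s := half_pos hδ₀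
  have hK : (0 : ℝ) ≤ K := K.2
  refine ⟨η * s / (4 * (K + 1)), by positivity, fun x' v' hx' hv' => ?_⟩
  set v := gradient g x with hv
  by_cases hne : v' - v = 0
  · rw [hne, norm_zero]
    exact hη.le
  have hn : 0 < ‖v' - v‖ := norm_pos_iff.mpr hne
  set e : E := ‖v' - v‖⁻¹ • (v' - v) with he
  have hen : ‖e‖ = 1 := by
    rw [he, norm_smul, norm_inv, norm_norm, inv_mul_cancel₀ hn.ne']
  have hev : ⟪v' - v, e⟫ = ‖v' - v‖ := by
    rw [he, inner_smul_right, real_inner_self_eq_norm_sq]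
    field_simp
  set d := ‖x' - x‖ with hd'
  have hd0 : 0 ≤ d := norm_nonneg _
  have h1 := hv' (x + s • e)
  have h2 := hexp (s • e) (by
    rw [norm_smul, hen, mul_one, Real.norm_eq_abs, abs_of_pos hs0, hs]
    linarith)
  rw [norm_smul, hen, mul_one, Real.norm_eq_abs, abs_of_pos hs0, inner_smul_right] at h2
  have h3 := (abs_le.mp h2).2
  have h4 := hL.dist_le_mul x' x
  rw [Real.dist_eq, dist_eq_norm] at h4
  have h5 : g x - K * d ≤ g x' := by
    have := (abs_le.mp h4).1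
    linarith
  have h6 : ⟪v', x + s • e - x'⟫ = s * ⟪v', e⟫ + ⟪v', x - x'⟫ := by
    have e1 : x + s • e - x' = s • e + (x - x') := by abel
    rw [e1, inner_add_right, inner_smul_right]
  have h7 : -(K * d) ≤ ⟪v', x - x'⟫ := by
    have h8 := abs_real_inner_le_norm v' (x - x')
    have h9 := (abs_le.mp h8).1
    have h10 := sub_norm_le hL hv'
    have h11 : ‖x - x'‖ = d := norm_sub_rev _ _
    rw [h11] at h9
    nlinarith
  have h8 : ⟪v', e⟫ = ⟪v, e⟫ + ‖v' - v‖ := by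
    rw [← hev, inner_sub_left]
    ring
  rw [h6, h8] at h1
  have h9 : s * ‖v' - v‖ ≤ 2 * (K * d) + η / 2 * s := by nlinarith
  have h10 : d * (4 * (K + 1)) < η * s := (lt_div_iff₀ (by positivity)).mp hx'
  have h11 : 2 * (K * d) ≤ η / 2 * s := by nlinarith
  have h12 : s * ‖v' - v‖ ≤ s * η := by linarith
  exact le_of_mul_le_mul_left h12 hs0

end G1

open G1 in
/-- Alexandrov's theorem for convex Lipschitz functions, in the subgradient form. -/
theorem alexandrov {g : E → ℝ} (hg : ConvexOn ℝ univ g) {K : ℝ≥0} (hL : LipschitzWith K g) :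
    ∀ᵐ x ∂(volume : Measure E), DifferentiableAt ℝ g x ∧
      ∃ H : E →L[ℝ] E, (∀ v w, ⟪H v, w⟫ = ⟪v, H w⟫) ∧ (∀ v, 0 ≤ ⟪H v, v⟫) ∧
        ∀ ε > 0, ∃ δ > 0, ∀ x' v', ‖x' - x‖ < δ → (∀ y, g x' + ⟪v', y - x'⟫ ≤ g y) →
          ‖v' - gradient g x - H (x' - x)‖ ≤ ε * ‖x' - x‖ := by
  classical
  choose R hmin using fun y => G1.exists_min hL y
  have hsub : ∀ y, G1.Sub g (R y) (y - R y) := fun y => G1.sub_of_min hg (hmin y)
  have hlip : LipschitzWith 1 R := G1.R_lip hsub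
  let Z0 : Set E := {y | ¬ DifferentiableAt ℝ R y}
  have hZ0 : (volume : Measure E) Z0 = 0 := hlip.ae_differentiableAt (μ := volume)
  let Z1 : Set E := {y | DifferentiableAt ℝ R y ∧ (fderiv ℝ R y).det = 0}
  have hZ1 : (volume : Measure E) (R '' Z1) = 0 :=
    addHaar_image_eq_zero_of_det_fderivWithin_eq_zero (f' := fun y => fderiv ℝ R y) volume
      (fun y hy => hy.1.hasFDerivAt.hasFDerivWithinAt) (fun y hy => hy.2)
  have hZ0' : (volume : Measure E) (R '' Z0) = 0 := G1.image_null hlip hZ0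
  have hg0 : ∀ᵐ x ∂(volume : Measure E), x ∉ R '' Z0 := measure_eq_zero_iff_ae_notMem.mp hZ0'
  have hg1 : ∀ᵐ x ∂(volume : Measure E), x ∉ R '' Z1 := measure_eq_zero_iff_ae_notMem.mp hZ1
  filter_upwards [hL.ae_differentiableAt (μ := volume), hg0, hg1] with x hxd hx0 hx1
  refine ⟨hxd, ?_⟩
  set v := gradient g x with hv
  have hvsub : G1.Sub g x v := G1.sub_of_diff hg hxd
  set y := x + v with hy
  have hRy : R y = x := G1.R_of_sub hsub hvsub
  have hyd : DifferentiableAt ℝ R y := by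
    by_contra h
    exact hx0 ⟨y, h, hRy⟩
  have hdet : (fderiv ℝ R y).det ≠ 0 := by
    intro h
    exact hx1 ⟨y, ⟨hyd, h⟩, hRy⟩
  set A : E →L[ℝ] E := fderiv ℝ R y with hA
  let e : E ≃L[ℝ] E := A.toContinuousLinearEquivOfDetNeZero hdet
  have heA : ∀ u, e u = A u := fun u => rfl
  let B : E →L[ℝ] E := (e.symm : E →L[ℝ] E)
  have hAB : ∀ u, A (B u) = u := fun u => by
    rw [← heA]
    exact e.apply_symm_apply u
  have hBA : ∀ u, B (A u) = u := fun u => by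
    rw [← heA]
    exact e.symm_apply_apply u
  have hAs : ∀ a b, ⟪A a, b⟫ = ⟪a, A b⟫ := fun a b => by
    rw [G1.A_symm hsub hmin hyd a b, real_inner_comm]
  have hBs : ∀ a b, ⟪B a, b⟫ = ⟪a, B b⟫ := fun a b => by
    calc ⟪B a, b⟫ = ⟪B a, A (B b)⟫ := by rw [hAB]
      _ = ⟪A (B a), B b⟫ := (hAs _ _).symm
      _ = ⟪a, B b⟫ := by rw [hAB]
  refine ⟨B - ContinuousLinearMap.id ℝ E, ?_, ?_, ?_⟩
  · intro a b
    have h4 : ∀ c, (B - ContinuousLinearMap.id ℝ E) c = B c - c := fun c => rfl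
    rw [h4, h4, inner_sub_left, inner_sub_right, hBs]
  · intro a
    have h1 : ‖A (B a)‖ ^ 2 ≤ ⟪A (B a), B a⟫ := G1.A_firm hsub hyd (B a)
    rw [hAB] at h1
    have h3 := real_inner_comm a (B a)
    have h4 : (B - ContinuousLinearMap.id ℝ E) a = B a - a := rfl
    rw [h4, inner_sub_left, real_inner_self_eq_norm_sq]
    linarith
  · intro ε hε
    set C : ℝ := ‖B‖ + 1 with hC
    have hC0 : 0 < C := by positivity
    have hBle : ∀ u, ‖B u‖ ≤ C * ‖u‖ := fun u =>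
      (B.le_opNorm u).trans (mul_le_mul_of_nonneg_right (by linarith) (norm_nonneg _))
    set ε' : ℝ := min (1 / (2 * C)) (ε / (2 * C ^ 2)) with hε'
    have hε'0 : 0 < ε' := lt_min (by positivity) (by positivity)
    have h1 : C * ε' ≤ 1 / 2 := by
      have h2 : ε' ≤ 1 / (2 * C) := min_le_left _ _
      calc C * ε' ≤ C * (1 / (2 * C)) := mul_le_mul_of_nonneg_left h2 hC0.le
        _ = 1 / 2 := by field_simp
    have h2 : 2 * C ^ 2 * ε' ≤ ε := by
      have h3 : ε' ≤ ε / (2 * C ^ 2) := min_le_right _ _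
      have := (le_div_iff₀ (by positivity : 0 < 2 * C ^ 2)).mp h3
      linarith
    have hRd := hyd.hasFDerivAt
    have h3 := (hasFDerivAt_iff_isLittleO_nhds_zero.mp hRd).def hε'0
    obtain ⟨δ₁, hδ₁, h4⟩ := Metric.eventually_nhds_iff.mp h3
    obtain ⟨δ₂, hδ₂, h5⟩ := G1.sub_close hL hxd (η := δ₁ / 3) (by positivity)
    refine ⟨min δ₂ (δ₁ / 3), lt_min hδ₂ (by positivity), fun x' v' hx' hv' => ?_⟩
    have hx'1 : ‖x' - x‖ < δ₂ := hx'.trans_le (min_le_left _ _)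
    have hx'2 : ‖x' - x‖ < δ₁ / 3 := hx'.trans_le (min_le_right _ _)
    have hv'2 := h5 x' v' hx'1 hv'
    have hRy' : R (x' + v') = x' := G1.R_of_sub hsub hv'
    set h := (x' + v') - y with hh
    have hh1 : h = (x' - x) + (v' - v) := by rw [hh, hy]; abel
    have hhn : ‖h‖ < δ₁ := by
      rw [hh1]
      calc ‖(x' - x) + (v' - v)‖ ≤ ‖x' - x‖ + ‖v' - v‖ := norm_add_le _ _
        _ < δ₁ := by linarith
    have h6 := h4 (y := h) (by simpa [dist_eq_norm] using hhn)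
    have e1 : y + h = x' + v' := by rw [hh]; abel
    rw [e1, hRy', hRy] at h6
    set r := x' - x - A h with hr
    have h6' : ‖r‖ ≤ ε' * ‖h‖ := h6
    have hBr : B r = B (x' - x) - h := by
      rw [hr, map_sub, map_sub, hBA]
    have h7 : ‖B r‖ ≤ C * (ε' * ‖h‖) :=
      (hBle r).trans (mul_le_mul_of_nonneg_left h6' hC0.le)
    have h8 : ‖h‖ ≤ 2 * C * ‖x' - x‖ := by
      have e2 : h = B (x' - x) - B r := by rw [hBr]; abel
      have h9 : ‖h‖ ≤ ‖B (x' - x)‖ + ‖B r‖ := by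
        conv_lhs => rw [e2]
        exact norm_sub_le _ _
      have h10 := hBle (x' - x)
      have h11 : C * (ε' * ‖h‖) ≤ 1 / 2 * ‖h‖ := by
        have := mul_le_mul_of_nonneg_right h1 (norm_nonneg h)
        linarith
      linarith
    have e3 : v' - v - (B - ContinuousLinearMap.id ℝ E) (x' - x) = -(B r) := by
      have h4 : (B - ContinuousLinearMap.id ℝ E) (x' - x) = B (x' - x) - (x' - x) := rfl
      rw [hBr, h4, hh1]
      abel
    rw [e3, norm_neg]
    calc ‖B r‖ ≤ C * (ε' * ‖h‖) := h7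
      _ ≤ C * (ε' * (2 * C * ‖x' - x‖)) := by
          apply mul_le_mul_of_nonneg_left _ hC0.le
          exact mul_le_mul_of_nonneg_left h8 hε'0.le
      _ = (2 * C ^ 2 * ε') * ‖x' - x‖ := by ring
      _ ≤ ε * ‖x' - x‖ := mul_le_mul_of_nonneg_right h2 (norm_nonneg _)

end Vale.Agent.Lib.P084T
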