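import Vale.Agent.Lib.P084T.A2
import Vale.Agent.Lib.P084T.G1

set_option linter.unusedSectionVars false

/-! # P084T part G2. See `notes/P084_blueprint.md`, section G2. -/

open MeasureTheory Set Filter Topology
open scoped RealInnerProductSpace ENNReal NNReal

namespace Vale.Agent.Lib.P084T

variable {E : Type*} [NormedAddCommGroup E] [InnerProductSpace ℝ E] [FiniteDimensional ℝ E]
  [CompleteSpace E] [MeasurableSpace E] [BorelSpace E]
variable {N N' : NF E}

private lemma G2_convexOn (N : NF E) : ConvexOn ℝ univ (N : E → ℝ) := by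
  refine ⟨convex_univ, fun x _ y _ a b ha hb _ => ?_⟩
  calc N (a • x + b • y) ≤ N (a • x) + N (b • y) := N.add_le _ _
    _ = a • N x + b • N y := by
        rw [N.smul_eq, N.smul_eq, abs_of_nonneg ha, abs_of_nonneg hb]
        simp

/-- The upper Taylor bound holds almost everywhere. -/
theorem ae_UT (N : NF E) : ∀ᵐ x ∂(volume : Measure E), UT N x := by
  obtain ⟨K, hK⟩ := N.lipschitz
  filter_upwards [alexandrov (G2_convexOn N) hK] with x hx
  obtain ⟨_, H, _, _, hH⟩ := hx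
  obtain ⟨δ, hδ, h⟩ := hH 1 one_pos
  refine ⟨‖H‖ + 1, δ, hδ, fun k hk => ?_⟩
  have hsub : ∃ v' : E, ∀ y, N (x + k) + ⟪v', y - (x + k)⟫ ≤ N y := by
    by_cases hxk : x + k = 0
    · refine ⟨0, fun y => ?_⟩
      rw [hxk, N.map_zero', inner_zero_left, add_zero]
      exact N.nonneg y
    · obtain ⟨ξ, hξ1, hξx⟩ := N.exists_norming_fun hxk
      refine ⟨ξ, fun y => ?_⟩
      rw [inner_sub_right, hξx]
      have := N.inner_le ξ y
      rw [hξ1, one_mul] at this
      linarith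
  obtain ⟨v', hv'⟩ := hsub
  have h1 := h (x + k) v' (by simpa using hk) hv'
  simp only [add_sub_cancel_left, one_mul] at h1
  have h2 := hv' x
  have e : x - (x + k) = -k := by abel
  rw [e, inner_neg_right] at h2
  have hg : grad N x = gradient (N : E → ℝ) x := rfl
  rw [← hg] at h1
  have h3 : ⟪v', k⟫ = ⟪grad N x, k⟫ + ⟪H k, k⟫ + ⟪v' - grad N x - H k, k⟫ := by
    simp only [inner_sub_left]
    ring
  have h4 : ⟪H k, k⟫ ≤ ‖H‖ * ‖k‖ * ‖k‖ := by
    refine (real_inner_le_norm _ _).trans ?_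
    exact mul_le_mul_of_nonneg_right (H.le_opNorm k) (norm_nonneg _)
  have h5 : ⟪v' - grad N x - H k, k⟫ ≤ ‖k‖ * ‖k‖ := by
    refine (real_inner_le_norm _ _).trans ?_
    exact mul_le_mul_of_nonneg_right h1 (norm_nonneg _)
  nlinarith

/-- Under strict convexity, the norming point map is differentiable almost everywhere, with a
symmetric positive semidefinite derivative. -/
theorem ae_AlexAt (hSC : StrictC N) : ∀ᵐ ξ ∂(volume : Measure E), AlexAt N ξ := by
  by_cases hE : Nontrivial E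
  · obtain ⟨K, hK⟩ := N.dual.lipschitz
    have hne : ∀ᵐ ξ ∂(volume : Measure E), ξ ≠ 0 := by
      have h0 : (volume : Measure E) {0} = 0 := measure_singleton 0
      exact measure_eq_zero_iff_ae_notMem.mp h0
    filter_upwards [alexandrov (G2_convexOn N.dual) hK, hne] with ξ hξ hξ0
    obtain ⟨_, H, hs, hp, hH⟩ := hξ
    refine ⟨H, ?_, hs, hp⟩
    apply HasFDerivAt.of_isLittleO
    rw [Asymptotics.isLittleO_iff]
    intro c hc
    obtain ⟨δ, hδ, h⟩ := hH c hc
    filter_upwards [Metric.ball_mem_nhds ξ hδ, isOpen_ne.mem_nhds hξ0] with ξ' h1 h2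
    obtain ⟨_, hu1, hu2⟩ := hSC.uhat_spec (ξ := ξ') h2
    have hsub : ∀ y, N.dual ξ' + ⟪uhat N ξ', y - ξ'⟫ ≤ N.dual y := by
      intro y
      rw [inner_sub_right, real_inner_comm ξ' (uhat N ξ'), hu2, real_inner_comm y (uhat N ξ')]
      have h3 := N.inner_le y (uhat N ξ')
      rw [hu1, mul_one] at h3
      linarith
    have h4 := h ξ' (uhat N ξ') (by simpa [dist_eq_norm] using h1) hsub
    exact h4
  · have hall : ∀ x : E, x = 0 := by
      intro x
      by_contra hx
      exact hE ⟨⟨x, 0, hx⟩⟩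
    have hss : Subsingleton E := ⟨fun a b => by rw [hall a, hall b]⟩
    refine ae_of_all _ fun ξ => ⟨0, hasFDerivAt_of_subsingleton _ _, fun v w => ?_, fun v => ?_⟩
    · rw [hall v, hall w]
      simp
    · rw [hall v]
      simp

/-- The set of points where `AlexAt` holds is Borel. -/
theorem measurableSet_AlexAt (N : NF E) : MeasurableSet {ξ | AlexAt N ξ} := by
  have h1 : MeasurableSet {ξ | DifferentiableAt ℝ (uhat N) ξ} :=
    measurableSet_of_differentiableAt ℝ (uhat N)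
  have h2 : Measurable (fderiv ℝ (uhat N)) := measurable_fderiv ℝ (uhat N)
  let S : Set (E →L[ℝ] E) := {Q | (∀ v w, ⟪Q v, w⟫ = ⟪v, Q w⟫) ∧ ∀ v, 0 ≤ ⟪Q v, v⟫}
  have hS : IsClosed S := by
    have hS1 : IsClosed {Q : E →L[ℝ] E | ∀ v w, ⟪Q v, w⟫ = ⟪v, Q w⟫} := by
      simp only [setOf_forall]
      refine isClosed_iInter fun v => isClosed_iInter fun w => isClosed_eq ?_ ?_
      · exact ((continuous_id.clm_apply continuous_const).inner continuous_const)
      · exact (continuous_const.inner (continuous_id.clm_apply continuous_const))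
    have hS2 : IsClosed {Q : E →L[ℝ] E | ∀ v, 0 ≤ ⟪Q v, v⟫} := by
      simp only [setOf_forall]
      refine isClosed_iInter fun v => isClosed_le continuous_const ?_
      exact ((continuous_id.clm_apply continuous_const).inner continuous_const)
    exact hS1.inter hS2
  have h3 : {ξ | AlexAt N ξ} = {ξ | DifferentiableAt ℝ (uhat N) ξ} ∩ fderiv ℝ (uhat N) ⁻¹' S := by
    ext ξ
    constructor
    · rintro ⟨Q, hQ, hs, hp⟩
      refine ⟨hQ.differentiableAt, ?_⟩
      show fderiv ℝ (uhat N) ξ ∈ S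
      rw [hQ.fderiv]
      exact ⟨hs, hp⟩
    · rintro ⟨hd, hs, hp⟩
      exact ⟨fderiv ℝ (uhat N) ξ, hd.hasFDerivAt, hs, hp⟩
  rw [h3]
  exact h1.inter (h2 hS.measurableSet)

private lemma G2_smul_aux (N : NF E) {c : ℝ} (hc : 0 < c) {ξ : E} (h : AlexAt N ξ) :
    AlexAt N (c • ξ) := by
  obtain ⟨Q, hQ, hs, hp⟩ := h
  refine ⟨c⁻¹ • Q, ?_, ?_, ?_⟩
  · have h1 : uhat N = fun η => uhat N (c⁻¹ • η) := by
      funext η
      rw [uhat_smul N (inv_pos.mpr hc)]
    have h2 : HasFDerivAt (fun η : E => c⁻¹ • η) (c⁻¹ • ContinuousLinearMap.id ℝ E) (c • ξ) :=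
      ((ContinuousLinearMap.id ℝ E).hasFDerivAt).const_smul c⁻¹
    have h3 : HasFDerivAt (uhat N) Q (c⁻¹ • (c • ξ)) := by
      rwa [smul_smul, inv_mul_cancel₀ hc.ne', one_smul]
    have h4 := h3.comp (c • ξ) h2
    have e : Q.comp (c⁻¹ • ContinuousLinearMap.id ℝ E) = c⁻¹ • Q := by
      ext v
      simp
    rw [e] at h4
    rw [h1]
    exact h4
  · intro v w
    simp only [ContinuousLinearMap.smul_apply, inner_smul_left, inner_smul_right, conj_trivial]
    rw [hs]
  · intro v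
    simp only [ContinuousLinearMap.smul_apply, inner_smul_left, conj_trivial]
    exact mul_nonneg (inv_pos.mpr hc).le (hp v)

/-- `AlexAt` only depends on the ray. -/
theorem AlexAt_smul (N : NF E) {c : ℝ} (hc : 0 < c) {ξ : E} : AlexAt N (c • ξ) ↔ AlexAt N ξ := by
  constructor
  · intro h
    have := G2_smul_aux N (inv_pos.mpr hc) h
    rwa [smul_smul, inv_mul_cancel₀ hc.ne', one_smul] at this
  · exact G2_smul_aux N hc

/-- The derivative `Q` kills `ξ` and has range in the kernel of `ξ`. -/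
theorem AlexAt_kill {ξ : E} (hξ : ξ ≠ 0) {Q : E →L[ℝ] E}
    (hQ : HasFDerivAt (uhat N) Q ξ) (hsym : ∀ v w, ⟪Q v, w⟫ = ⟪v, Q w⟫) :
    Q ξ = 0 ∧ ∀ η, ⟪ξ, Q η⟫ = 0 := by
  have h1 : HasDerivAt (fun t : ℝ => uhat N (ξ + t • ξ)) (Q ξ) 0 := by
    have h2 : HasDerivAt (fun t : ℝ => ξ + t • ξ) ξ 0 := by
      simpa using ((hasDerivAt_id (0 : ℝ)).smul_const ξ).const_add ξ
    have h3 : HasFDerivAt (uhat N) Q (ξ + (0 : ℝ) • ξ) := by
      simpa using hQ
    exact h3.comp_hasDerivAt 0 h2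
  have h4 : (fun t : ℝ => uhat N (ξ + t • ξ)) =ᶠ[𝓝 0] fun _ => uhat N ξ := by
    filter_upwards [Ioi_mem_nhds (show (-1 : ℝ) < 0 by norm_num)] with t ht
    have e : ξ + t • ξ = (1 + t) • ξ := by rw [add_smul, one_smul]
    rw [e, uhat_smul N (by linarith [mem_Ioi.mp ht])]
  have h5 : HasDerivAt (fun t : ℝ => uhat N (ξ + t • ξ)) 0 0 :=
    (hasDerivAt_const (0 : ℝ) (uhat N ξ)).congr_of_eventuallyEq h4
  have h6 : Q ξ = 0 := h1.unique h5
  refine ⟨h6, fun η => ?_⟩
  rw [← hsym, h6, inner_zero_left]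

end Vale.Agent.Lib.P084T
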