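import Vale.Agent.Lib.P084T.B4
import Vale.Agent.Lib.P084T.D1
import Vale.Agent.Lib.P084T.G2

set_option linter.unusedSectionVars false

/-! # P084T part D2. See `notes/P084_blueprint.md`, section D2. -/

open MeasureTheory Set Filter Topology
open scoped RealInnerProductSpace ENNReal NNReal

namespace Vale.Agent.Lib.P084T

variable {E : Type*} [NormedAddCommGroup E] [InnerProductSpace ℝ E] [FiniteDimensional ℝ E]
  [CompleteSpace E] [MeasurableSpace E] [BorelSpace E]
variable {N N' : NF E}

/-- The image of a null set under `G` is null: a property valid a.e. is valid at `F x`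
for a.e. `x`. -/
private theorem ae_comp_F [Nontrivial E] (R : RadIso N N') {p : E → Prop}
    (hp : ∀ᵐ y ∂(volume : Measure E), p y) : ∀ᵐ x ∂(volume : Measure E), p (R.F x) := by
  obtain ⟨K, hK⟩ := R.swap.lipschitz_F
  have hA : volume {y : E | ¬ p y} = 0 := hp
  have hΘ : ∀ k : ℕ, ∃ K : ℝ≥0, LipschitzOnWith K R.G
      {x | ((k : ℝ) + 1)⁻¹ ≤ ‖x‖ ∧ ‖x‖ ≤ (k : ℝ) + 1} := fun _ => ⟨K, hK.lipschitzOnWith⟩
  have hnull := null_image_of_lipschitz_annuli hΘ hA
  have hsub : {x : E | ¬ p (R.F x)} ⊆ (R.G '' ({y : E | ¬ p y} \ {0})) ∪ {R.G 0} := by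
    intro x hx
    by_cases h0 : R.F x = 0
    · right
      rw [mem_singleton_iff, ← h0, R.G_F]
    · left
      exact ⟨R.F x, ⟨hx, h0⟩, R.G_F x⟩
  have hfin : volume ((R.G '' ({y : E | ¬ p y} \ {0})) ∪ {R.G 0}) = 0 := by
    refine measure_union_null hnull ?_
    exact measure_singleton _
  exact measure_mono_null hsub hfin

/-- Good points are conull. -/
theorem RadIso.ae_good [Nontrivial E] (R : RadIso N N') : ∀ᵐ x ∂(volume : Measure E), x ∈ Good R := by
  obtain ⟨K₁, hF⟩ := R.lipschitz_F
  obtain ⟨K₂, hG⟩ := R.swap.lipschitz_F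
  obtain ⟨K₃, hN⟩ := N.lipschitz
  obtain ⟨K₄, hN'⟩ := N'.lipschitz
  have h0 : ∀ᵐ x ∂(volume : Measure E), x ≠ 0 := by
    have : volume ({0} : Set E) = 0 := measure_singleton _
    exact compl_mem_ae_iff.mpr this
  have h1 := hF.ae_differentiableAt (μ := (volume : Measure E))
  have h2 := ae_comp_F R (hG.ae_differentiableAt (μ := (volume : Measure E)))
  have h3 := hN.ae_differentiableAt (μ := (volume : Measure E))
  have h4 := ae_comp_F R (hN'.ae_differentiableAt (μ := (volume : Measure E)))
  have h5 := ae_UT N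
  have h6 := ae_comp_F R (ae_UT N')
  filter_upwards [h0, h1, h2, h3, h4, h5, h6] with x a0 a1 a2 a3 a4 a5 a6
  exact ⟨a0, a1, a2, a3, a4, a5, a6⟩

private theorem measurableSet_ball' (N : NF E) : MeasurableSet N.ball :=
  (isOpen_lt N.continuous continuous_const).measurableSet

/-- The outer change of variables. -/
theorem RadIso.outer_cov (R : RadIso N N') {h : E → ℝ≥0∞} (mh : Measurable h) :
    ∫⁻ z' in N'.ball, h z' =
      ∫⁻ z in N.ball, ENNReal.ofReal |(fderiv ℝ R.F z).det| * h (R.F z) := by
  obtain ⟨K₁, hF⟩ := R.lipschitz_F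
  obtain ⟨K₂, hG⟩ := R.swap.lipschitz_F
  have hd := hF.ae_differentiableAt (μ := (volume : Measure E))
  set s : Set E := N.ball ∩ {x | DifferentiableAt ℝ R.F x} with hs
  have hsm : MeasurableSet s :=
    (measurableSet_ball' N).inter (measurableSet_of_differentiableAt ℝ R.F)
  have hf' : ∀ x ∈ s, HasFDerivWithinAt R.F (fderiv ℝ R.F x) s x :=
    fun x hx => hx.2.hasFDerivAt.hasFDerivWithinAt
  have hinj : InjOn R.F s := fun x _ y _ hxy => by
    rw [← R.G_F x, ← R.G_F y, hxy]
  have hcov := lintegral_image_eq_lintegral_abs_det_fderiv_mul (volume : Measure E) hsm hf' hinj h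
  have e1 : s =ᵐ[volume] N.ball := by
    rw [Filter.eventuallyEq_set]
    filter_upwards [hd] with x hx
    exact ⟨fun a => a.1, fun a => ⟨a, hx⟩⟩
  have e2 : (R.F '' s) =ᵐ[volume] N'.ball := by
    rw [Filter.eventuallyEq_set]
    -- a.e. `y`: `F` is differentiable at `G y`
    have hae : ∀ᵐ y ∂(volume : Measure E), DifferentiableAt ℝ R.F (R.G y) := by
      rcases subsingleton_or_nontrivial E with hE | hE
      · refine Eventually.of_forall fun y => ?_
        have hc : R.F = fun _ => R.F 0 := funext fun x => by rw [Subsingleton.elim x 0]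
        rw [hc]
        exact differentiableAt_const _
      · exact ae_comp_F R.swap hd
    filter_upwards [hae] with y hy
    constructor
    · rintro ⟨x, hx, rfl⟩
      show N' (R.F x) < 1
      rw [R.norm_F]
      exact hx.1
    · intro hyb
      refine ⟨R.G y, ⟨?_, ?_⟩, R.F_G y⟩
      · show N (R.G y) < 1
        have := R.norm_F (R.G y)
        rw [R.F_G] at this
        rw [← this]
        exact hyb
      · exact hy
  calc ∫⁻ z' in N'.ball, h z' = ∫⁻ z' in R.F '' s, h z' := setLIntegral_congr e2.symm
    _ = ∫⁻ z in s, ENNReal.ofReal |(fderiv ℝ R.F z).det| * h (R.F z) := hcov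
    _ = ∫⁻ z in N.ball, ENNReal.ofReal |(fderiv ℝ R.F z).det| * h (R.F z) := setLIntegral_congr e1

private theorem RadIso.measurable_F (R : RadIso N N') : Measurable R.F := R.continuous_F.measurable

/-- Measurability of the derived objects. -/
theorem RadIso.measurable_Xi (R : RadIso N N') : Measurable (Xi R) := by
  have h1 : Measurable (fderiv ℝ R.G) := measurable_fderiv ℝ R.G
  have h2 : Measurable (fun a => fderiv ℝ R.G (R.F a)) := h1.comp R.measurable_F
  have h3 : Continuous (fun L : E →L[ℝ] E => ContinuousLinearMap.adjoint L) :=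
    (ContinuousLinearMap.adjoint (𝕜 := ℝ) (E := E) (F := E)).continuous
  exact h3.measurable.comp h2

theorem RadIso.measurable_Tmap (R : RadIso N N') :
    Measurable (fun p : E × E => Tmap R p.1 p.2) := by
  have h1 : Measurable (fun p : E × E => grad N' (R.F p.1)) :=
    (N'.measurable_grad).comp (R.measurable_F.comp measurable_fst)
  have h2 : Measurable (fun p : E × E => Xi R p.1) := R.measurable_Xi.comp measurable_fst
  have h3 : Measurable (fun q : (E →L[ℝ] E) × E => q.1 q.2) :=
    (continuous_fst.clm_apply continuous_snd).measurable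
  have h4 : Measurable (fun p : E × E => Xi R p.1 p.2) :=
    h3.comp (h2.prodMk measurable_snd)
  exact (measurable_entryPt N'.dual).comp (h1.prodMk h4)

theorem RadIso.measurable_ell (R : RadIso N N') :
    Measurable (fun p : E × E => ell R p.1 p.2) := by
  have hd : Measurable (fun p : E × E => (fderiv ℝ R.F p.1).det) :=
    (ContinuousLinearMap.continuous_det.measurable).comp
      ((measurable_fderiv ℝ R.F).comp measurable_fst)
  have hF1 : Measurable (fun p : E × E => R.F p.1) := R.measurable_F.comp measurable_fst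
  have hF2 : Measurable (fun p : E × E => R.F p.2) := R.measurable_F.comp measurable_snd
  have hg1 : Measurable (fun p : E × E => grad N' (R.F p.1)) := N'.measurable_grad.comp hF1
  have hg2 : Measurable (fun p : E × E => grad N p.1) := N.measurable_grad.comp measurable_fst
  have i1 : Measurable (fun p : E × E => ⟪grad N' (R.F p.1), R.F p.2⟫) := hg1.inner hF2
  have i2 : Measurable (fun p : E × E => ⟪grad N p.1, p.2⟫) := hg2.inner measurable_snd
  unfold ell
  exact ((hd.abs).mul (measurable_const.sub i1)).div (measurable_const.sub i2)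

end Vale.Agent.Lib.P084T
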