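import Vale.Agent.Lib.P084T.B2

set_option linter.unusedSectionVars false

/-! # P084T part B4. See `notes/P084_blueprint.md`, section B4. -/

open MeasureTheory Set Filter Topology
open scoped RealInnerProductSpace ENNReal NNReal

namespace Vale.Agent.Lib.P084T

variable {E : Type*} [NormedAddCommGroup E] [InnerProductSpace ℝ E] [FiniteDimensional ℝ E]
  [CompleteSpace E] [MeasurableSpace E] [BorelSpace E]
variable {N N' : NF E}

/-- A map which is Lipschitz on the annuli sends null sets to null sets. -/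
theorem null_image_of_lipschitz_annuli {Θ : E → E}
    (hΘ : ∀ k : ℕ, ∃ K : ℝ≥0, LipschitzOnWith K Θ {x | ((k : ℝ) + 1)⁻¹ ≤ ‖x‖ ∧ ‖x‖ ≤ (k : ℝ) + 1})
    {A : Set E} (hA : volume A = 0) : volume (Θ '' (A \ {0})) = 0 := by
  have hac₁ : (volume : Measure E) ≪ μH[(Module.finrank ℝ E : ℝ)] :=
    Measure.absolutelyContinuous_isAddHaarMeasure _ _
  have hac₂ : (μH[(Module.finrank ℝ E : ℝ)] : Measure E) ≪ volume :=
    Measure.absolutelyContinuous_isAddHaarMeasure _ _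
  have hA' : (μH[(Module.finrank ℝ E : ℝ)] : Measure E) A = 0 := hac₂ hA
  have hsub : Θ '' (A \ {0}) ⊆
      ⋃ k : ℕ, Θ '' (A ∩ {x | ((k : ℝ) + 1)⁻¹ ≤ ‖x‖ ∧ ‖x‖ ≤ (k : ℝ) + 1}) := by
    rintro _ ⟨x, ⟨hxA, hx0⟩, rfl⟩
    have hx : 0 < ‖x‖ := norm_pos_iff.mpr hx0
    obtain ⟨k₁, hk₁⟩ := exists_nat_ge (max ‖x‖ ‖x‖⁻¹)
    refine mem_iUnion.mpr ⟨k₁, x, ⟨hxA, ?_, ?_⟩, rfl⟩
    · rw [inv_le_comm₀ (by positivity) hx]
      have := (le_max_right ‖x‖ ‖x‖⁻¹).trans hk₁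
      linarith
    · have := (le_max_left ‖x‖ ‖x‖⁻¹).trans hk₁
      linarith
  refine measure_mono_null hsub (measure_iUnion_null fun k => hac₁ ?_)
  obtain ⟨K, hK⟩ := hΘ k
  have hle := (hK.mono (inter_subset_right (s := A))).hausdorffMeasure_image_le
    (d := (Module.finrank ℝ E : ℝ)) (by positivity)
  have h0 : (μH[(Module.finrank ℝ E : ℝ)] : Measure E) (A ∩ {x | ((k : ℝ) + 1)⁻¹ ≤ ‖x‖ ∧ ‖x‖ ≤ (k : ℝ) + 1}) = 0 :=
    measure_mono_null inter_subset_left hA'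
  rw [h0, mul_zero] at hle
  exact nonpos_iff_eq_zero.mp hle

/-- `rad N` is Lipschitz on the annuli. -/
theorem rad_lipschitz_annuli (N : NF E) (k : ℕ) :
    ∃ K : ℝ≥0, LipschitzOnWith K (rad N) {x | ((k : ℝ) + 1)⁻¹ ≤ ‖x‖ ∧ ‖x‖ ≤ (k : ℝ) + 1} := by
  obtain ⟨K₀, hK₀⟩ := N.lipschitz
  obtain ⟨C, hC, hb⟩ := N.exists_bounds
  have hk : (0 : ℝ) < (k : ℝ) + 1 := by positivity
  set M : ℝ := C * ((k : ℝ) + 1) with hM
  have hMpos : 0 < M := by positivity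
  set K₁ : ℝ := M + (K₀ : ℝ) * (M * M * ((k : ℝ) + 1)) with hK₁
  have hK₁nn : 0 ≤ K₁ := by positivity
  refine ⟨⟨K₁, hK₁nn⟩, LipschitzOnWith.of_dist_le_mul ?_⟩
  intro x hx y hy
  have hinv : ∀ z : E, ((k : ℝ) + 1)⁻¹ ≤ ‖z‖ → 0 < N z ∧ (N z)⁻¹ ≤ M := by
    intro z hz
    have hzpos : 0 < ‖z‖ := lt_of_lt_of_le (by positivity) hz
    have hz0 : z ≠ 0 := norm_pos_iff.mp hzpos
    have hNpos := N.pos z hz0
    refine ⟨hNpos, ?_⟩
    rw [inv_le_comm₀ hNpos hMpos]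
    have h1 : ‖z‖ ≤ C * N z := (hb z).2
    have h2 : M⁻¹ = C⁻¹ * ((k : ℝ) + 1)⁻¹ := by rw [hM, mul_inv]
    rw [h2]
    calc C⁻¹ * ((k : ℝ) + 1)⁻¹ ≤ C⁻¹ * ‖z‖ := mul_le_mul_of_nonneg_left hz (by positivity)
      _ ≤ C⁻¹ * (C * N z) := mul_le_mul_of_nonneg_left h1 (by positivity)
      _ = N z := by field_simp
  obtain ⟨hxp, hxM⟩ := hinv x hx.1
  obtain ⟨hyp, hyM⟩ := hinv y hy.1
  have hNd : |N x - N y| ≤ (K₀ : ℝ) * dist x y := by
    have := hK₀.dist_le_mul x y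
    rwa [Real.dist_eq] at this
  have hinvdiff : |(N x)⁻¹ - (N y)⁻¹| ≤ M * M * ((K₀ : ℝ) * dist x y) := by
    have e : (N x)⁻¹ - (N y)⁻¹ = (N x)⁻¹ * (N y)⁻¹ * (N y - N x) := by
      field_simp
    rw [e, abs_mul, abs_mul, abs_of_pos (inv_pos.mpr hxp), abs_of_pos (inv_pos.mpr hyp),
      abs_sub_comm]
    have hpp : (N x)⁻¹ * (N y)⁻¹ ≤ M * M := mul_le_mul hxM hyM (inv_pos.mpr hyp).le hMpos.le
    exact mul_le_mul hpp hNd (abs_nonneg _) (by positivity)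
  have edist : rad N x - rad N y = (N x)⁻¹ • (x - y) + ((N x)⁻¹ - (N y)⁻¹) • y := by
    unfold rad
    rw [smul_sub, sub_smul]
    abel
  rw [dist_eq_norm (rad N x), edist, dist_eq_norm x y]
  refine (norm_add_le _ _).trans ?_
  rw [norm_smul, norm_smul, Real.norm_eq_abs, Real.norm_eq_abs, abs_of_pos (inv_pos.mpr hxp)]
  rw [← dist_eq_norm x y]
  have hy2 : ‖y‖ ≤ (k : ℝ) + 1 := hy.2
  calc (N x)⁻¹ * dist x y + |(N x)⁻¹ - (N y)⁻¹| * ‖y‖
      ≤ M * dist x y + (M * M * ((K₀ : ℝ) * dist x y)) * ((k : ℝ) + 1) := by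
        gcongr
    _ = K₁ * dist x y := by rw [hK₁]; ring

/-- Null cones are avoided by entry points. -/
theorem ae_entry_not_mem_aux (N : NF E) {v : E} (hv : v ≠ 0) {A : Set E}
    (hA : volume A = 0) (hcone : ∀ x ∈ A, ∀ c : ℝ, 0 < c → c • x ∈ A) :
    ∀ᵐ z ∂(volume : Measure E), z ∈ N.ball → entryPt N v z ∉ A := by
  have hlip : ∀ k : ℕ, ∃ K : ℝ≥0, LipschitzOnWith K (fun x => rad N x + N x • v)
      {x | ((k : ℝ) + 1)⁻¹ ≤ ‖x‖ ∧ ‖x‖ ≤ (k : ℝ) + 1} := by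
    intro k
    obtain ⟨K₁, hK₁⟩ := rad_lipschitz_annuli N k
    obtain ⟨K₀, hK₀⟩ := N.lipschitz
    have h2 : LipschitzOnWith (K₀ * ‖v‖₊) (fun x => N x • v)
        {x | ((k : ℝ) + 1)⁻¹ ≤ ‖x‖ ∧ ‖x‖ ≤ (k : ℝ) + 1} := by
      refine LipschitzOnWith.of_dist_le_mul ?_
      intro x _ y _
      have := hK₀.dist_le_mul x y
      rw [dist_eq_norm, ← sub_smul, norm_smul, Real.norm_eq_abs, ← Real.dist_eq, NNReal.coe_mul, coe_nnnorm]
      calc dist (N x) (N y) * ‖v‖ ≤ ((K₀ : ℝ) * dist x y) * ‖v‖ :=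
            mul_le_mul_of_nonneg_right this (norm_nonneg _)
        _ = (K₀ : ℝ) * ‖v‖ * dist x y := by ring
    exact ⟨K₁ + K₀ * ‖v‖₊, hK₁.add h2⟩
  have hnull := null_image_of_lipschitz_annuli hlip hA
  have hsub : {z | z ∈ N.ball ∧ entryPt N v z ∈ A} ⊆
      (fun x => rad N x + N x • v) '' (A \ {0}) := by
    rintro z ⟨hz, hzA⟩
    have hh := hits_of_mem_ball N (v := v) hz
    have ht := tm_pos N hv hz
    have hna : N (entryPt N v z) = 1 := norm_entryPt N hv hh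
    have ha0 : entryPt N v z ≠ 0 := by
      intro h
      rw [h, N.map_zero'] at hna
      exact zero_ne_one hna
    have hNx : N (tm N v z • entryPt N v z) = tm N v z := by
      rw [N.smul_eq, hna, mul_one, abs_of_pos ht]
    refine ⟨tm N v z • entryPt N v z, ⟨hcone _ hzA _ ht, smul_ne_zero ht.ne' ha0⟩, ?_⟩
    simp only
    rw [hNx]
    unfold rad
    rw [hNx, smul_smul, inv_mul_cancel₀ ht.ne', one_smul]
    unfold entryPt
    abel
  rw [ae_iff]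
  refine measure_mono_null ?_ (measure_mono_null hsub hnull)
  intro z hz
  simp only [Set.mem_ofPred_eq, Classical.not_imp, not_not] at hz
  exact hz

/-- Null cones are avoided by entry and exit points. -/
theorem ae_entry_exit_not_mem (N : NF E) {v : E} (hv : v ≠ 0) {A : Set E}
    (hA : volume A = 0) (hcone : ∀ x ∈ A, ∀ c : ℝ, 0 < c → c • x ∈ A) :
    ∀ᵐ z ∂(volume : Measure E), z ∈ N.ball → entryPt N v z ∉ A ∧ exitPt N v z ∉ A := by
  have h1 := ae_entry_not_mem_aux N hv hA hcone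
  have h2 := ae_entry_not_mem_aux N (neg_ne_zero.mpr hv) hA hcone
  filter_upwards [h1, h2] with z hz1 hz2 hz
  refine ⟨hz1 hz, ?_⟩
  have := hz2 hz
  rwa [entryPt_neg] at this

end Vale.Agent.Lib.P084T
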