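import Vale.Agent.Lib.P084T.B1

set_option linter.unusedSectionVars false

/-! # P084T part B5. See `notes/P084_blueprint.md`, section B5. -/

open MeasureTheory Set Filter Topology
open scoped RealInnerProductSpace ENNReal NNReal

namespace Vale.Agent.Lib.P084T

variable {E : Type*} [NormedAddCommGroup E] [InnerProductSpace ℝ E] [FiniteDimensional ℝ E]
  [CompleteSpace E] [MeasurableSpace E] [BorelSpace E]
variable {N N' : NF E}

/-- The sign of the gradient at the entry point. -/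
private lemma entry_sign (N : NF E) {v w : E} (hv : v ≠ 0) (h : hits N v w)
    (hd : DifferentiableAt ℝ (N : E → ℝ) (entryPt N v w)) :
    ⟪grad N (entryPt N v w), v⟫ < 0 := by
  set a := entryPt N v w with ha
  have hN : N a = 1 := norm_entryPt N hv h
  have ha0 : a ≠ 0 := by
    intro h0
    rw [h0, N.map_zero'] at hN
    norm_num at hN
  obtain ⟨_, hdual, hself⟩ := N.grad_spec ha0 hd
  rw [hN] at hself
  have hlen := len_pos N hv h
  -- a point of the open chord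
  set t := len N v w / 2 with ht
  have hpt : N (a + t • v) < 1 := by
    have e : a + t • v = w + (t - tm N v w) • v := by
      rw [ha]
      unfold entryPt
      rw [sub_smul]
      abel
    rw [e, line_iff N hv h]
    unfold len at ht hlen
    constructor <;> linarith
  have h1 := N.inner_le (grad N a) (a + t • v)
  rw [hdual, one_mul, inner_add_right, hself, inner_smul_right] at h1
  have ht0 : 0 < t := by rw [ht]; linarith
  have : t * ⟪grad N a, v⟫ < 0 := by linarith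
  by_contra hge
  have hge' : 0 ≤ ⟪grad N a, v⟫ := not_lt.mp hge
  have := mul_nonneg ht0.le hge'
  linarith

/-- Data of the line through a nearby point. -/
private lemma near_line (N : NF E) {v w : E} (hv : v ≠ 0) (h : hits N v w) :
    (∀ᶠ h' : E in 𝓝 0, N (entryPt N v w + (h' - (tm N v (w + h') - tm N v w) • v)) = 1) ∧
      Tendsto (fun h' : E => tm N v (w + h') - tm N v w) (𝓝 0) (𝓝 0) := by
  constructor
  · obtain ⟨s, hs⟩ := id h
    have hc : Continuous (fun h' : E => N (w + h' + s • v)) :=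
      N.continuous.comp ((continuous_const.add continuous_id).add continuous_const)
    have h0 : N (w + (0 : E) + s • v) < 1 := by simpa using hs
    filter_upwards [hc.continuousAt.eventually_lt continuousAt_const h0] with h' hh'
    have hh : hits N v (w + h') := ⟨s, hh'⟩
    have e : entryPt N v w + (h' - (tm N v (w + h') - tm N v w) • v) = entryPt N v (w + h') := by
      unfold entryPt
      rw [sub_smul]
      abel
    rw [e]
    exact norm_entryPt N hv hh
  · have h1 := continuousAt_tm N hv h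
    have h2 : ContinuousAt (fun h' : E => (v, w + h')) (0 : E) := by fun_prop
    have h2' : ContinuousAt (fun h' : E => (v, w + h')) (0 : E) := h2
    have e0 : (v, w + (0 : E)) = (v, w) := by simp
    have h3 : ContinuousAt (fun h' : E => tm N v (w + h')) (0 : E) := by
      have h1' : ContinuousAt (fun p : E × E => tm N p.1 p.2) (v, w + (0 : E)) := by
        rw [e0]; exact h1
      exact ContinuousAt.comp (f := fun h' : E => (v, w + h')) (g := fun p : E × E => tm N p.1 p.2)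
        h1' h2
    have h4 := h3.tendsto
    simp only [add_zero] at h4
    have := h4.sub_const (tm N v w)
    simpa using this

/-- First order behaviour of `tm` at a line whose entry point is a differentiability point of
the norm. -/
theorem hasFDerivAt_tm (N : NF E) {v w : E} (hv : v ≠ 0) (h : hits N v w)
    (hd : DifferentiableAt ℝ (N : E → ℝ) (entryPt N v w)) :
    ⟪grad N (entryPt N v w), v⟫ < 0 ∧
      HasFDerivAt (tm N v) ((⟪grad N (entryPt N v w), v⟫)⁻¹ • innerSL ℝ (grad N (entryPt N v w))) w := by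
  have hsign := entry_sign N hv h hd
  refine ⟨hsign, ?_⟩
  set a := entryPt N v w with ha
  set φ := grad N a with hφ
  set d := ⟪φ, v⟫ with hd'
  have hN : N a = 1 := norm_entryPt N hv h
  have hg : HasGradientAt (N : E → ℝ) φ a := hd.hasGradientAt
  have hgo := hasFDerivAt_iff_isLittleO_nhds_zero.mp hg.hasFDerivAt
  rw [Asymptotics.isLittleO_iff] at hgo
  obtain ⟨hnear, hlim⟩ := near_line N hv h
  have hvpos : 0 < ‖v‖ := norm_pos_iff.mpr hv
  have hdpos : 0 < |d| := abs_pos.mpr hsign.ne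
  rw [hasFDerivAt_iff_isLittleO_nhds_zero, Asymptotics.isLittleO_iff]
  intro ε hε
  -- the constants
  set C₁ : ℝ := 2 * (‖φ‖ + 1) / |d| with hC₁
  have hC₁0 : 0 < C₁ := by positivity
  set η : ℝ := min 1 (min (|d| / (2 * ‖v‖)) (ε * |d| / (1 + ‖v‖ * C₁))) with hη
  have hη0 : 0 < η := by
    refine lt_min one_pos (lt_min (by positivity) (by positivity))
  have hη1 : η ≤ 1 := min_le_left _ _
  have hη2 : η ≤ |d| / (2 * ‖v‖) := (min_le_right _ _).trans (min_le_left _ _)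
  have hη3 : η ≤ ε * |d| / (1 + ‖v‖ * C₁) := (min_le_right _ _).trans (min_le_right _ _)
  have hη2' : η * ‖v‖ ≤ |d| / 2 := by
    have := mul_le_mul_of_nonneg_right hη2 hvpos.le
    have e : |d| / (2 * ‖v‖) * ‖v‖ = |d| / 2 := by field_simp
    rwa [e] at this
  have hη3' : η * (1 + ‖v‖ * C₁) ≤ ε * |d| := by
    have hp : 0 < 1 + ‖v‖ * C₁ := by positivity
    have := mul_le_mul_of_nonneg_right hη3 hp.le
    have e : ε * |d| / (1 + ‖v‖ * C₁) * (1 + ‖v‖ * C₁) = ε * |d| := by field_simp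
    rwa [e] at this
  have ho := hgo hη0
  -- `x h' → 0`
  have hx : Tendsto (fun h' : E => h' - (tm N v (w + h') - tm N v w) • v) (𝓝 0) (𝓝 0) := by
    have := (tendsto_id (α := E) (x := 𝓝 0)).sub (hlim.smul_const v)
    simpa using this
  have ho' := hx.eventually ho
  filter_upwards [hnear, ho'] with h' hone hsmall
  set Δ := tm N v (w + h') - tm N v w with hΔ
  set x := h' - Δ • v with hx'
  have e1 : (InnerProductSpace.toDual ℝ E φ) x = ⟪φ, x⟫ := InnerProductSpace.toDual_apply_apply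
  have hone' : N (a + x) = 1 := hone
  rw [e1, Real.norm_eq_abs, hone', hN] at hsmall
  have e2 : ⟪φ, x⟫ = ⟪φ, h'⟫ - Δ * d := by
    rw [hx', inner_sub_right, inner_smul_right]
  have hbx : ‖x‖ ≤ ‖h'‖ + |Δ| * ‖v‖ := by
    calc ‖x‖ ≤ ‖h'‖ + ‖Δ • v‖ := norm_sub_le _ _
      _ = ‖h'‖ + |Δ| * ‖v‖ := by rw [norm_smul, Real.norm_eq_abs]
  have h3 : |⟪φ, x⟫| ≤ η * (‖h'‖ + |Δ| * ‖v‖) := by
    have e3 : (1 : ℝ) - 1 - ⟪φ, x⟫ = -⟪φ, x⟫ := by ring
    rw [e3, abs_neg] at hsmall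
    exact hsmall.trans (mul_le_mul_of_nonneg_left hbx hη0.le)
  rw [e2] at h3
  have h4 : |Δ * d| ≤ |⟪φ, h'⟫| + η * (‖h'‖ + |Δ| * ‖v‖) := by
    have e4 : Δ * d = ⟪φ, h'⟫ - (⟪φ, h'⟫ - Δ * d) := by ring
    rw [e4]
    exact (abs_sub _ _).trans (add_le_add_right h3 _)
  rw [abs_mul] at h4
  have h5 : |⟪φ, h'⟫| ≤ ‖φ‖ * ‖h'‖ := abs_real_inner_le_norm _ _
  have hh0 : 0 ≤ ‖h'‖ := norm_nonneg _
  have hA : |Δ| ≤ C₁ * ‖h'‖ := by
    have hA0 := abs_nonneg Δ
    have h6 : |Δ| * |d| / 2 ≤ (‖φ‖ + 1) * ‖h'‖ := by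
      have h7 : η * ‖h'‖ ≤ 1 * ‖h'‖ := mul_le_mul_of_nonneg_right hη1 hh0
      have h8 : η * (|Δ| * ‖v‖) ≤ |Δ| * |d| / 2 := by
        have := mul_le_mul_of_nonneg_left hη2' hA0
        nlinarith
      nlinarith
    rw [hC₁]
    have e5 : 2 * (‖φ‖ + 1) / |d| * ‖h'‖ = (2 * ((‖φ‖ + 1) * ‖h'‖)) / |d| := by ring
    rw [e5, le_div_iff₀ hdpos]
    linarith
  -- the conclusion
  have e6 : Δ - ((d⁻¹ • innerSL ℝ φ) h') = (Δ * d - ⟪φ, h'⟫) / d := by
    have e7 : (d⁻¹ • innerSL ℝ φ) h' = d⁻¹ * ⟪φ, h'⟫ := by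
      simp [innerSL_apply_apply]
    rw [e7]
    have hd0 : d ≠ 0 := hsign.ne
    field_simp
  rw [Real.norm_eq_abs, e6, abs_div, div_le_iff₀ hdpos, abs_sub_comm]
  have h9 : η * (‖h'‖ + |Δ| * ‖v‖) ≤ η * ((1 + ‖v‖ * C₁) * ‖h'‖) := by
    apply mul_le_mul_of_nonneg_left _ hη0.le
    have := mul_le_mul_of_nonneg_right hA hvpos.le
    nlinarith
  have h10 : η * ((1 + ‖v‖ * C₁) * ‖h'‖) ≤ ε * |d| * ‖h'‖ := by
    rw [← mul_assoc]
    exact mul_le_mul_of_nonneg_right hη3' hh0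
  have e8 : ε * ‖h'‖ * |d| = ε * |d| * ‖h'‖ := by ring
  rw [e8]
  linarith

theorem hasFDerivAt_tp (N : NF E) {v w : E} (hv : v ≠ 0) (h : hits N v w)
    (hd : DifferentiableAt ℝ (N : E → ℝ) (exitPt N v w)) :
    0 < ⟪grad N (exitPt N v w), v⟫ ∧
      HasFDerivAt (tp N v) (-(⟪grad N (exitPt N v w), v⟫)⁻¹ • innerSL ℝ (grad N (exitPt N v w))) w := by
  have hh : hits N (-v) w := by
    obtain ⟨t, ht⟩ := h
    refine ⟨-t, ?_⟩
    rwa [smul_neg, neg_smul, neg_neg]
  rw [← entryPt_neg] at hd ⊢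
  obtain ⟨h1, h2⟩ := hasFDerivAt_tm N (neg_ne_zero.mpr hv) hh hd
  rw [inner_neg_right] at h1 h2
  refine ⟨by linarith, ?_⟩
  have e : tm N (-v) = tp N v := by
    funext x
    exact tm_neg N v x
  rw [e, inv_neg] at h2
  exact h2

/-- Second order behaviour under the upper Taylor bound. -/
theorem tm_second (N : NF E) {v w : E} (hv : v ≠ 0) (h : hits N v w)
    (hd : DifferentiableAt ℝ (N : E → ℝ) (entryPt N v w)) (hUT : UT N (entryPt N v w)) :
    ∃ C δ : ℝ, 0 < δ ∧ ∀ h', ‖h'‖ < δ →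
      |tm N v (w + h') - tm N v w - ⟪grad N (entryPt N v w), h'⟫ / ⟪grad N (entryPt N v w), v⟫|
        ≤ C * ‖h'‖ ^ 2 := by
  obtain ⟨hsign, hder⟩ := hasFDerivAt_tm N hv h hd
  set a := entryPt N v w with ha
  set φ := grad N a with hφ
  set d := ⟪φ, v⟫ with hd'
  have hN : N a = 1 := norm_entryPt N hv h
  have ha0 : a ≠ 0 := by
    intro h0
    rw [h0, N.map_zero'] at hN
    norm_num at hN
  obtain ⟨_, hdual, hself⟩ := N.grad_spec ha0 hd
  rw [hN] at hself
  obtain ⟨hnear, hlim⟩ := near_line N hv h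
  obtain ⟨C₀, δ₀, hδ₀, hut⟩ := hUT
  have hdpos : 0 < |d| := abs_pos.mpr hsign.ne
  -- first order bound on the time difference
  have hbig := hder.isBigO_sub
  rw [Asymptotics.isBigO_iff] at hbig
  obtain ⟨L, hL⟩ := hbig
  have hL' : ∀ᶠ h' in 𝓝 (0 : E), |tm N v (w + h') - tm N v w| ≤ |L| * ‖h'‖ := by
    have hadd : Tendsto (fun h' : E => w + h') (𝓝 0) (𝓝 w) := by
      have : Continuous (fun h' : E => w + h') := continuous_const.add continuous_id
      simpa using this.tendsto 0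
    filter_upwards [hadd.eventually hL] with h' hh'
    rw [Real.norm_eq_abs] at hh'
    have e : w + h' - w = h' := by abel
    rw [e] at hh'
    exact hh'.trans (mul_le_mul_of_nonneg_right (le_abs_self L) (norm_nonneg _))
  -- nearby points
  have hx : Tendsto (fun h' : E => h' - (tm N v (w + h') - tm N v w) • v) (𝓝 0) (𝓝 0) := by
    have := (tendsto_id (α := E) (x := 𝓝 0)).sub (hlim.smul_const v)
    simpa using this
  have hsm : ∀ᶠ h' in 𝓝 (0 : E), ‖h' - (tm N v (w + h') - tm N v w) • v‖ < δ₀ := by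
    have hb : Metric.ball (0 : E) δ₀ ∈ 𝓝 (0 : E) := Metric.ball_mem_nhds _ hδ₀
    filter_upwards [hx hb] with h' hh'
    simpa using hh'
  obtain ⟨δ, hδ, hball⟩ := Metric.eventually_nhds_iff.mp (hnear.and (hL'.and hsm))
  set C₁ : ℝ := 1 + ‖v‖ * |L| with hC₁
  have hC₁0 : 0 ≤ C₁ := by positivity
  refine ⟨|C₀| * C₁ ^ 2 / |d|, δ, hδ, fun h' hh' => ?_⟩
  obtain ⟨hone, hbd, hsmall⟩ := hball (by simpa using hh')
  set Δ := tm N v (w + h') - tm N v w with hΔ
  set x := h' - Δ • v with hx'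
  have hone' : N (a + x) = 1 := hone
  have e2 : ⟪φ, x⟫ = ⟪φ, h'⟫ - Δ * d := by
    rw [hx', inner_sub_right, inner_smul_right]
  have hbx : ‖x‖ ≤ C₁ * ‖h'‖ := by
    calc ‖x‖ ≤ ‖h'‖ + ‖Δ • v‖ := norm_sub_le _ _
      _ = ‖h'‖ + |Δ| * ‖v‖ := by rw [norm_smul, Real.norm_eq_abs]
      _ ≤ ‖h'‖ + (|L| * ‖h'‖) * ‖v‖ := by
          have := mul_le_mul_of_nonneg_right hbd (norm_nonneg v)
          linarith
      _ = C₁ * ‖h'‖ := by rw [hC₁]; ring
  -- subgradient and Taylor bounds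
  have hup := hut x hsmall
  rw [hone', hN] at hup
  have hlow : ⟪φ, x⟫ ≤ 0 := by
    have h1 := N.inner_le φ (a + x)
    rw [hdual, one_mul, hone', inner_add_right, hself] at h1
    linarith
  have hgeq : -(|C₀| * ‖x‖ ^ 2) ≤ ⟪φ, x⟫ := by
    have h2 : C₀ * ‖x‖ ^ 2 ≤ |C₀| * ‖x‖ ^ 2 :=
      mul_le_mul_of_nonneg_right (le_abs_self _) (sq_nonneg _)
    linarith
  have habs : |⟪φ, x⟫| ≤ |C₀| * (C₁ * ‖h'‖) ^ 2 := by
    rw [abs_le]
    have h3 : |C₀| * ‖x‖ ^ 2 ≤ |C₀| * (C₁ * ‖h'‖) ^ 2 := by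
      apply mul_le_mul_of_nonneg_left _ (abs_nonneg _)
      exact pow_le_pow_left₀ (norm_nonneg _) hbx 2
    have h4 : 0 ≤ |C₀| * (C₁ * ‖h'‖) ^ 2 := by positivity
    constructor <;> linarith
  have e6 : Δ - ⟪φ, h'⟫ / d = (Δ * d - ⟪φ, h'⟫) / d := by
    have hd0 : d ≠ 0 := hsign.ne
    field_simp
  rw [e6, abs_div, div_le_iff₀ hdpos, abs_sub_comm, ← e2]
  have e7 : |C₀| * C₁ ^ 2 / |d| * ‖h'‖ ^ 2 * |d| = |C₀| * (C₁ * ‖h'‖) ^ 2 := by
    field_simp
  rw [e7]
  exact habs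

theorem tp_second (N : NF E) {v w : E} (hv : v ≠ 0) (h : hits N v w)
    (hd : DifferentiableAt ℝ (N : E → ℝ) (exitPt N v w)) (hUT : UT N (exitPt N v w)) :
    ∃ C δ : ℝ, 0 < δ ∧ ∀ h', ‖h'‖ < δ →
      |tp N v (w + h') - tp N v w + ⟪grad N (exitPt N v w), h'⟫ / ⟪grad N (exitPt N v w), v⟫|
        ≤ C * ‖h'‖ ^ 2 := by
  have hh : hits N (-v) w := by
    obtain ⟨t, ht⟩ := h
    refine ⟨-t, ?_⟩
    rwa [smul_neg, neg_smul, neg_neg]
  rw [← entryPt_neg] at hd hUT ⊢
  obtain ⟨C, δ, hδ, hb⟩ := tm_second N (neg_ne_zero.mpr hv) hh hd hUT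
  refine ⟨C, δ, hδ, fun h' hh' => ?_⟩
  have := hb h' hh'
  rw [inner_neg_right, tm_neg, tm_neg, div_neg, sub_neg_eq_add] at this
  exact this

end Vale.Agent.Lib.P084T
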