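import Vale.Agent.Lib.P084T.B3
import Vale.Agent.Lib.P084T.B4
import Vale.Agent.Lib.P084T.B5

set_option linter.unusedSectionVars false

/-! # P084T part C1. See `notes/P084_blueprint.md`, section C1. -/

open MeasureTheory Set Filter Topology
open scoped RealInnerProductSpace ENNReal NNReal

namespace Vale.Agent.Lib.P084T

variable {E : Type*} [NormedAddCommGroup E] [InnerProductSpace ℝ E] [FiniteDimensional ℝ E]
  [CompleteSpace E] [MeasurableSpace E] [BorelSpace E]
variable {N N' : NF E}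

/-- Determinant of a rank one update of the identity. -/
theorem det_id_add_rankOne (φ p : E) :
    (ContinuousLinearMap.id ℝ E + (innerSL ℝ φ).smulRight p).det = 1 + ⟪φ, p⟫ := by
  classical
  let b := stdOrthonormalBasis ℝ E
  have hM : LinearMap.toMatrix b.toBasis b.toBasis
      ((ContinuousLinearMap.id ℝ E + (innerSL ℝ φ).smulRight p : E →L[ℝ] E) : E →ₗ[ℝ] E) =
      1 + Matrix.replicateCol Unit (fun i => ⟪b i, p⟫) *
        Matrix.replicateRow Unit (fun j => ⟪φ, b j⟫) := by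
    ext i j
    have h1 : ⟪b i, b j⟫ = (1 : Matrix _ _ ℝ) i j := by
      rw [orthonormal_iff_ite.mp b.orthonormal i j, Matrix.one_apply]
    simp only [LinearMap.toMatrix_apply, Matrix.add_apply, Matrix.mul_apply,
      Matrix.replicateCol_apply, Matrix.replicateRow_apply]
    simp only [OrthonormalBasis.coe_toBasis, OrthonormalBasis.coe_toBasis_repr_apply,
      OrthonormalBasis.repr_apply_apply, ContinuousLinearMap.coe_coe,
      _root_.add_apply, ContinuousLinearMap.id_apply,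
      ContinuousLinearMap.smulRight_apply, innerSL_apply_apply, inner_add_right,
      inner_smul_right, h1]
    simp [mul_comm]
  have hdet : (ContinuousLinearMap.id ℝ E + (innerSL ℝ φ).smulRight p).det =
      LinearMap.det ((ContinuousLinearMap.id ℝ E + (innerSL ℝ φ).smulRight p : E →L[ℝ] E) : E →ₗ[ℝ] E) := rfl
  rw [hdet, ← LinearMap.det_toMatrix b.toBasis, hM,
    Matrix.det_one_add_replicateCol_mul_replicateRow]
  congr 1
  simp only [dotProduct]
  rw [← b.sum_inner_mul_inner φ p]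

/-- The map `Θ`. -/
noncomputable def Theta (N : NF E) (v z : E) : E :=
  rad N z + ((N z) ^ (Module.finrank ℝ E) / (Module.finrank ℝ E : ℝ)) • v

/-- The derivative of `Θ`. -/
noncomputable def DTheta (N : NF E) (v z : E) : E →L[ℝ] E :=
  (N z)⁻¹ • (ContinuousLinearMap.id ℝ E +
    (innerSL ℝ (grad N z)).smulRight ((N z) ^ (Module.finrank ℝ E) • v - rad N z))

/-- The domain of the change of variables. -/
def sTheta (N : NF E) (v : E) : Set E :=
  {z | N z < 1} ∩ ({0}ᶜ ∩ ({z | DifferentiableAt ℝ (N : E → ℝ) z} ∩ {z | ⟪grad N z, v⟫ < 0}))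

theorem measurableSet_sTheta (N : NF E) (v : E) : MeasurableSet (sTheta N v) := by
  refine MeasurableSet.inter ?_ (MeasurableSet.inter ?_ (MeasurableSet.inter ?_ ?_))
  · exact (isOpen_lt N.continuous continuous_const).measurableSet
  · exact (isOpen_compl_singleton).measurableSet
  · exact measurableSet_of_differentiableAt ℝ (N : E → ℝ)
  · have h : Measurable (fun z => ⟪grad N z, v⟫) :=
      (continuous_id.inner continuous_const).measurable.comp N.measurable_grad
    exact measurableSet_lt h measurable_const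

theorem finrank_pos_of_ne {v : E} (hv : v ≠ 0) : 0 < Module.finrank ℝ E := by
  have : Nontrivial E := ⟨⟨v, 0, hv⟩⟩
  exact Module.finrank_pos

theorem hasFDerivAt_N (N : NF E) {z : E} (hz : z ≠ 0)
    (hd : DifferentiableAt ℝ (N : E → ℝ) z) :
    HasFDerivAt (N : E → ℝ) (innerSL ℝ (grad N z)) z := by
  obtain ⟨hg, -, -⟩ := N.grad_spec hz hd
  have h1 : (InnerProductSpace.toDual ℝ E (grad N z)) = innerSL ℝ (grad N z) := by
    ext y; simp
  have := hg.hasFDerivAt
  rwa [h1] at this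

theorem hasFDerivAt_Theta (N : NF E) {v z : E} (hn : 0 < Module.finrank ℝ E) (hz : z ≠ 0)
    (hd : DifferentiableAt ℝ (N : E → ℝ) z) :
    HasFDerivAt (Theta N v) (DTheta N v z) z := by
  have hr : N z ≠ 0 := (N.pos z hz).ne'
  have hN := hasFDerivAt_N N hz hd
  have h1 := (hasDerivAt_inv hr).comp_hasFDerivAt z hN
  have h2 := h1.smul (hasFDerivAt_id z)
  have h3 := ((hN.pow (Module.finrank ℝ E)).mul_const ((Module.finrank ℝ E : ℝ)⁻¹)).smul_const v
  have h4 := h2.add h3
  have hn' : (Module.finrank ℝ E : ℝ) ≠ 0 := by exact_mod_cast hn.ne'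
  have hfun : Theta N v = (((fun y : ℝ => y⁻¹) ∘ (N : E → ℝ)) • id) +
      (fun y => ((N y) ^ (Module.finrank ℝ E) * (Module.finrank ℝ E : ℝ)⁻¹) • v) := by
    funext y
    simp [Theta, rad, div_eq_mul_inv]
  rw [hfun]
  refine h4.congr_fderiv ?_
  ext y
  obtain ⟨m, hm⟩ : ∃ m, Module.finrank ℝ E = m + 1 := ⟨_, (Nat.succ_pred_eq_of_pos hn).symm⟩
  simp only [DTheta, rad, _root_.add_apply, _root_.smul_apply,
    ContinuousLinearMap.smulRight_apply, ContinuousLinearMap.id_apply, innerSL_apply_apply, Function.comp, id, smul_eq_mul,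
    nsmul_eq_mul, smul_add, smul_sub, smul_smul]
  have e1 : (Module.finrank ℝ E : ℝ)⁻¹ * ((Module.finrank ℝ E : ℝ) * N z ^ (Module.finrank ℝ E - 1)) *
      ⟪grad N z, y⟫ = (N z)⁻¹ * (⟪grad N z, y⟫ * N z ^ (Module.finrank ℝ E)) := by
    rw [hm] at hn' ⊢
    rw [Nat.add_sub_cancel, pow_succ]
    field_simp
  rw [e1]
  have e2 : -(N z ^ 2)⁻¹ * ⟪grad N z, y⟫ = - ((N z)⁻¹ * (⟪grad N z, y⟫ * (N z)⁻¹)) := by
    field_simp
  rw [e2]
  module

theorem det_DTheta (N : NF E) {v z : E} (hz : z ≠ 0)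
    (hd : DifferentiableAt ℝ (N : E → ℝ) z) :
    (DTheta N v z).det = ⟪grad N z, v⟫ := by
  obtain ⟨hg, hg1, hg2⟩ := N.grad_spec hz hd
  have hr : N z ≠ 0 := (N.pos z hz).ne'
  have h1 : (DTheta N v z).det = ((N z)⁻¹) ^ (Module.finrank ℝ E) *
      (ContinuousLinearMap.id ℝ E +
        (innerSL ℝ (grad N z)).smulRight ((N z) ^ (Module.finrank ℝ E) • v - rad N z)).det := by
    have : ((DTheta N v z : E →L[ℝ] E) : E →ₗ[ℝ] E) = (N z)⁻¹ • ((ContinuousLinearMap.id ℝ E +
        (innerSL ℝ (grad N z)).smulRight ((N z) ^ (Module.finrank ℝ E) • v - rad N z) : E →L[ℝ] E) : E →ₗ[ℝ] E) := rfl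
    show LinearMap.det ((DTheta N v z : E →L[ℝ] E) : E →ₗ[ℝ] E) = _
    rw [this, LinearMap.det_smul]
  rw [h1, det_id_add_rankOne, inner_sub_right, inner_smul_right]
  have h2 : ⟪grad N z, rad N z⟫ = 1 := by
    unfold rad
    rw [inner_smul_right, hg2, inv_mul_cancel₀ hr]
  rw [h2, inv_pow]
  field_simp
  ring

/-- On `sTheta`, the line data of `Θ z`. -/
theorem Theta_spec (N : NF E) {v z : E} (hz : z ∈ sTheta N v) (hv : v ≠ 0) :
    hits N v (Theta N v z) ∧ tm N v (Theta N v z) =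
        (N z) ^ (Module.finrank ℝ E) / (Module.finrank ℝ E : ℝ) ∧
      entryPt N v (Theta N v z) = rad N z := by
  obtain ⟨-, hne, hd, hneg⟩ := hz
  have hne' : z ≠ 0 := hne
  have hc : 0 < (N z)⁻¹ := inv_pos.mpr (N.pos z hne')
  have ha : N (rad N z) = 1 := N.norm_rad hne'
  have hda : DifferentiableAt ℝ (N : E → ℝ) (rad N z) :=
    (N.differentiableAt_smul_iff hc z).mpr hd
  have hgr : grad N (rad N z) = grad N z := N.grad_smul hc z
  have hneg' : ⟪grad N (rad N z), v⟫ < 0 := by rw [hgr]; exact hneg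
  obtain ⟨hh, htm, hent⟩ := entry_of_grad_neg N ha hda hneg'
  refine ⟨(hits_add N v _ _).mpr hh, ?_, ?_⟩
  · unfold Theta
    rw [tm_add N hv hh, htm, zero_add]
  · unfold Theta
    rw [entryPt_add N hv hh, hent]

theorem Theta_injOn (N : NF E) {v : E} (hv : v ≠ 0) : InjOn (Theta N v) (sTheta N v) := by
  intro z hz z' hz' h
  obtain ⟨-, h1, h2⟩ := Theta_spec N hz hv
  obtain ⟨-, h1', h2'⟩ := Theta_spec N hz' hv
  rw [h] at h1 h2
  have hn : 0 < Module.finrank ℝ E := finrank_pos_of_ne hv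
  have hn' : (Module.finrank ℝ E : ℝ) ≠ 0 := by exact_mod_cast hn.ne'
  have hrad : rad N z = rad N z' := h2.symm.trans h2'
  have hpow : (N z) ^ (Module.finrank ℝ E) = (N z') ^ (Module.finrank ℝ E) := by
    have := h1.symm.trans h1'
    field_simp at this
    exact this
  have hr : N z = N z' := (pow_left_inj₀ (N.nonneg z) (N.nonneg z') hn.ne').mp hpow
  have hzne : z ≠ 0 := hz.2.1
  have hzne' : z' ≠ 0 := hz'.2.1
  have e : ∀ x : E, x ≠ 0 → x = N x • rad N x := by
    intro x hx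
    unfold rad
    rw [smul_smul, mul_inv_cancel₀ (N.pos x hx).ne', one_smul]
  rw [e z hzne, e z' hzne', hr, hrad]

theorem Theta_mem_tube (N : NF E) {v z : E} (hz : z ∈ sTheta N v) (hv : v ≠ 0) :
    Theta N v z ∈ Tube N v := by
  obtain ⟨h0, h1, -⟩ := Theta_spec N hz hv
  have hn : 0 < Module.finrank ℝ E := finrank_pos_of_ne hv
  have hn' : (0 : ℝ) < (Module.finrank ℝ E : ℝ) := by exact_mod_cast hn
  have hrpos : 0 < N z := N.pos z hz.2.1
  have hr1 : N z < 1 := hz.1
  refine ⟨h0, ?_, ?_⟩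
  · rw [h1]; positivity
  · rw [h1]
    exact div_lt_div_of_pos_right (pow_lt_one₀ hrpos.le hr1 hn.ne') hn'

/-- Every point of the tube is a value of `Θ` on the ball (possibly at a non differentiability
point). -/
theorem exists_Theta_eq (N : NF E) {v w : E} (hv : v ≠ 0) (hw : w ∈ Tube N v) :
    ∃ z, z ≠ 0 ∧ N z < 1 ∧ rad N z = entryPt N v w ∧ Theta N v z = w := by
  obtain ⟨hh, h0, h1⟩ := hw
  have hn : 0 < Module.finrank ℝ E := finrank_pos_of_ne hv
  have hn' : (0 : ℝ) < (Module.finrank ℝ E : ℝ) := by exact_mod_cast hn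
  set n := Module.finrank ℝ E with hndef
  set t := tm N v w with ht
  set a := entryPt N v w with ha
  have hna : N a = 1 := norm_entryPt N hv hh
  have ha0 : a ≠ 0 := by
    intro h
    rw [h, N.map_zero'] at hna
    exact zero_ne_one hna
  have hnt : 0 < (n : ℝ) * t := mul_pos hn' h0
  have hnt1 : (n : ℝ) * t < 1 := by
    rw [lt_div_iff₀ hn'] at h1
    linarith
  set r : ℝ := ((n : ℝ) * t) ^ ((n : ℝ)⁻¹) with hr
  have hrpos : 0 < r := Real.rpow_pos_of_pos hnt _
  have hrn : r ^ n = (n : ℝ) * t := Real.rpow_inv_natCast_pow hnt.le hn.ne'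
  have hr1 : r < 1 := by
    by_contra hcon
    have : 1 ≤ r ^ n := one_le_pow₀ (not_lt.mp hcon)
    linarith
  have hNz : N (r • a) = r := by
    rw [N.smul_eq, hna, mul_one, abs_of_pos hrpos]
  have hrad : rad N (r • a) = a := by
    unfold rad
    rw [hNz, smul_smul, inv_mul_cancel₀ hrpos.ne', one_smul]
  refine ⟨r • a, smul_ne_zero hrpos.ne' ha0, by rw [hNz]; exact hr1, hrad, ?_⟩
  unfold Theta
  rw [hrad, hNz, hrn, ← hndef]
  have : (n : ℝ) * t / (n : ℝ) = t := by field_simp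
  rw [this, ha]
  unfold entryPt
  rw [← ht]
  abel

theorem Theta_lipschitz_annuli (N : NF E) (v : E) (k : ℕ) :
    ∃ K : ℝ≥0, LipschitzOnWith K (Theta N v) {x | ((k : ℝ) + 1)⁻¹ ≤ ‖x‖ ∧ ‖x‖ ≤ (k : ℝ) + 1} := by
  obtain ⟨K₁, hK₁⟩ := rad_lipschitz_annuli N k
  obtain ⟨K₀, hK₀⟩ := N.lipschitz
  obtain ⟨C, hC, hb⟩ := N.exists_bounds
  set n := Module.finrank ℝ E with hndef
  have hk : (0 : ℝ) < (k : ℝ) + 1 := by positivity
  set R : ℝ := C * ((k : ℝ) + 1) with hR
  have hRpos : 0 < R := by positivity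
  set K₂ : ℝ := (K₀ : ℝ) * (R ^ (n - 1) * ‖v‖) with hK₂
  have hK₂nn : 0 ≤ K₂ := by positivity
  have h2 : LipschitzOnWith ⟨K₂, hK₂nn⟩ (fun x => ((N x) ^ n / (n : ℝ)) • v)
      {x | ((k : ℝ) + 1)⁻¹ ≤ ‖x‖ ∧ ‖x‖ ≤ (k : ℝ) + 1} := by
    refine LipschitzOnWith.of_dist_le_mul ?_
    intro x hx y hy
    have hNx : N x ≤ R := (hb x).1.trans (mul_le_mul_of_nonneg_left hx.2 hC.le)
    have hNy : N y ≤ R := (hb y).1.trans (mul_le_mul_of_nonneg_left hy.2 hC.le)
    have hmax : max |N x| |N y| ≤ R := by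
      rw [abs_of_nonneg (N.nonneg x), abs_of_nonneg (N.nonneg y)]
      exact max_le hNx hNy
    have hd1 : |N x - N y| ≤ (K₀ : ℝ) * dist x y := by
      have := hK₀.dist_le_mul x y
      rwa [Real.dist_eq] at this
    rcases Nat.eq_zero_or_pos n with h0 | hpos
    · simp [h0]
      positivity
    have hn' : (0 : ℝ) < (n : ℝ) := by exact_mod_cast hpos
    rw [dist_eq_norm, ← sub_smul, norm_smul, Real.norm_eq_abs]
    have e1 : (N x) ^ n / (n : ℝ) - (N y) ^ n / (n : ℝ) = ((N x) ^ n - (N y) ^ n) / (n : ℝ) := by ring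
    rw [e1, abs_div, abs_of_pos hn']
    have e2 : |(N x) ^ n - (N y) ^ n| ≤ |N x - N y| * (n : ℝ) * R ^ (n - 1) := by
      refine (abs_pow_sub_pow_le (N x) (N y) n).trans ?_
      exact mul_le_mul_of_nonneg_left (pow_le_pow_left₀ (le_max_of_le_left (abs_nonneg _)) hmax _)
        (by positivity)
    have e3 : |(N x) ^ n - (N y) ^ n| / (n : ℝ) ≤ |N x - N y| * R ^ (n - 1) := by
      rw [div_le_iff₀ hn']
      linarith
    calc |(N x) ^ n - (N y) ^ n| / (n : ℝ) * ‖v‖ ≤ (|N x - N y| * R ^ (n - 1)) * ‖v‖ :=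
          mul_le_mul_of_nonneg_right e3 (norm_nonneg _)
      _ ≤ (((K₀ : ℝ) * dist x y) * R ^ (n - 1)) * ‖v‖ := by
          gcongr
      _ = K₂ * dist x y := by rw [hK₂]; ring
  refine ⟨K₁ + ⟨K₂, hK₂nn⟩, ?_⟩
  exact hK₁.add h2

/-- The tube is, up to a null set, the image of `sTheta`. -/
theorem tube_ae_eq (N : NF E) {v : E} (hv : v ≠ 0) :
    Tube N v =ᵐ[volume] Theta N v '' sTheta N v := by
  rw [ae_eq_set]
  constructor
  · -- the exceptional set
    set D : Set E := {z | ¬ DifferentiableAt ℝ (N : E → ℝ) z} with hD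
    have hD0 : volume D = 0 := by
      obtain ⟨K, hK⟩ := N.lipschitz
      have := hK.ae_differentiableAt (μ := (volume : Measure E))
      rwa [ae_iff] at this
    have hnull := null_image_of_lipschitz_annuli (Θ := Theta N v)
      (Theta_lipschitz_annuli N v) hD0
    refine measure_mono_null ?_ hnull
    intro w hw
    obtain ⟨hwT, hwS⟩ := hw
    obtain ⟨z, hz0, hz1, hrad, hTheta⟩ := exists_Theta_eq N hv hwT
    refine ⟨z, ⟨?_, hz0⟩, hTheta⟩
    intro hd
    apply hwS
    refine ⟨z, ⟨hz1, hz0, hd, ?_⟩, hTheta⟩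
    have hc : 0 < (N z)⁻¹ := inv_pos.mpr (N.pos z hz0)
    have hda : DifferentiableAt ℝ (N : E → ℝ) (entryPt N v w) := by
      rw [← hrad]
      exact (N.differentiableAt_smul_iff hc z).mpr hd
    have h := (hasFDerivAt_tm N hv hwT.1 hda).1
    rw [← hrad] at h
    have hgr : grad N (rad N z) = grad N z := N.grad_smul hc z
    rw [hgr] at h
    exact h
  · have : Theta N v '' sTheta N v \ Tube N v = ∅ := by
      rw [Set.sdiff_eq_empty]
      rintro _ ⟨z, hz, rfl⟩
      exact Theta_mem_tube N hz hv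
    rw [this, measure_empty]

/-- The cosine formula. -/
theorem cos_lemma (N : NF E) {v : E} (hv : v ≠ 0) {g : E → ℝ≥0∞} (hg : Measurable g) :
    ∫⁻ z in N.ball, g (rad N z) * ENNReal.ofReal (-⟪grad N z, v⟫) =
      ∫⁻ w in Tube N v, g (entryPt N v w) := by
  have hn : 0 < Module.finrank ℝ E := finrank_pos_of_ne hv
  have hs := measurableSet_sTheta N v
  rw [setLIntegral_congr (tube_ae_eq N hv)]
  rw [lintegral_image_eq_lintegral_abs_det_fderiv_mul volume hs
    (f' := DTheta N v)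
    (fun z hz => (hasFDerivAt_Theta N hn hz.2.1 hz.2.2.1).hasFDerivWithinAt)
    (Theta_injOn N hv) (fun w => g (entryPt N v w))]
  have : Nontrivial E := ⟨⟨v, 0, hv⟩⟩
  have hRHS : ∫⁻ z in sTheta N v, ENNReal.ofReal |(DTheta N v z).det| * g (entryPt N v (Theta N v z))
      = ∫⁻ z in sTheta N v, g (rad N z) * ENNReal.ofReal (-⟪grad N z, v⟫) := by
    refine setLIntegral_congr_fun hs ?_
    intro z hz
    simp only
    rw [det_DTheta N hz.2.1 hz.2.2.1, abs_of_neg hz.2.2.2, (Theta_spec N hz hv).2.2, mul_comm]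
  rw [hRHS]
  have hsub : sTheta N v ⊆ N.ball := fun z hz => hz.1
  rw [← lintegral_inter_add_sdiff _ N.ball hs, inter_eq_right.mpr hsub]
  have hzero : ∫⁻ z in N.ball \ sTheta N v, g (rad N z) * ENNReal.ofReal (-⟪grad N z, v⟫) = 0 := by
    have hms : MeasurableSet (N.ball \ sTheta N v) :=
      ((isOpen_lt N.continuous continuous_const).measurableSet).diff hs
    rw [← lintegral_zero (μ := (volume : Measure E).restrict (N.ball \ sTheta N v))]
    refine lintegral_congr_ae ?_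
    rw [Filter.EventuallyEq, ae_restrict_iff' hms]
    have h0 : ∀ᵐ z ∂(volume : Measure E), z ≠ 0 := by
      have := (compl_mem_ae_iff (μ := (volume : Measure E)) (s := {(0 : E)})).mpr (measure_singleton 0)
      exact this
    filter_upwards [h0] with z hz hmem
    have hnot : 0 ≤ ⟪grad N z, v⟫ := by
      by_contra hcon
      have hneg : ⟪grad N z, v⟫ < 0 := not_le.mp hcon
      apply hmem.2
      refine ⟨hmem.1, hz, ?_, hneg⟩
      by_contra hnd
      have hnd' : ¬ DifferentiableAt ℝ (N : E → ℝ) z := hnd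
      have : grad N z = 0 := gradient_eq_zero_of_not_differentiableAt hnd'
      rw [this, inner_zero_left] at hneg
      exact lt_irrefl _ hneg
    rw [ENNReal.ofReal_of_nonpos (by linarith), mul_zero]
  rw [hzero, add_zero]

end Vale.Agent.Lib.P084T
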