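import Vale.Agent.Lib.P084T.D1
import Vale.Agent.Lib.P084T.C1

set_option linter.unusedSectionVars false

/-! # P084T part H4. See `notes/P084_blueprint.md`, section H4. -/

open MeasureTheory Set Filter Topology
open scoped RealInnerProductSpace ENNReal NNReal

namespace Vale.Agent.Lib.P084T

variable {E : Type*} [NormedAddCommGroup E] [InnerProductSpace ℝ E] [FiniteDimensional ℝ E]
  [CompleteSpace E] [MeasurableSpace E] [BorelSpace E]
variable {N N' : NF E}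

private lemma h4_det_comp (A B : E →L[ℝ] E) : (A.comp B).det = A.det * B.det := by
  exact LinearMap.det_comp (A : E →ₗ[ℝ] E) (B : E →ₗ[ℝ] E)

/-- Determinant of the chord operator. -/
theorem det_Mop {A : E →L[ℝ] E} {a a' φ φ' u u' ξ ζ : E} (hA : A a = a') (hφa : ⟪φ, a⟫ = 1)
    (hφ' : ∀ h, ⟪φ', A h⟫ = ⟪φ, h⟫) (hξ : ⟪ξ, u⟫ = 1) (hζ : ⟪ζ, u'⟫ = 1) (hu : ⟪φ, u⟫ ≠ 0) :
    (Mop A φ u u' ξ ζ).det = A.det * ⟪φ', u'⟫ / ⟪φ, u⟫ := by
  set c := (⟪φ, u⟫)⁻¹ with hc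
  have hcu : c * ⟪φ, u⟫ = 1 := inv_mul_cancel₀ hu
  let pp : E →L[ℝ] E := ContinuousLinearMap.id ℝ E - (c • (innerSL ℝ φ)).smulRight u
  have hpp : ∀ h, pp h = h - (c * ⟪φ, h⟫) • u := by
    intro h; simp [pp]
  let T : E →L[ℝ] E := ContinuousLinearMap.id ℝ E + (innerSL ℝ (c • φ)).smulRight (a - u)
  let S : E →L[ℝ] E := ContinuousLinearMap.id ℝ E + (innerSL ℝ φ').smulRight (u' - a')
  let w : E := ξ - c • φ - ContinuousLinearMap.adjoint (A.comp pp) ζ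
  let U : E →L[ℝ] E := ContinuousLinearMap.id ℝ E + (innerSL ℝ w).smulRight u
  have hT : ∀ h, T h = h + (c * ⟪φ, h⟫) • (a - u) := by
    intro h; simp [T]
  have hS : ∀ h, S h = h + ⟪φ', h⟫ • (u' - a') := by
    intro h; simp [S]
  have hU : ∀ h, U h = h + ⟪w, h⟫ • u := by
    intro h; simp [U]
  have hwh : ∀ h, ⟪w, h⟫ = ⟪ξ, h⟫ - c * ⟪φ, h⟫ - ⟪ζ, A (pp h)⟫ := by
    intro h
    simp only [w, inner_sub_left, inner_smul_left, conj_trivial]
    rw [ContinuousLinearMap.adjoint_inner_left]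
    rfl
  have hppu : pp u = 0 := by
    rw [hpp, hcu, one_smul, sub_self]
  have hwu : ⟪w, u⟫ = 0 := by
    rw [hwh, hppu, map_zero, inner_zero_right, hξ, hcu]
    ring
  have hφa' : ⟪φ', a'⟫ = 1 := by rw [← hA, hφ', hφa]
  have hdetT : T.det = c := by
    have : T.det = 1 + ⟪c • φ, a - u⟫ := det_id_add_rankOne _ _
    rw [this, inner_smul_left, conj_trivial, inner_sub_right, hφa, mul_sub, hcu, mul_one]
    ring
  have hdetS : S.det = ⟪φ', u'⟫ := by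
    have : S.det = 1 + ⟪φ', u' - a'⟫ := det_id_add_rankOne _ _
    rw [this, inner_sub_right, hφa']
    ring
  have hdetU : U.det = 1 := by
    have : U.det = 1 + ⟪w, u⟫ := det_id_add_rankOne _ _
    rw [this, hwu, add_zero]
  have hM : Mop A φ u u' ξ ζ = (S.comp A).comp (T.comp U) := by
    ext h
    have hM1 : Mop A φ u u' ξ ζ h = A (pp h) - ⟪ζ, A (pp h)⟫ • u' + ⟪ξ, h⟫ • u' := by
      simp only [Mop]
      simp [pp, hc, inner_sub_right, inner_smul_right]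
    rw [hM1]
    simp only [ContinuousLinearMap.comp_apply]
    -- compute `S (A (T (U h)))`
    have hTU : T (U h) = pp h + (c * ⟪φ, h⟫ + ⟪w, h⟫) • a := by
      rw [hT, hU, inner_add_right, inner_smul_right, hpp]
      have h1 : c * (⟪φ, h⟫ + ⟪w, h⟫ * ⟪φ, u⟫) = c * ⟪φ, h⟫ + ⟪w, h⟫ := by
        rw [mul_add, mul_comm ⟪w, h⟫, ← mul_assoc, hcu, one_mul]
      rw [h1]
      module
    rw [hTU, map_add, map_smul, hA, hS]
    have h2 : ⟪φ', A (pp h) + (c * ⟪φ, h⟫ + ⟪w, h⟫) • a'⟫ = c * ⟪φ, h⟫ + ⟪w, h⟫ := by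
      rw [inner_add_right, hφ', inner_smul_right, hφa', mul_one, hpp, inner_sub_right, inner_smul_right]
      have h3 : c * ⟪φ, h⟫ * ⟪φ, u⟫ = ⟪φ, h⟫ := by
        rw [mul_comm c, mul_assoc, hcu, mul_one]
      rw [h3]
      ring
    rw [h2, hwh]
    module
  rw [hM, h4_det_comp, h4_det_comp, h4_det_comp, hdetS, hdetT, hdetU, hc]
  field_simp

/-- The data of a chord, at either end point. -/
private lemma h4_chord_u (R : RadIso N N') {a b ξ ζ : E} (c : Chord R a b ξ ζ) :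
    0 < N (b - a) ∧ ⟪ξ, cu N a b⟫ = 1 ∧ ⟪ζ, cu' R a b⟫ = 1 := by
  have hne : b - a ≠ 0 := sub_ne_zero.mpr c.hab.symm
  have hL : 0 < N (b - a) := N.pos _ hne
  refine ⟨hL, ?_, ?_⟩
  · unfold cu
    rw [inner_smul_right, c.hξu, inv_mul_cancel₀ hL.ne']
  · unfold cu'
    rw [inner_smul_right, c.hζu, inv_mul_cancel₀ hL.ne']

theorem det_M0 (R : RadIso N N') (hSC : StrictC N) {a b ξ ζ : E} (c : Chord R a b ξ ζ) :
    |(M0 R a b ξ ζ).det| = ell R a b ∧ 0 < ell R a b := by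
  obtain ⟨hL, hξ, hζ⟩ := h4_chord_u R c
  have hga := c.ga
  have ha0 : a ≠ 0 := hga.1
  obtain ⟨-, hφd, hφa⟩ := N.grad_spec ha0 hga.2.2.2.1
  have hFa : N' (R.F a) = 1 := by rw [R.norm_F, c.ha]
  have hFb : N' (R.F b) = 1 := by rw [R.norm_F, c.hb]
  have hFa0 : R.F a ≠ 0 := by
    intro h
    rw [h, N'.map_zero'] at hFa
    exact zero_ne_one hFa
  have hFab : R.F a ≠ R.F b := by
    intro h
    apply c.hab
    rw [← R.G_F a, h, R.G_F]
  obtain ⟨-, hφd', hφa'⟩ := N'.grad_spec hFa0 hga.2.2.2.2.1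
  have hb1 : ⟪grad N a, b⟫ < 1 :=
    hSC.inner_lt c.ha c.hb c.hab hφd.le (by rw [hφa, c.ha])
  have hb1' : ⟪grad N' (R.F a), R.F b⟫ < 1 :=
    (R.strictC hSC).inner_lt hFa hFb hFab hφd'.le (by rw [hφa', hFa])
  have hu : ⟪grad N a, cu N a b⟫ = (N (b - a))⁻¹ * (⟪grad N a, b⟫ - 1) := by
    unfold cu
    rw [inner_smul_right, inner_sub_right, hφa, c.ha]
  have hu' : ⟪grad N' (R.F a), cu' R a b⟫ = (N (b - a))⁻¹ * (⟪grad N' (R.F a), R.F b⟫ - 1) := by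
    unfold cu'
    rw [inner_smul_right, inner_sub_right, hφa', hFa]
  have huneg : ⟪grad N a, cu N a b⟫ ≠ 0 := by
    rw [hu]
    have hne1 : ⟪grad N a, b⟫ - 1 ≠ 0 := by
      intro h; linarith
    exact mul_ne_zero (inv_ne_zero hL.ne') hne1
  have key := det_Mop (A := fderiv ℝ R.F a) (a := a) (a' := R.F a) (φ := grad N a)
    (φ' := grad N' (R.F a)) (u := cu N a b) (u' := cu' R a b) (ξ := ξ) (ζ := ζ)
    (R.good_apply_self hga) (by rw [hφa, c.ha]) (R.good_grad hga) hξ hζ huneg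
  have hpos : 0 < ell R a b := by
    unfold ell
    have h1 : 0 < |(fderiv ℝ R.F a).det| := abs_pos.mpr (R.det_ne_zero hga)
    exact div_pos (mul_pos h1 (by linarith)) (by linarith)
  refine ⟨?_, hpos⟩
  unfold M0 ell
  rw [key, hu, hu', abs_div, abs_mul, abs_mul, abs_mul]
  rw [abs_of_neg (by linarith : ⟪grad N' (R.F a), R.F b⟫ - 1 < 0),
    abs_of_neg (by linarith : ⟪grad N a, b⟫ - 1 < 0), neg_sub, neg_sub]
  have h2 : |(N (b - a))⁻¹| ≠ 0 := abs_ne_zero.mpr (inv_ne_zero hL.ne')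
  have h3 : (1 - ⟪grad N a, b⟫) ≠ 0 := by linarith
  field_simp

theorem det_M1 (R : RadIso N N') (hSC : StrictC N) {a b ξ ζ : E} (c : Chord R a b ξ ζ) :
    |(M1 R a b ξ ζ).det| = ell R b a ∧ 0 < ell R b a := by
  obtain ⟨hL, hξ, hζ⟩ := h4_chord_u R c
  have hgb := c.gb
  have hb0 : b ≠ 0 := hgb.1
  obtain ⟨-, hφd, hφb⟩ := N.grad_spec hb0 hgb.2.2.2.1
  have hFa : N' (R.F a) = 1 := by rw [R.norm_F, c.ha]
  have hFb : N' (R.F b) = 1 := by rw [R.norm_F, c.hb]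
  have hFb0 : R.F b ≠ 0 := by
    intro h
    rw [h, N'.map_zero'] at hFb
    exact zero_ne_one hFb
  have hFab : R.F b ≠ R.F a := by
    intro h
    apply c.hab
    rw [← R.G_F a, ← h, R.G_F]
  obtain ⟨-, hφd', hφb'⟩ := N'.grad_spec hFb0 hgb.2.2.2.2.1
  have ha1 : ⟪grad N b, a⟫ < 1 :=
    hSC.inner_lt c.hb c.ha c.hab.symm hφd.le (by rw [hφb, c.hb])
  have ha1' : ⟪grad N' (R.F b), R.F a⟫ < 1 :=
    (R.strictC hSC).inner_lt hFb hFa hFab hφd'.le (by rw [hφb', hFb])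
  have hu : ⟪grad N b, cu N a b⟫ = (N (b - a))⁻¹ * (1 - ⟪grad N b, a⟫) := by
    unfold cu
    rw [inner_smul_right, inner_sub_right, hφb, c.hb]
  have hu' : ⟪grad N' (R.F b), cu' R a b⟫ = (N (b - a))⁻¹ * (1 - ⟪grad N' (R.F b), R.F a⟫) := by
    unfold cu'
    rw [inner_smul_right, inner_sub_right, hφb', hFb]
  have huneg : ⟪grad N b, cu N a b⟫ ≠ 0 := by
    rw [hu]
    have hne1 : 1 - ⟪grad N b, a⟫ ≠ 0 := by
      intro h; linarith
    exact mul_ne_zero (inv_ne_zero hL.ne') hne1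
  have key := det_Mop (A := fderiv ℝ R.F b) (a := b) (a' := R.F b) (φ := grad N b)
    (φ' := grad N' (R.F b)) (u := cu N a b) (u' := cu' R a b) (ξ := ξ) (ζ := ζ)
    (R.good_apply_self hgb) (by rw [hφb, c.hb]) (R.good_grad hgb) hξ hζ huneg
  have hpos : 0 < ell R b a := by
    unfold ell
    have h1 : 0 < |(fderiv ℝ R.F b).det| := abs_pos.mpr (R.det_ne_zero hgb)
    exact div_pos (mul_pos h1 (by linarith)) (by linarith)
  refine ⟨?_, hpos⟩
  unfold M1 ell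
  rw [key, hu, hu', abs_div, abs_mul, abs_mul, abs_mul]
  rw [abs_of_pos (by linarith : 0 < 1 - ⟪grad N' (R.F b), R.F a⟫),
    abs_of_pos (by linarith : 0 < 1 - ⟪grad N b, a⟫)]
  have h2 : |(N (b - a))⁻¹| ≠ 0 := abs_ne_zero.mpr (inv_ne_zero hL.ne')
  have h3 : (1 - ⟪grad N b, a⟫) ≠ 0 := by linarith
  field_simp

end Vale.Agent.Lib.P084T
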