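import Vale.Agent.Lib.P084T.Basic

set_option linter.unusedSectionVars false

/-! # P084T part H5. See `notes/P084_blueprint.md`, section H5. -/

open MeasureTheory Set Filter Topology
open scoped RealInnerProductSpace ENNReal NNReal

namespace Vale.Agent.Lib.P084T

variable {E : Type*} [NormedAddCommGroup E] [InnerProductSpace ℝ E] [FiniteDimensional ℝ E]
  [CompleteSpace E] [MeasurableSpace E] [BorelSpace E]
variable {N N' : NF E}

/-- Weighted arithmetic geometric mean over a multiset. -/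
private lemma h5_multiset (R : Multiset ℝ) (hR : ∀ r ∈ R, 0 < r) {τ : ℝ} (hτ : τ ∈ Icc (0 : ℝ) 1) :
    0 < R.prod ∧ 0 < (R.map fun r => 1 - τ + τ * r).prod ∧
      R.prod ^ τ ≤ (R.map fun r => 1 - τ + τ * r).prod := by
  induction R using Multiset.induction_on with
  | empty => simp
  | cons a s ih =>
    obtain ⟨h1, h2, h3⟩ := ih fun r hr => hR r (Multiset.mem_cons_of_mem hr)
    have ha : 0 < a := hR a (Multiset.mem_cons_self a s)
    have hfa : 0 < 1 - τ + τ * a := by
      rcases eq_or_lt_of_le hτ.2 with h | h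
      · rw [h]; simpa using ha
      · have := mul_nonneg hτ.1 ha.le
        linarith
    simp only [Multiset.prod_cons, Multiset.map_cons]
    refine ⟨mul_pos ha h1, mul_pos hfa h2, ?_⟩
    rw [Real.mul_rpow ha.le h1.le]
    have hgm := Real.geom_mean_le_arith_mean2_weighted hτ.1 (by linarith [hτ.2] : 0 ≤ 1 - τ) ha.le
      (zero_le_one : (0 : ℝ) ≤ 1) (by ring)
    simp only [Real.one_rpow, mul_one] at hgm
    have h4 : a ^ τ ≤ 1 - τ + τ * a := by linarith
    exact mul_le_mul h4 h3 (Real.rpow_nonneg h1.le _) hfa.le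

/-- The inequality for a real matrix whose complex eigenvalues are positive reals. -/
private lemma h5_matrix {n : ℕ} (A : Matrix (Fin n) (Fin n) ℝ)
    (hpos : ∀ z ∈ (A.map Complex.ofRealHom).charpoly.roots, ∃ r : ℝ, 0 < r ∧ z = r) {τ : ℝ}
    (hτ : τ ∈ Icc (0 : ℝ) 1) :
    |A.det| ^ τ ≤ |((1 - τ) • (1 : Matrix (Fin n) (Fin n) ℝ) + τ • A).det| := by
  rcases eq_or_lt_of_le hτ.1 with h0 | h0
  · rw [← h0]; simp
  set Ac := A.map Complex.ofRealHom with hAc
  set p := Ac.charpoly with hp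
  have hmon : p.Monic := Matrix.charpoly_monic Ac
  have hsp : p.Splits := IsAlgClosed.splits p
  set R := p.roots with hRdef
  set R' := R.map Complex.re with hR'def
  have hRR' : R = R'.map Complex.ofRealHom := by
    rw [hR'def, Multiset.map_map]
    conv_lhs => rw [← Multiset.map_id R]
    refine Multiset.map_congr rfl fun z hz => ?_
    obtain ⟨r, -, rfl⟩ := hpos z hz
    simp
  have hR'pos : ∀ r ∈ R', 0 < r := by
    intro r hr
    obtain ⟨z, hz, rfl⟩ := Multiset.mem_map.mp hr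
    obtain ⟨r', h1, rfl⟩ := hpos z hz
    simpa using h1
  obtain ⟨h1, h2, h3⟩ := h5_multiset R' hR'pos hτ
  have hcard : R.card = n := by
    have h4 := hsp.natDegree_eq_card_roots
    rw [Matrix.charpoly_natDegree_eq_dim] at h4
    simpa using h4.symm
  have hdetA : A.det = R'.prod := by
    apply Complex.ofReal_injective
    have h5 : ((A.det : ℝ) : ℂ) = Ac.det := by
      have := RingHom.map_det Complex.ofRealHom A
      simpa [hAc, RingHom.mapMatrix_apply] using this
    rw [h5, Matrix.det_eq_prod_roots_charpoly]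
    have h6 : ((R'.prod : ℝ) : ℂ) = (R'.map Complex.ofRealHom).prod := by
      have := map_multiset_prod Complex.ofRealHom R'
      simpa using this
    rw [h6, ← hRR']
  have hτne : τ ≠ 0 := h0.ne'
  have hτc : (τ : ℂ) ≠ 0 := by exact_mod_cast hτne
  set s : ℝ := -(1 - τ) / τ with hs
  have hM : ((1 - τ) • (1 : Matrix (Fin n) (Fin n) ℝ) + τ • A).map Complex.ofRealHom =
      ((-τ : ℝ) : ℂ) • (Matrix.scalar (Fin n) ((s : ℝ) : ℂ) - Ac) := by
    ext i j
    by_cases hij : i = j
    · subst hij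
      simp [hAc, hs, Matrix.one_apply]
      field_simp
      ring
    · simp [hAc, Matrix.one_apply, hij]
  have hdetM : ((1 - τ) • (1 : Matrix (Fin n) (Fin n) ℝ) + τ • A).det =
      (R'.map fun r => 1 - τ + τ * r).prod := by
    apply Complex.ofReal_injective
    have h5 : ((((1 - τ) • (1 : Matrix (Fin n) (Fin n) ℝ) + τ • A).det : ℝ) : ℂ) =
        (((1 - τ) • (1 : Matrix (Fin n) (Fin n) ℝ) + τ • A).map Complex.ofRealHom).det := by
      have := RingHom.map_det Complex.ofRealHom ((1 - τ) • (1 : Matrix (Fin n) (Fin n) ℝ) + τ • A)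
      simpa [RingHom.mapMatrix_apply] using this
    rw [h5, hM, Matrix.det_smul, ← Matrix.eval_charpoly, ← hp]
    rw [hsp.eval_eq_prod_roots, hmon.leadingCoeff, one_mul, ← hRdef, hRR']
    simp only [Multiset.map_map, Fintype.card_fin, Function.comp]
    have h6 : ∀ M : Multiset ℝ, ((-τ : ℝ) : ℂ) ^ M.card * (M.map fun x => ((s : ℝ) : ℂ) - Complex.ofRealHom x).prod =
        (((M.map fun r => 1 - τ + τ * r).prod : ℝ) : ℂ) := by
      intro M
      induction M using Multiset.induction_on with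
      | empty => simp
      | cons a M ih =>
        simp only [Multiset.card_cons, Multiset.map_cons, Multiset.prod_cons, pow_succ, Complex.ofReal_mul]
        have h7 : ((-τ : ℝ) : ℂ) * (((s : ℝ) : ℂ) - Complex.ofRealHom a) = ((1 - τ + τ * a : ℝ) : ℂ) := by
          have h8 : (-τ) * (s - a) = 1 - τ + τ * a := by
            rw [hs]; field_simp; ring
          rw [← h8]
          simp
        rw [← ih, ← h7]
        ring
    have h9 : n = R'.card := by
      rw [hR'def, Multiset.card_map, hcard]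
    conv_lhs => rw [h9]
    exact h6 R'
  rw [hdetA, hdetM, abs_of_pos h1, abs_of_pos h2]
  exact h3

private lemma h5_psd_kernel {S : E →L[ℝ] E} (hS : ∀ v w, ⟪S v, w⟫ = ⟪v, S w⟫)
    (hS0 : ∀ v, 0 ≤ ⟪S v, v⟫) (w : E) (hw : ⟪S w, w⟫ = 0) : S w = 0 := by
  rw [← inner_self_eq_zero (𝕜 := ℝ)]
  have hall : ∀ t : ℝ, 0 ≤ 2 * t * ⟪S w, S w⟫ + t ^ 2 * ⟪S (S w), S w⟫ := by
    intro t
    have h1 := hS0 (w + t • S w)
    have h2 : ⟪S (w + t • S w), w + t • S w⟫ =
        ⟪S w, w⟫ + 2 * t * ⟪S w, S w⟫ + t ^ 2 * ⟪S (S w), S w⟫ := by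
      simp only [map_add, map_smul, inner_add_left, inner_add_right, inner_smul_left, inner_smul_right,
        RCLike.conj_to_real]
      have h3 := hS (S w) w
      have h4 : ⟪w, S (S w)⟫ = ⟪S w, S w⟫ := (hS w (S w)).symm
      have h5 : ⟪S (S w), w⟫ = ⟪S w, S w⟫ := by rw [h3]
      rw [h5]
      ring
    rw [h2, hw] at h1
    linarith
  set A' := ⟪S w, S w⟫ with hA'
  set C' := ⟪S (S w), S w⟫ with hC'
  have hA'0 : 0 ≤ A' := real_inner_self_nonneg
  by_contra hne
  have hA'pos : 0 < A' := lt_of_le_of_ne hA'0 (Ne.symm hne)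
  have hC'0 : 0 ≤ C' := hS0 _
  have h3 := hall (-(A' / (C' + 1)))
  have hC1 : 0 < C' + 1 := by linarith
  have h4 : 2 * (-(A' / (C' + 1))) * A' + (-(A' / (C' + 1))) ^ 2 * C' =
      -(A' ^ 2 / (C' + 1)) * (2 - C' / (C' + 1)) := by
    field_simp
    ring
  rw [h4] at h3
  have h5 : C' / (C' + 1) < 1 := by
    rw [div_lt_one hC1]; linarith
  have h6 : 0 < A' ^ 2 / (C' + 1) := by positivity
  nlinarith

private lemma h5_two_by_two {x y : E} {α β : ℝ} (hx1 : α • x - β • y = x) (hy1 : β • x + α • y = y)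
    (hxy0 : x ≠ 0 ∨ y ≠ 0) : α = 1 ∧ β = 0 := by
  have hxe : (α - 1) • x = β • y := by
    have h : (α - 1) • x - β • y = 0 := by
      rw [sub_smul, one_smul]
      nth_rw 2 [← hx1]
      abel
    exact sub_eq_zero.mp h
  have hye : (α - 1) • y = - (β • x) := by
    have h : (α - 1) • y + β • x = 0 := by
      rw [sub_smul, one_smul]
      nth_rw 2 [← hy1]
      abel
    exact eq_neg_of_add_eq_zero_left h
  have h1 : ((α - 1) ^ 2 + β ^ 2) • x = 0 := by
    have h2 : ((α - 1) ^ 2 + β ^ 2) • x = (α - 1) • ((α - 1) • x) + β • (β • x) := by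
      rw [smul_smul, smul_smul, ← add_smul]; ring_nf
    rw [h2, hxe, smul_smul, ← neg_eq_zero]
    have h3 : β • (β • x) = β • (β • x) := rfl
    have h4 : (α - 1) * β = β * (α - 1) := mul_comm _ _
    rw [h4, ← smul_smul, hye]
    simp
  have h1' : ((α - 1) ^ 2 + β ^ 2) • y = 0 := by
    have h2 : ((α - 1) ^ 2 + β ^ 2) • y = (α - 1) • ((α - 1) • y) + β • (β • y) := by
      rw [smul_smul, smul_smul, ← add_smul]; ring_nf
    rw [h2, hye, smul_neg, smul_smul, ← hxe, smul_smul, mul_comm]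
    simp
  have hzero : (α - 1) ^ 2 + β ^ 2 = 0 := by
    rcases hxy0 with hx | hy
    · exact (smul_eq_zero.mp h1).resolve_right hx
    · exact (smul_eq_zero.mp h1').resolve_right hy
  constructor
  · nlinarith [sq_nonneg (α - 1), sq_nonneg β]
  · nlinarith [sq_nonneg (α - 1), sq_nonneg β]

/-- The core: a complex eigenvalue with eigenvector `x + i y` of the adjoint is positive real. -/
private lemma h5_eig {P S Q' : E →L[ℝ] E} (hS : ∀ v w, ⟪S v, w⟫ = ⟪v, S w⟫)
    (hS0 : ∀ v, 0 ≤ ⟪S v, v⟫) (hQ : ∀ v w, ⟪Q' v, w⟫ = ⟪v, Q' w⟫) (hQ0 : ∀ v, 0 ≤ ⟪Q' v, v⟫)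
    (hPS : Q' = P.comp S)
    (hker : ∀ η, Q' η = 0 → ContinuousLinearMap.adjoint P η = η)
    {x y : E} {α β : ℝ} (hPx : ContinuousLinearMap.adjoint P x = α • x - β • y)
    (hPy : ContinuousLinearMap.adjoint P y = β • x + α • y) (hxy0 : x ≠ 0 ∨ y ≠ 0)
    (hne : ¬(α = 0 ∧ β = 0)) : 0 < α ∧ β = 0 := by
  have hQS : ∀ x y : E, ⟪Q' x, y⟫ = ⟪S x, ContinuousLinearMap.adjoint P y⟫ := by
    intro x y
    rw [hPS, ContinuousLinearMap.comp_apply, ContinuousLinearMap.adjoint_inner_right]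
  have hS2 : ∀ x y : E, ⟪S x, y⟫ = ⟪S y, x⟫ := by
    intro x y
    rw [hS, real_inner_comm]
  set σ := ⟪S x, x⟫ + ⟪S y, y⟫ with hσ
  have hσ0 : 0 ≤ σ := add_nonneg (hS0 x) (hS0 y)
  have hQxx : ⟪Q' x, x⟫ = α * ⟪S x, x⟫ - β * ⟪S x, y⟫ := by
    rw [hQS, hPx, inner_sub_right, inner_smul_right, inner_smul_right]
  have hQyy : ⟪Q' y, y⟫ = β * ⟪S y, x⟫ + α * ⟪S y, y⟫ := by
    rw [hQS, hPy, inner_add_right, inner_smul_right, inner_smul_right]
  have hQxy : ⟪Q' x, y⟫ = β * ⟪S x, x⟫ + α * ⟪S x, y⟫ := by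
    rw [hQS, hPy, inner_add_right, inner_smul_right, inner_smul_right]
  have hQyx : ⟪Q' y, x⟫ = α * ⟪S y, x⟫ - β * ⟪S y, y⟫ := by
    rw [hQS, hPx, inner_sub_right, inner_smul_right, inner_smul_right]
  have hSyx := hS2 y x
  have hQsym : ⟪Q' x, y⟫ = ⟪Q' y, x⟫ := by rw [hQ, real_inner_comm]
  have hβσ : β * σ = 0 := by
    rw [hQxy, hQyx, hSyx] at hQsym
    rw [hσ]
    linarith
  have hασ : α * σ = ⟪Q' x, x⟫ + ⟪Q' y, y⟫ := by
    rw [hQxx, hQyy, hSyx, hσ]
    ring
  by_cases hσpos : 0 < σ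
  · have hβ0 : β = 0 := by
      rcases mul_eq_zero.mp hβσ with h | h
      · exact h
      · exact absurd h hσpos.ne'
    have hα0 : 0 ≤ α := by
      have h1 : 0 ≤ α * σ := by
        rw [hασ]; exact add_nonneg (hQ0 x) (hQ0 y)
      by_contra hcon
      have hcon' : α < 0 := not_le.mp hcon
      nlinarith
    refine ⟨lt_of_le_of_ne hα0 fun h => hne ⟨h.symm, hβ0⟩, hβ0⟩
  · have hσeq : σ = 0 := le_antisymm (not_lt.mp hσpos) hσ0
    have hx0 : ⟪S x, x⟫ = 0 := by
      have := hS0 x; have := hS0 y; rw [hσ] at hσeq; linarith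
    have hy0 : ⟪S y, y⟫ = 0 := by
      have := hS0 x; have := hS0 y; rw [hσ] at hσeq; linarith
    have hSx := h5_psd_kernel hS hS0 x hx0
    have hSy := h5_psd_kernel hS hS0 y hy0
    have hQx : Q' x = 0 := by rw [hPS, ContinuousLinearMap.comp_apply, hSx, map_zero]
    have hQy : Q' y = 0 := by rw [hPS, ContinuousLinearMap.comp_apply, hSy, map_zero]
    have hx1 := hker x hQx
    have hy1 := hker y hQy
    rw [hPx] at hx1
    rw [hPy] at hy1
    obtain ⟨h1, h2⟩ := h5_two_by_two hx1 hy1 hxy0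
    exact ⟨by rw [h1]; exact one_pos, h2⟩

/-- The linear algebra lemma. -/
theorem la_spectrum {P S Q' : E →L[ℝ] E} (hS : ∀ v w, ⟪S v, w⟫ = ⟪v, S w⟫)
    (hS0 : ∀ v, 0 ≤ ⟪S v, v⟫) (hQ : ∀ v w, ⟪Q' v, w⟫ = ⟪v, Q' w⟫) (hQ0 : ∀ v, 0 ≤ ⟪Q' v, v⟫)
    (hPS : Q' = P.comp S) (hdet : P.det ≠ 0)
    (hker : ∀ η, Q' η = 0 → ContinuousLinearMap.adjoint P η = η) {τ : ℝ} (hτ : τ ∈ Icc (0 : ℝ) 1) :
    |P.det| ^ τ ≤ |((1 - τ) • ContinuousLinearMap.id ℝ E + τ • P).det| := by
  classical
  let b := stdOrthonormalBasis ℝ E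
  let B := b.toBasis
  let f : E →ₗ[ℝ] E := (P : E →ₗ[ℝ] E)
  let A := LinearMap.toMatrix B B f
  have hA : P.det = A.det := (LinearMap.det_toMatrix B f).symm
  have hAij : ∀ i j, A i j = ⟪b i, P (b j)⟫ := by
    intro i j
    simp [A, f, B, LinearMap.toMatrix_apply, OrthonormalBasis.coe_toBasis_repr_apply, b.repr_apply_apply]
  have hM : ((1 - τ) • ContinuousLinearMap.id ℝ E + τ • P).det =
      ((1 - τ) • (1 : Matrix _ _ ℝ) + τ • A).det := by
    show LinearMap.det (((1 - τ) • ContinuousLinearMap.id ℝ E + τ • P : E →L[ℝ] E) : E →ₗ[ℝ] E) = _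
    rw [← LinearMap.det_toMatrix B]
    congr 1
    have : (((1 - τ) • ContinuousLinearMap.id ℝ E + τ • P : E →L[ℝ] E) : E →ₗ[ℝ] E) =
        (1 - τ) • LinearMap.id + τ • f := by
      ext x; simp [f]
    rw [this, map_add, map_smul, map_smul, LinearMap.toMatrix_id]
  rw [hA, hM]
  refine h5_matrix A ?_ hτ
  intro z hz
  have hroot : (A.map Complex.ofRealHom).charpoly.IsRoot z := (Polynomial.mem_roots'.mp hz).2
  have hdet0 : (Matrix.scalar _ z - A.map Complex.ofRealHom).det = 0 := by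
    rw [← Matrix.eval_charpoly]; exact hroot
  obtain ⟨v, hv0, hv⟩ := Matrix.exists_vecMul_eq_zero_iff.mpr hdet0
  set α := z.re with hα
  set β := z.im with hβ
  let vx : _ → ℝ := fun i => (v i).re
  let vy : _ → ℝ := fun i => (v i).im
  let x : E := ∑ i, vx i • b i
  let y : E := ∑ i, vy i • b i
  have hxb : ∀ j, ⟪x, b j⟫ = vx j := by
    intro j
    simp only [x, sum_inner, inner_smul_left, RCLike.conj_to_real]
    simp [b.inner_eq_ite]
  have hyb : ∀ j, ⟪y, b j⟫ = vy j := by
    intro j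
    simp only [y, sum_inner, inner_smul_left, RCLike.conj_to_real]
    simp [b.inner_eq_ite]
  have hj : ∀ j, z * v j = ∑ i, v i * ((A i j : ℝ) : ℂ) := by
    intro j
    have h1 := congrFun hv j
    simp only [Matrix.vecMul, dotProduct, Pi.zero_apply, Matrix.sub_apply, Matrix.scalar_apply,
      Matrix.map_apply, mul_sub, Finset.sum_sub_distrib] at h1
    simp only [Matrix.diagonal_apply, mul_ite, mul_zero, Finset.sum_ite_eq', Finset.mem_univ, if_true] at h1
    have h2 : v j * z = ∑ i, v i * Complex.ofRealHom (A i j) := sub_eq_zero.mp h1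
    rw [mul_comm, h2]
    rfl
  have hPx : ContinuousLinearMap.adjoint P x = α • x - β • y := by
    refine InnerProductSpace.ext_inner_right_basis B fun j => ?_
    simp only [B, OrthonormalBasis.coe_toBasis]
    rw [ContinuousLinearMap.adjoint_inner_left, inner_sub_left, inner_smul_left, inner_smul_left,
      hxb, hyb]
    simp only [RCLike.conj_to_real]
    have h3 := congrArg Complex.re (hj j)
    simp only [Complex.mul_re, Complex.re_sum, Complex.ofReal_re, Complex.ofReal_im, mul_zero, sub_zero] at h3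
    have h4 : ⟪x, P (b j)⟫ = ∑ i, vx i * A i j := by
      simp only [x, sum_inner, inner_smul_left, RCLike.conj_to_real, hAij]
    rw [h4]
    simp only [vx, vy]
    linarith
  have hPy : ContinuousLinearMap.adjoint P y = β • x + α • y := by
    refine InnerProductSpace.ext_inner_right_basis B fun j => ?_
    simp only [B, OrthonormalBasis.coe_toBasis]
    rw [ContinuousLinearMap.adjoint_inner_left, inner_add_left, inner_smul_left, inner_smul_left,
      hxb, hyb]
    simp only [RCLike.conj_to_real]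
    have h3 := congrArg Complex.im (hj j)
    simp only [Complex.mul_im, Complex.im_sum, Complex.ofReal_re, Complex.ofReal_im, mul_zero, zero_add] at h3
    have h4 : ⟪y, P (b j)⟫ = ∑ i, vy i * A i j := by
      simp only [y, sum_inner, inner_smul_left, RCLike.conj_to_real, hAij]
    rw [h4]
    simp only [vx, vy]
    linarith
  have hxy0 : x ≠ 0 ∨ y ≠ 0 := by
    by_contra hcon
    have hcon1 : x = 0 := by
      by_contra h; exact hcon (Or.inl h)
    have hcon2 : y = 0 := by
      by_contra h; exact hcon (Or.inr h)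
    apply hv0
    funext j
    have h1 : vx j = 0 := by rw [← hxb, hcon1, inner_zero_left]
    have h2 : vy j = 0 := by rw [← hyb, hcon2, inner_zero_left]
    exact Complex.ext h1 h2
  have hz0 : z ≠ 0 := by
    rintro rfl
    apply hdet
    rw [hA]
    have h1 : (Matrix.scalar _ (0 : ℂ) - A.map Complex.ofRealHom).det = 0 := hdet0
    have h2 : ((A.det : ℝ) : ℂ) = (A.map Complex.ofRealHom).det := by
      have := RingHom.map_det Complex.ofRealHom A
      simpa [RingHom.mapMatrix_apply] using this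
    have h3 : Matrix.scalar (Fin (Module.finrank ℝ E)) (0 : ℂ) - A.map Complex.ofRealHom =
        - A.map Complex.ofRealHom := by simp
    rw [h3, Matrix.det_neg] at h1
    have h4 : (A.map Complex.ofRealHom).det = 0 := by
      rcases mul_eq_zero.mp h1 with h5 | h5
      · exact absurd h5 (by simp)
      · exact h5
    rw [← h2] at h4
    exact_mod_cast h4
  have hne : ¬(α = 0 ∧ β = 0) := by
    rintro ⟨h1, h2⟩
    exact hz0 (Complex.ext h1 h2)
  obtain ⟨h1, h2⟩ := h5_eig hS hS0 hQ hQ0 hPS hker hPx hPy hxy0 hne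
  exact ⟨α, h1, Complex.ext (by simp [hα]) (by simpa [hβ] using h2)⟩

end Vale.Agent.Lib.P084T
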