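import Vale.Agent.Lib.P084T.D1

set_option linter.unusedSectionVars false

/-! # P084T part J1. See `notes/P084_blueprint.md`, section J1. -/

open MeasureTheory Set Filter Topology
open scoped RealInnerProductSpace ENNReal NNReal

namespace Vale.Agent.Lib.P084T

variable {E : Type*} [NormedAddCommGroup E] [InnerProductSpace ℝ E] [FiniteDimensional ℝ E]
  [CompleteSpace E] [MeasurableSpace E] [BorelSpace E]
variable {N N' : NF E}

/-- The reciprocity of `ell`. -/
theorem ell_swap (R : RadIso N N') {a b : E} (ha : a ∈ Good R) :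
    ell R.swap (R.F a) (R.F b) = (ell R a b)⁻¹ := by
  have h1 := congrArg ContinuousLinearMap.det (R.good_inverse ha).1
  have h2 : (fderiv ℝ R.G (R.F a)).det * (fderiv ℝ R.F a).det = 1 := by
    have e1 : ((fderiv ℝ R.G (R.F a)).comp (fderiv ℝ R.F a)).det =
        (fderiv ℝ R.G (R.F a)).det * (fderiv ℝ R.F a).det := by
      simp [ContinuousLinearMap.det, LinearMap.det_comp]
    have e2 : (ContinuousLinearMap.id ℝ E).det = 1 := by
      simp [ContinuousLinearMap.det]
    rw [← e1, h1, e2]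
  have h3 : |(fderiv ℝ R.G (R.F a)).det| = |(fderiv ℝ R.F a).det|⁻¹ := by
    apply eq_inv_of_mul_eq_one_left
    rw [← abs_mul, h2, abs_one]
  have h4 : R.swap.F = R.G := rfl
  unfold ell
  rw [h4, R.G_F, R.G_F, h3]
  simp only [div_eq_mul_inv, mul_inv, inv_inv]
  ring

private lemma J1_X_pos {x y : ℝ} (hx : 0 < x) (hy : 0 < y) (τ : ℝ) : 0 < x ^ (1 - τ) * y ^ τ :=
  mul_pos (Real.rpow_pos_of_pos hx _) (Real.rpow_pos_of_pos hy _)

private lemma J1_X_inv {x y : ℝ} (hx : 0 < x) (hy : 0 < y) (τ : ℝ) :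
    x⁻¹ ^ (1 - τ) * y⁻¹ ^ τ = (x ^ (1 - τ) * y ^ τ)⁻¹ := by
  rw [Real.inv_rpow hx.le, Real.inv_rpow hy.le, mul_inv]

private lemma J1_X_cont {x y : ℝ} (hx : 0 < x) (hy : 0 < y) :
    Continuous (fun τ : ℝ => x ^ (1 - τ) * y ^ τ) :=
  ((Real.continuous_const_rpow hx.ne').comp (continuous_const.sub continuous_id)).mul
    (Real.continuous_const_rpow hy.ne')

private lemma J1_sum {x y r : ℝ} (hx : 0 < x) (hy : 0 < y) (hr : 0 < r) :
    Gam x y / ENNReal.ofReal r + ENNReal.ofReal r * Gam x⁻¹ y⁻¹ =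
      ∫⁻ τ in Icc (0 : ℝ) 1, ENNReal.ofReal
        (x ^ (1 - τ) * y ^ τ / r + r / (x ^ (1 - τ) * y ^ τ)) := by
  have hc := J1_X_cont hx hy
  have hm1 : Measurable (fun τ : ℝ => ENNReal.ofReal (x ^ (1 - τ) * y ^ τ)) :=
    ENNReal.continuous_ofReal.measurable.comp hc.measurable
  have hm2 : Measurable (fun τ : ℝ => ENNReal.ofReal ((x ^ (1 - τ) * y ^ τ)⁻¹)) :=
    ENNReal.continuous_ofReal.measurable.comp hc.measurable.inv
  have e1 : Gam x y / ENNReal.ofReal r =
      ∫⁻ τ in Icc (0 : ℝ) 1, ENNReal.ofReal (x ^ (1 - τ) * y ^ τ / r) := by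
    unfold Gam
    rw [div_eq_mul_inv, ← lintegral_mul_const _ hm1]
    refine lintegral_congr fun τ => ?_
    rw [ENNReal.ofReal_div_of_pos hr, div_eq_mul_inv]
  have e2 : ENNReal.ofReal r * Gam x⁻¹ y⁻¹ =
      ∫⁻ τ in Icc (0 : ℝ) 1, ENNReal.ofReal (r / (x ^ (1 - τ) * y ^ τ)) := by
    unfold Gam
    simp only [J1_X_inv hx hy]
    rw [← lintegral_const_mul _ hm2]
    refine lintegral_congr fun τ => ?_
    rw [← ENNReal.ofReal_mul hr.le, div_eq_mul_inv]
  rw [e1, e2, ← lintegral_add_left]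
  · refine lintegral_congr fun τ => ?_
    have h := J1_X_pos hx hy τ
    rw [ENNReal.ofReal_add (by positivity) (by positivity)]
  · exact ENNReal.continuous_ofReal.measurable.comp (hc.measurable.div_const r)

/-- The pointwise inequality for `Gam`. -/
theorem Gam_pointwise {x y r : ℝ} (hx : 0 < x) (hy : 0 < y) (hr : 0 < r) :
    2 ≤ Gam x y / ENNReal.ofReal r + ENNReal.ofReal r * Gam x⁻¹ y⁻¹ ∧
      (Gam x y / ENNReal.ofReal r + ENNReal.ofReal r * Gam x⁻¹ y⁻¹ = 2 → x = r ∧ y = r) := by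
  rw [J1_sum hx hy hr]
  have hc := J1_X_cont hx hy
  have hkey : ∀ u : ℝ, 0 < u → 2 ≤ u / r + r / u := by
    intro u hu
    have h1 : u / r + r / u - 2 = (u - r) ^ 2 / (u * r) := by
      field_simp
      ring
    have h2 : 0 ≤ (u - r) ^ 2 / (u * r) := by positivity
    linarith
  have hmass : ∫⁻ _ in Icc (0 : ℝ) 1, (2 : ℝ≥0∞) = 2 := by
    simp
  have hle : (fun _ : ℝ => (2 : ℝ≥0∞)) ≤ᵐ[volume.restrict (Icc (0 : ℝ) 1)] fun τ =>
      ENNReal.ofReal (x ^ (1 - τ) * y ^ τ / r + r / (x ^ (1 - τ) * y ^ τ)) := by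
    refine ae_of_all _ fun τ => ?_
    have h := hkey _ (J1_X_pos hx hy τ)
    have e2 : (2 : ℝ≥0∞) = ENNReal.ofReal 2 := by simp
    show (2 : ℝ≥0∞) ≤ _
    rw [e2]
    exact ENNReal.ofReal_le_ofReal h
  have hmeasF : Measurable (fun τ : ℝ =>
      ENNReal.ofReal (x ^ (1 - τ) * y ^ τ / r + r / (x ^ (1 - τ) * y ^ τ))) :=
    ENNReal.continuous_ofReal.measurable.comp
      ((hc.measurable.div_const r).add (measurable_const.div hc.measurable))
  refine ⟨?_, fun h2 => ?_⟩
  · calc (2 : ℝ≥0∞) = ∫⁻ _ in Icc (0 : ℝ) 1, (2 : ℝ≥0∞) := hmass.symm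
      _ ≤ _ := lintegral_mono_ae hle
  · have hae := ae_eq_of_ae_le_of_lintegral_le hle (by rw [hmass]; simp) hmeasF.aemeasurable
      (by rw [hmass, h2])
    have hae2 : (fun τ : ℝ => (2 : ℝ)) =ᵐ[volume.restrict (Icc (0 : ℝ) 1)] fun τ =>
        x ^ (1 - τ) * y ^ τ / r + r / (x ^ (1 - τ) * y ^ τ) := by
      filter_upwards [hae] with τ hτ
      have h3 := hkey _ (J1_X_pos hx hy τ)
      have e2 : (2 : ℝ≥0∞) = ENNReal.ofReal 2 := by simp
      rw [e2] at hτ
      exact (ENNReal.ofReal_eq_ofReal_iff (by norm_num) (by linarith)).mp hτ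
    have hcF : ContinuousOn (fun τ : ℝ =>
        x ^ (1 - τ) * y ^ τ / r + r / (x ^ (1 - τ) * y ^ τ)) (Icc (0 : ℝ) 1) := by
      refine ContinuousOn.add (hc.continuousOn.div_const r) ?_
      refine ContinuousOn.div continuousOn_const hc.continuousOn fun τ _ => ?_
      exact (J1_X_pos hx hy τ).ne'
    have heq := Measure.eqOn_Icc_of_ae_eq (volume : Measure ℝ) (by norm_num : (0 : ℝ) ≠ 1) hae2
      continuousOn_const hcF
    have hval : ∀ u : ℝ, 0 < u → 2 = u / r + r / u → u = r := by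
      intro u hu h
      have h1 : u / r + r / u - 2 = (u - r) ^ 2 / (u * r) := by
        field_simp
        ring
      have h3 : (u - r) ^ 2 / (u * r) = 0 := by linarith
      have h4 : (u - r) ^ 2 = 0 := by
        rcases (div_eq_zero_iff.mp h3) with h5 | h5
        · exact h5
        · exact absurd h5 (by positivity)
      have h5 : u - r = 0 := by simpa using h4
      linarith
    have h0 := hval _ (J1_X_pos hx hy 0) (heq (by simp : (0 : ℝ) ∈ Icc (0 : ℝ) 1))
    have h1 := hval _ (J1_X_pos hx hy 1) (heq (by simp : (1 : ℝ) ∈ Icc (0 : ℝ) 1))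
    simp only [sub_zero, Real.rpow_one, Real.rpow_zero, mul_one, sub_self, one_mul] at h0 h1
    exact ⟨h0, h1⟩

theorem measurable_Gam : Measurable (fun p : ℝ × ℝ => Gam p.1 p.2) := by
  unfold Gam
  have h : Measurable (fun q : (ℝ × ℝ) × ℝ =>
      ENNReal.ofReal (q.1.1 ^ (1 - q.2) * q.1.2 ^ q.2)) := by
    refine ENNReal.continuous_ofReal.measurable.comp ?_
    exact ((measurable_fst.comp measurable_fst).pow (measurable_const.sub measurable_snd)).mul
      ((measurable_snd.comp measurable_fst).pow measurable_snd)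
  exact h.lintegral_prod_right'

end Vale.Agent.Lib.P084T
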