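import Vale.Agent.Lib.P084T.B2

set_option linter.unusedSectionVars false

/-! # P084T part B3. See `notes/P084_blueprint.md`, section B3. -/

open MeasureTheory Set Filter Topology
open scoped RealInnerProductSpace ENNReal NNReal

namespace Vale.Agent.Lib.P084T

variable {E : Type*} [NormedAddCommGroup E] [InnerProductSpace ℝ E] [FiniteDimensional ℝ E]
  [CompleteSpace E] [MeasurableSpace E] [BorelSpace E]
variable {N N' : NF E}

/-- A weight with unit mass on every line of direction `v`. -/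
private noncomputable def rhoL (v w : E) : ℝ≥0∞ :=
  (Ico (0 : ℝ) 1).indicator (fun _ => (1 : ℝ≥0∞)) (⟪v, w⟫ / ‖v‖ ^ 2)

private lemma measurable_rhoL (v : E) : Measurable (rhoL v) := by
  unfold rhoL
  refine (measurable_const.indicator measurableSet_Ico).comp ?_
  have h : Measurable (fun w : E => ⟪v, w⟫) := (innerSL ℝ v).continuous.measurable
  exact h.div_const _

private lemma lintegral_rhoL {v : E} (hv : v ≠ 0) (w : E) : ∫⁻ t : ℝ, rhoL v (w - t • v) = 1 := by
  have hn : (‖v‖ ^ 2 : ℝ) ≠ 0 := by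
    have := norm_pos_iff.mpr hv
    positivity
  have h1 : ∀ t : ℝ, rhoL v (w - t • v) =
      (Ico (0 : ℝ) 1).indicator (fun _ => (1 : ℝ≥0∞)) (⟪v, w⟫ / ‖v‖ ^ 2 - t) := by
    intro t
    unfold rhoL
    have : ⟪v, w - t • v⟫ / ‖v‖ ^ 2 = ⟪v, w⟫ / ‖v‖ ^ 2 - t := by
      rw [inner_sub_right, inner_smul_right, real_inner_self_eq_norm_sq]
      field_simp
    rw [this]
  simp_rw [h1]
  rw [lintegral_sub_left_eq_self (fun x => (Ico (0 : ℝ) 1).indicator (fun _ => (1 : ℝ≥0∞)) x) (⟪v, w⟫ / ‖v‖ ^ 2)]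
  rw [lintegral_indicator measurableSet_Ico]
  simp

/-- The disintegration of the Lebesgue measure along the lines of direction `v`. -/
private lemma lintegral_eq_rho {v : E} (hv : v ≠ 0) {H : E → ℝ≥0∞} (mH : Measurable H) :
    ∫⁻ w, H w = ∫⁻ w, rhoL v w * ∫⁻ t : ℝ, H (w + t • v) := by
  have mρ := measurable_rhoL v
  have hadd : Measurable (fun p : E × ℝ => p.1 + p.2 • v) := by fun_prop
  have hsub : Measurable (fun p : E × ℝ => p.1 - p.2 • v) := by fun_prop
  have m1 : Measurable (fun p : E × ℝ => rhoL v p.1 * H (p.1 + p.2 • v)) :=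
    (mρ.comp measurable_fst).mul (mH.comp hadd)
  have m2 : Measurable (fun p : E × ℝ => rhoL v (p.1 - p.2 • v) * H p.1) :=
    (mρ.comp hsub).mul (mH.comp measurable_fst)
  calc ∫⁻ w, H w = ∫⁻ w, H w * ∫⁻ t : ℝ, rhoL v (w - t • v) := by
        simp_rw [lintegral_rhoL hv, mul_one]
    _ = ∫⁻ w, ∫⁻ t : ℝ, rhoL v (w - t • v) * H w := by
        refine lintegral_congr fun w => ?_
        have hm : Measurable (fun t : ℝ => rhoL v (w - t • v)) := mρ.comp (by fun_prop)
        rw [lintegral_mul_const (H w) hm, mul_comm]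
    _ = ∫⁻ t : ℝ, ∫⁻ w, rhoL v (w - t • v) * H w :=
        lintegral_lintegral_swap m2.aemeasurable
    _ = ∫⁻ t : ℝ, ∫⁻ w, rhoL v w * H (w + t • v) := by
        refine lintegral_congr fun t => ?_
        rw [← lintegral_add_right_eq_self (fun w => rhoL v (w - t • v) * H w) (t • v)]
        simp_rw [add_sub_cancel_right]
    _ = ∫⁻ w, ∫⁻ t : ℝ, rhoL v w * H (w + t • v) :=
        (lintegral_lintegral_swap (f := fun w t => rhoL v w * H (w + t • v)) m1.aemeasurable).symm
    _ = ∫⁻ w, rhoL v w * ∫⁻ t : ℝ, H (w + t • v) := by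
        refine lintegral_congr fun w => ?_
        have hm : Measurable (fun t : ℝ => H (w + t • v)) := mH.comp (by fun_prop)
        rw [lintegral_const_mul _ hm]

/-- Line Fubini, inequality form. -/
theorem line_fubini_le {v : E} (hv : v ≠ 0) {H₁ H₂ : E → ℝ≥0∞} (m₁ : Measurable H₁)
    (m₂ : Measurable H₂)
    (h : ∀ᵐ w ∂(volume : Measure E), ∫⁻ t : ℝ, H₁ (w + t • v) ≤ ∫⁻ t : ℝ, H₂ (w + t • v)) :
    ∫⁻ w, H₁ w ≤ ∫⁻ w, H₂ w := by
  rw [lintegral_eq_rho hv m₁, lintegral_eq_rho hv m₂]
  refine lintegral_mono_ae (h.mono fun w hw => ?_)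
  exact mul_le_mul_right hw _

/-- Line Fubini, equality form. -/
theorem line_fubini_eq {v : E} (hv : v ≠ 0) {H₁ H₂ : E → ℝ≥0∞} (m₁ : Measurable H₁)
    (m₂ : Measurable H₂)
    (h : ∀ᵐ w ∂(volume : Measure E), ∫⁻ t : ℝ, H₁ (w + t • v) = ∫⁻ t : ℝ, H₂ (w + t • v)) :
    ∫⁻ w, H₁ w = ∫⁻ w, H₂ w :=
  le_antisymm (line_fubini_le hv m₁ m₂ (h.mono fun _ hw => hw.le))
    (line_fubini_le hv m₂ m₁ (h.mono fun _ hw => hw.symm.le))

/-- A shear along a fixed direction preserves the volume. -/
theorem shear_lintegral {v : E} (hv : v ≠ 0) {c : E → ℝ} (mc : Measurable c)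
    (hc : ∀ (w : E) (t : ℝ), c (w + t • v) = c w) {h : E → ℝ≥0∞} (mh : Measurable h) :
    ∫⁻ w, h (w + c w • v) = ∫⁻ w, h w := by
  refine line_fubini_eq hv (mh.comp (by fun_prop)) mh (Eventually.of_forall fun w => ?_)
  have h1 : ∀ t : ℝ, h (w + t • v + c (w + t • v) • v) = h (w + (t + c w) • v) := by
    intro t
    rw [hc, add_smul, add_assoc]
  simp_rw [h1]
  exact lintegral_add_right_eq_self (fun t : ℝ => h (w + t • v)) (c w)

private lemma set_line_ball (N : NF E) {v w : E} (hv : v ≠ 0) (h : hits N v w) :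
    {t : ℝ | w + t • v ∈ N.ball} = Ioo (-tm N v w) (tp N v w) := by
  ext t
  exact line_iff N hv h t

/-- Measure of the section of the ball by a line. -/
theorem volume_line_ball (N : NF E) {v w : E} (hv : v ≠ 0) (h : hits N v w) :
    (volume {t : ℝ | w + t • v ∈ N.ball}) = ENNReal.ofReal (len N v w) := by
  rw [set_line_ball N hv h, Real.volume_Ioo]
  congr 1
  unfold len
  ring

/-- Measure of the section of the tube by a line. -/
theorem volume_line_tube (N : NF E) {v w : E} (hv : v ≠ 0) (h : hits N v w) :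
    (volume {t : ℝ | w + t • v ∈ Tube N v}) = ENNReal.ofReal (1 / (Module.finrank ℝ E : ℝ)) := by
  have hset : {t : ℝ | w + t • v ∈ Tube N v} =
      Ioo (-tm N v w) (-tm N v w + 1 / (Module.finrank ℝ E : ℝ)) := by
    ext t
    simp only [Set.mem_ofPred_eq, Tube, mem_Ioo]
    rw [hits_add, tm_add N hv h t]
    constructor
    · rintro ⟨-, h1, h2⟩
      constructor <;> linarith
    · rintro ⟨h1, h2⟩
      exact ⟨h, by linarith, by linarith⟩
  rw [hset, Real.volume_Ioo]
  congr 1
  ring

private lemma lintegral_div_add {A L : ℝ} (hL : 0 < L) {f : ℝ → ℝ≥0∞} (hf : Measurable f) :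
    ∫⁻ t : ℝ, f ((A + t) / L) = ENNReal.ofReal L * ∫⁻ s : ℝ, f s := by
  have h1 : ∫⁻ t : ℝ, f ((A + t) / L) = ∫⁻ t : ℝ, f (t / L) :=
    lintegral_add_left_eq_self (fun t : ℝ => f (t / L)) A
  have hL' : L⁻¹ ≠ 0 := inv_ne_zero hL.ne'
  have h2 := Real.map_volume_mul_left hL'
  have hm : Measurable (fun t : ℝ => L⁻¹ * t) := measurable_const.mul measurable_id
  have h3 : ∫⁻ t : ℝ, f (t / L) = ∫⁻ s, f s ∂(Measure.map (fun t : ℝ => L⁻¹ * t) volume) := by
    rw [lintegral_map hf hm]
    refine lintegral_congr fun t => ?_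
    rw [div_eq_inv_mul]
  rw [h1, h3, h2, lintegral_smul_measure, inv_inv, abs_of_pos hL]
  rfl

/-- The uniform law of the ratio `tm / len` on a chord. -/
theorem lintegral_line_ratio (N : NF E) {v w : E} (hv : v ≠ 0) (h : hits N v w)
    {g : ℝ → ℝ≥0∞} (hg : Measurable g) :
    ∫⁻ t in {t : ℝ | w + t • v ∈ N.ball}, g (tm N v (w + t • v) / len N v w) =
      ENNReal.ofReal (len N v w) * ∫⁻ s in Icc (0 : ℝ) 1, g s := by
  have hL := len_pos N hv h
  set L := len N v w with hLdef
  set A := tm N v w with hA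
  have hmIoo : MeasurableSet (Ioo (0 : ℝ) 1) := measurableSet_Ioo
  have e1 : ∫⁻ t in {t : ℝ | w + t • v ∈ N.ball}, g (tm N v (w + t • v) / L) =
      ∫⁻ t : ℝ, (Ioo (0 : ℝ) 1).indicator g ((A + t) / L) := by
    rw [← lintegral_indicator (by
      rw [set_line_ball N hv h]
      exact measurableSet_Ioo)]
    refine lintegral_congr fun t => ?_
    by_cases ht : t ∈ {t : ℝ | w + t • v ∈ N.ball}
    · rw [indicator_of_mem ht, tm_add N hv h t]
      have ht' := ht
      rw [set_line_ball N hv h] at ht'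
      have h0 : (A + t) / L ∈ Ioo (0 : ℝ) 1 := by
        have h1 : -A < t := ht'.1
        have h2 : t < tp N v w := ht'.2
        constructor
        · exact div_pos (by linarith) hL
        · rw [div_lt_one hL, hLdef]
          unfold len
          linarith
      rw [indicator_of_mem h0]
    · rw [indicator_of_notMem ht]
      have ht' := ht
      rw [set_line_ball N hv h] at ht'
      have h0 : (A + t) / L ∉ Ioo (0 : ℝ) 1 := by
        intro h3
        apply ht'
        have h4 : 0 < A + t := by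
          have := h3.1
          by_contra hc
          push Not at hc
          have := div_nonpos_of_nonpos_of_nonneg hc hL.le
          linarith
        have h5 : A + t < L := by
          have := h3.2
          rwa [div_lt_one hL] at this
        constructor
        · show -A < t
          linarith
        · rw [hLdef] at h5
          unfold len at h5
          linarith
      rw [indicator_of_notMem h0]
  rw [e1, lintegral_div_add hL (hg.indicator hmIoo), lintegral_indicator hmIoo]
  congr 1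
  exact setLIntegral_congr Ioo_ae_eq_Icc

end Vale.Agent.Lib.P084T
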