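import Vale.Agent.Lib.P084T.E2
import Vale.Agent.Lib.P084T.B3

set_option linter.unusedSectionVars false

/-! # P084T part E3. See `notes/P084_blueprint.md`, section E3. -/

open MeasureTheory Set Filter Topology
open scoped RealInnerProductSpace ENNReal NNReal

namespace Vale.Agent.Lib.P084T

variable {E : Type*} [NormedAddCommGroup E] [InnerProductSpace ℝ E] [FiniteDimensional ℝ E]
  [CompleteSpace E] [MeasurableSpace E] [BorelSpace E]
variable {N N' : NF E}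

private lemma det_adjoint' (T : E →L[ℝ] E) :
    LinearMap.det ((ContinuousLinearMap.adjoint T : E →L[ℝ] E) : E →ₗ[ℝ] E) =
      LinearMap.det (T : E →ₗ[ℝ] E) := by
  let b := stdOrthonormalBasis ℝ E
  have h : ((ContinuousLinearMap.adjoint T : E →L[ℝ] E) : E →ₗ[ℝ] E) =
      LinearMap.adjoint (T : E →ₗ[ℝ] E) := by
    ext x
    rfl
  rw [← LinearMap.det_toMatrix b.toBasis, ← LinearMap.det_toMatrix b.toBasis (T : E →ₗ[ℝ] E), h,
    LinearMap.toMatrix_adjoint, Matrix.det_conjTranspose]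
  rfl

private lemma tm_of_not_hits (N : NF E) {v w : E} (h : ¬ hits N v w) : tm N v w = 0 := by
  unfold tm
  have he : {t : ℝ | N (w - t • v) < 1} = ∅ := by
    ext t
    simp only [Set.mem_ofPred_eq, Set.mem_empty_iff_false, iff_false]
    intro ht
    apply h
    refine ⟨-t, ?_⟩
    rwa [neg_smul, ← sub_eq_add_neg]
  rw [he, Real.sSup_empty]

private lemma cov_core (N₁ N₂ : NF E) {φ φ' : E} (Ξ Ξ' : E →L[ℝ] E) (h1 : ∀ ξ, Ξ' (Ξ ξ) = ξ)
    (h2 : ∀ ζ, Ξ (Ξ' ζ) = ζ) (h3 : Ξ' φ' = φ) (hφ0 : φ ≠ 0) (hφ'0 : φ' ≠ 0)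
    (hhits0 : ∀ ξ, hits N₂ φ' (Ξ ξ) ↔ hits N₁ φ ξ) {D : ℝ}
    (hdet0 : LinearMap.det ((Ξ : E →L[ℝ] E) : E →ₗ[ℝ] E) ≠ 0)
    (hinvdet : (LinearMap.det ((Ξ : E →L[ℝ] E) : E →ₗ[ℝ] E))⁻¹ = D)
    {g : E → ℝ≥0∞} (hg : Measurable g) :
    ∫⁻ ξ in Tube N₁ φ, g (entryPt N₂ φ' (Ξ ξ)) =
      ENNReal.ofReal |D| * ∫⁻ ζ in Tube N₂ φ', g (entryPt N₂ φ' ζ) := by
  classical
  have hhits : ∀ ζ, hits N₁ φ (Ξ' ζ) ↔ hits N₂ φ' ζ := by
    intro ζ
    have := hhits0 (Ξ' ζ)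
    rw [h2] at this
    exact this.symm
  -- the shear
  let c : E → ℝ := fun ζ => tm N₁ φ (Ξ' ζ) - tm N₂ φ' ζ
  have mc : Measurable c := by
    have m1 : Measurable (fun ζ : E => tm N₁ φ (Ξ' ζ)) :=
      (measurable_tm N₁).comp (measurable_const.prodMk Ξ'.continuous.measurable)
    have m2 : Measurable (fun ζ : E => tm N₂ φ' ζ) :=
      (measurable_tm N₂).comp (measurable_const.prodMk measurable_id)
    exact m1.sub m2
  have hc : ∀ (w : E) (t : ℝ), c (w + t • φ') = c w := by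
    intro w t
    show tm N₁ φ (Ξ' (w + t • φ')) - tm N₂ φ' (w + t • φ') = tm N₁ φ (Ξ' w) - tm N₂ φ' w
    rw [map_add, map_smul, h3]
    by_cases hh : hits N₂ φ' w
    · rw [tm_add N₁ hφ0 ((hhits w).mpr hh) t, tm_add N₂ hφ'0 hh t]
      ring
    · have h4 : ¬ hits N₁ φ (Ξ' w) := fun h' => hh ((hhits w).mp h')
      rw [tm_of_not_hits N₁ (fun h' => h4 ((hits_add N₁ φ _ t).mp h')),
        tm_of_not_hits N₂ (fun h' => hh ((hits_add N₂ φ' _ t).mp h')),
        tm_of_not_hits N₁ h4, tm_of_not_hits N₂ hh]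
  -- the integrand
  have mT : MeasurableSet (Tube N₂ φ') :=
    (measurable_const.prodMk measurable_id) (measurableSet_tube N₂)
  have mT0 : MeasurableSet (Tube N₁ φ) :=
    (measurable_const.prodMk measurable_id) (measurableSet_tube N₁)
  have mE : Measurable (fun ζ : E => g (entryPt N₂ φ' ζ)) :=
    hg.comp ((measurable_entryPt N₂).comp (measurable_const.prodMk measurable_id))
  let W : E → ℝ≥0∞ := (Tube N₂ φ').indicator (fun ζ => g (entryPt N₂ φ' ζ))
  have mW : Measurable W := mE.indicator mT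
  have hpt : ∀ ξ, (Tube N₁ φ).indicator (fun ξ => g (entryPt N₂ φ' (Ξ ξ))) ξ =
      W (Ξ ξ + c (Ξ ξ) • φ') := by
    intro ξ
    by_cases hh : hits N₁ φ ξ
    · have hh' : hits N₂ φ' (Ξ ξ) := (hhits0 ξ).mpr hh
      have etm : tm N₂ φ' (Ξ ξ + c (Ξ ξ) • φ') = tm N₁ φ ξ := by
        rw [tm_add N₂ hφ'0 hh' _]
        show tm N₂ φ' (Ξ ξ) + (tm N₁ φ (Ξ' (Ξ ξ)) - tm N₂ φ' (Ξ ξ)) = _
        rw [h1]
        ring
      have ehits : hits N₂ φ' (Ξ ξ + c (Ξ ξ) • φ') := (hits_add N₂ φ' _ _).mpr hh'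
      have eiff : ξ ∈ Tube N₁ φ ↔ Ξ ξ + c (Ξ ξ) • φ' ∈ Tube N₂ φ' := by
        constructor
        · intro h
          refine ⟨ehits, ?_, ?_⟩
          · rw [etm]
            exact h.2.1
          · rw [etm]
            exact h.2.2
        · intro h
          refine ⟨hh, ?_, ?_⟩
          · rw [← etm]
            exact h.2.1
          · rw [← etm]
            exact h.2.2
      have eent : entryPt N₂ φ' (Ξ ξ + c (Ξ ξ) • φ') = entryPt N₂ φ' (Ξ ξ) :=
        entryPt_add N₂ hφ'0 hh' _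
      by_cases ht : ξ ∈ Tube N₁ φ
      · rw [indicator_of_mem ht]
        show _ = (Tube N₂ φ').indicator _ _
        rw [indicator_of_mem (eiff.mp ht), eent]
      · rw [indicator_of_notMem ht]
        show _ = (Tube N₂ φ').indicator _ _
        rw [indicator_of_notMem (fun h => ht (eiff.mpr h))]
    · have ht : ξ ∉ Tube N₁ φ := fun h => hh h.1
      have hh' : ¬ hits N₂ φ' (Ξ ξ) := fun h => hh ((hhits0 ξ).mp h)
      have ht' : Ξ ξ + c (Ξ ξ) • φ' ∉ Tube N₂ φ' := fun h =>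
        hh' ((hits_add N₂ φ' _ _).mp h.1)
      rw [indicator_of_notMem ht]
      show _ = (Tube N₂ φ').indicator _ _
      rw [indicator_of_notMem ht']
  have hmap := Measure.map_linearMap_addHaar_eq_smul_addHaar (volume : Measure E) hdet0
  have mW' : Measurable (fun ζ => W (ζ + c ζ • φ')) := mW.comp (by fun_prop)
  have hΞm : Measurable (fun ξ : E => Ξ ξ) := Ξ.continuous.measurable
  calc ∫⁻ ξ in Tube N₁ φ, g (entryPt N₂ φ' (Ξ ξ))
      = ∫⁻ ξ, (Tube N₁ φ).indicator (fun ξ => g (entryPt N₂ φ' (Ξ ξ))) ξ :=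
        (lintegral_indicator mT0 _).symm
    _ = ∫⁻ ξ, W (Ξ ξ + c (Ξ ξ) • φ') := lintegral_congr hpt
    _ = ∫⁻ ζ, W (ζ + c ζ • φ') ∂(Measure.map (fun ξ : E => Ξ ξ) volume) :=
        (lintegral_map mW' hΞm).symm
    _ = ENNReal.ofReal |D| * ∫⁻ ζ, W (ζ + c ζ • φ') := by
        have e : (fun ξ : E => Ξ ξ) = (((Ξ : E →L[ℝ] E) : E →ₗ[ℝ] E) : E → E) := rfl
        rw [e, hmap, lintegral_smul_measure, hinvdet]
        rfl
    _ = ENNReal.ofReal |D| * ∫⁻ ζ, W ζ := by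
        rw [shear_lintegral hφ'0 mc hc mW]
    _ = ENNReal.ofReal |D| * ∫⁻ ζ in Tube N₂ φ', g (entryPt N₂ φ' ζ) := by
        rw [lintegral_indicator mT]

/-- The change of variables at a fixed good point. -/
theorem fixed_a_cov (R : RadIso N N') {a : E} (ha : a ∈ Good R)
    {g : E → ℝ≥0∞} (hg : Measurable g) :
    ∫⁻ ξ in Tube N.dual (grad N a), g (entryPt N'.dual (grad N' (R.F a)) (Xi R a ξ)) =
      ENNReal.ofReal |(fderiv ℝ R.F a).det| *
        ∫⁻ ζ in Tube N'.dual (grad N' (R.F a)), g (entryPt N'.dual (grad N' (R.F a)) ζ) := by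
  obtain ⟨hinv1, hinv2⟩ := R.good_inverse ha
  have hgrad := Xi_grad R ha
  have hφ0 : grad N a ≠ 0 := by
    intro h0
    have := (N.grad_spec ha.1 ha.2.2.2.1).2.1
    rw [h0, NF.map_zero'] at this
    exact zero_ne_one this
  have hFa0 : R.F a ≠ 0 := by
    intro h0
    have h1 := R.norm_F a
    rw [h0, NF.map_zero'] at h1
    exact (N.pos a ha.1).ne h1
  have hφ'0 : grad N' (R.F a) ≠ 0 := by
    intro h0
    have := (N'.grad_spec hFa0 ha.2.2.2.2.1).2.1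
    rw [h0, NF.map_zero'] at this
    exact zero_ne_one this
  have h1 : ∀ ξ, ContinuousLinearMap.adjoint (fderiv ℝ R.F a) (Xi R a ξ) = ξ := by
    intro ξ
    refine ext_inner_left ℝ fun y => ?_
    rw [ContinuousLinearMap.adjoint_inner_right, Xi, ContinuousLinearMap.adjoint_inner_right]
    have := congrArg (fun T : E →L[ℝ] E => T y) hinv1
    simp only [ContinuousLinearMap.comp_apply, ContinuousLinearMap.id_apply] at this
    rw [this]
  have h2 : ∀ ζ, Xi R a (ContinuousLinearMap.adjoint (fderiv ℝ R.F a) ζ) = ζ := by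
    intro ζ
    refine ext_inner_left ℝ fun y => ?_
    rw [Xi, ContinuousLinearMap.adjoint_inner_right, ContinuousLinearMap.adjoint_inner_right]
    have := congrArg (fun T : E →L[ℝ] E => T y) hinv2
    simp only [ContinuousLinearMap.comp_apply, ContinuousLinearMap.id_apply] at this
    rw [this]
  have h3 : ContinuousLinearMap.adjoint (fderiv ℝ R.F a) (grad N' (R.F a)) = grad N a := by
    rw [← hgrad, h1]
  have hdetA : LinearMap.det ((Xi R a : E →L[ℝ] E) : E →ₗ[ℝ] E) *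
      LinearMap.det ((fderiv ℝ R.F a : E →L[ℝ] E) : E →ₗ[ℝ] E) = 1 := by
    have e1 : LinearMap.det ((Xi R a : E →L[ℝ] E) : E →ₗ[ℝ] E) =
        LinearMap.det ((fderiv ℝ R.G (R.F a) : E →L[ℝ] E) : E →ₗ[ℝ] E) := det_adjoint' _
    rw [e1, ← LinearMap.det_comp]
    have e2 : ((fderiv ℝ R.G (R.F a) : E →L[ℝ] E) : E →ₗ[ℝ] E) ∘ₗ
        ((fderiv ℝ R.F a : E →L[ℝ] E) : E →ₗ[ℝ] E) = LinearMap.id := by
      ext x
      exact congrArg (fun T : E →L[ℝ] E => T x) hinv1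
    rw [e2, LinearMap.det_id]
  have hdet0 : LinearMap.det ((Xi R a : E →L[ℝ] E) : E →ₗ[ℝ] E) ≠ 0 := by
    intro h0
    rw [h0, zero_mul] at hdetA
    exact zero_ne_one hdetA
  have hinvdet : (LinearMap.det ((Xi R a : E →L[ℝ] E) : E →ₗ[ℝ] E))⁻¹ = (fderiv ℝ R.F a).det :=
    inv_eq_of_mul_eq_one_right hdetA
  exact cov_core N.dual N'.dual (Xi R a) (ContinuousLinearMap.adjoint (fderiv ℝ R.F a)) h1 h2 h3 hφ0 hφ'0
    (fun ξ => hits_Xi R ha) hdet0 hinvdet hg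

end Vale.Agent.Lib.P084T
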