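import Vale.Agent.Lib.P084T.F1
import Vale.Agent.Lib.P084T.E3
import Vale.Agent.Lib.P084T.D2

set_option linter.unusedSectionVars false

/-! # P084T part F2. See `notes/P084_blueprint.md`, section F2. -/

open MeasureTheory Set Filter Topology
open scoped RealInnerProductSpace ENNReal NNReal

namespace Vale.Agent.Lib.P084T

variable {E : Type*} [NormedAddCommGroup E] [InnerProductSpace ℝ E] [FiniteDimensional ℝ E]
  [CompleteSpace E] [MeasurableSpace E] [BorelSpace E]
variable {N N' : NF E}

private theorem measurable_uhat (N : NF E) : Measurable (uhat N) := N.dual.measurable_grad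

private theorem measurableSet_ball (N : NF E) : MeasurableSet N.ball :=
  (isOpen_lt N.continuous continuous_const).measurableSet

/-- The inner integral of the master formula. -/
private noncomputable def innerI (N : NF E) (G : E × E → ℝ≥0∞) (z : E) : ℝ≥0∞ :=
  ∫⁻ ξ in Tube N.dual (grad N z), G (rad N z, entryPt N.dual (grad N z) ξ) *
    ENNReal.ofReal (len N (uhat N (entryPt N.dual (grad N z) ξ)) (rad N z))

private theorem measurableSet_tube_section (N : NF E) (v : E) : MeasurableSet (Tube N v) :=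
  (measurableSet_tube N).preimage (measurable_const.prodMk measurable_id)

private theorem measurable_innerI (N : NF E) {G : E × E → ℝ≥0∞} (hG : Measurable G) :
    Measurable (innerI N G) := by
  have hgr : Measurable (fun p : E × E => grad N p.1) := N.measurable_grad.comp measurable_fst
  have hs : MeasurableSet {p : E × E | p.2 ∈ Tube N.dual (grad N p.1)} :=
    (measurableSet_tube N.dual).preimage (hgr.prodMk measurable_snd)
  have hent : Measurable (fun p : E × E => entryPt N.dual (grad N p.1) p.2) :=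
    (measurable_entryPt N.dual).comp (hgr.prodMk measurable_snd)
  have hrad : Measurable (fun p : E × E => rad N p.1) := N.measurable_rad.comp measurable_fst
  have hlen : Measurable (fun p : E × E => len N (uhat N (entryPt N.dual (grad N p.1) p.2)) (rad N p.1)) :=
    (measurable_len N).comp (((measurable_uhat N).comp hent).prodMk hrad)
  have hf : Measurable (fun p : E × E => G (rad N p.1, entryPt N.dual (grad N p.1) p.2) *
      ENNReal.ofReal (len N (uhat N (entryPt N.dual (grad N p.1) p.2)) (rad N p.1))) :=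
    (hG.comp (hrad.prodMk hent)).mul (ENNReal.measurable_ofReal.comp hlen)
  have heq : innerI N G = fun z => ∫⁻ ξ, ({p : E × E | p.2 ∈ Tube N.dual (grad N p.1)}).indicator
      (fun p : E × E => G (rad N p.1, entryPt N.dual (grad N p.1) p.2) *
      ENNReal.ofReal (len N (uhat N (entryPt N.dual (grad N p.1) p.2)) (rad N p.1))) (z, ξ) := by
    funext z
    unfold innerI
    rw [← lintegral_indicator (measurableSet_tube_section N.dual (grad N z))]
    rfl
  rw [heq]
  exact (hf.indicator hs).lintegral_prod_right'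

/-- The key identity at a good point. -/
private theorem key_good (R : RadIso N N') (hSC : StrictC N) {G : E × E → ℝ≥0∞} (hG : Measurable G)
    {z : E} (hz : z ∈ Good R) :
    ENNReal.ofReal |(fderiv ℝ R.F z).det| * innerI N' G (R.F z) =
      innerI N (fun p => G (R.F p.1, Tmap R p.1 p.2)) z := by
  have hz0 : z ≠ 0 := hz.1
  have hr : 0 < N z := N.pos z hz0
  obtain ⟨a, ha_def⟩ : ∃ a, a = rad N z := ⟨_, rfl⟩
  have ha : a ∈ Good R := by rw [ha_def]; exact R.good_smul hz (inv_pos.mpr hr)
  have ha1 : N a = 1 := by rw [ha_def]; exact N.norm_rad hz0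
  have hza : z = N z • a := by
    rw [ha_def, rad, smul_smul, mul_inv_cancel₀ hr.ne', one_smul]
  have hFz : R.F z = N z • R.F a := by
    conv_lhs => rw [hza]
    exact R.smul_F _ _ hr
  have h_rad : rad N' (R.F z) = R.F a := by
    unfold rad
    rw [R.norm_F, ← R.smul_F _ _ (inv_pos.mpr hr), ha_def, rad]
  have h_grad' : grad N' (R.F z) = grad N' (R.F a) := by
    rw [hFz]; exact N'.grad_smul hr _
  have h_grad : grad N z = grad N a := by
    conv_lhs => rw [hza]
    exact N.grad_smul hr _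
  have h_det : fderiv ℝ R.F z = fderiv ℝ R.F a := by
    conv_lhs => rw [hza]
    exact R.fderiv_smul hr _
  unfold innerI
  rw [h_det, h_rad, h_grad', h_grad, ← ha_def]
  have hg : Measurable (fun ζ₀ : E => G (R.F a, ζ₀) * ENNReal.ofReal (len N' (uhat N' ζ₀) (R.F a))) := by
    refine (hG.comp (measurable_const.prodMk measurable_id)).mul
      (ENNReal.measurable_ofReal.comp ((measurable_len N').comp
        ((measurable_uhat N').prodMk measurable_const)))
  have hcov := fixed_a_cov R ha hg
  rw [← hcov]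
  refine setLIntegral_congr_fun (measurableSet_tube_section N.dual (grad N a)) ?_
  intro ξ hξ
  have hhits : hits N.dual (grad N a) ξ := hξ.1
  have hφ := N.grad_spec ha.1 ha.2.2.2.1
  have hφ0 : grad N a ≠ 0 := by
    intro h0
    have h1 := hφ.2.1
    rw [h0, N.dual.map_zero'] at h1
    exact zero_ne_one h1
  have hξ₀ : N.dual (entryPt N.dual (grad N a) ξ) = 1 := norm_entryPt N.dual hφ0 hhits
  have hξ₀0 : entryPt N.dual (grad N a) ξ ≠ 0 := by
    intro h0
    rw [h0, N.dual.map_zero'] at hξ₀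
    exact zero_ne_one hξ₀
  have hd : DifferentiableAt ℝ (N.dual : E → ℝ) (entryPt N.dual (grad N a) ξ) :=
    (hSC.uhat_spec hξ₀0).1.differentiableAt
  have hneg : ⟪grad N a, uhat N (entryPt N.dual (grad N a) ξ)⟫ < 0 := by
    have := (hasFDerivAt_tm N.dual hφ0 hhits hd).1
    rw [real_inner_comm]
    exact this
  have hT := Tmap_entry R ha hhits
  obtain ⟨h1, h2, -, -, h5⟩ := chord_corr R hSC ha ha1 hξ₀ hneg
  have hN'Fa : N' (R.F a) = 1 := by rw [R.norm_F, ha1]
  have htm' := (entry_of_grad_neg N' hN'Fa ha.2.2.2.2.1 h2).2.1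
  have htm := (entry_of_grad_neg N ha1 ha.2.2.2.1 hneg).2.1
  have hlen : len N' (uhat N' (Tmap R a (entryPt N.dual (grad N a) ξ))) (R.F a) =
      len N (uhat N (entryPt N.dual (grad N a) ξ)) a := by
    unfold len
    rw [htm, htm', h5]
  show G (R.F a, entryPt N'.dual (grad N' (R.F a)) (Xi R a ξ)) *
      ENNReal.ofReal (len N' (uhat N' (entryPt N'.dual (grad N' (R.F a)) (Xi R a ξ))) (R.F a)) =
    G (R.F a, Tmap R a (entryPt N.dual (grad N a) ξ)) *
      ENNReal.ofReal (len N (uhat N (entryPt N.dual (grad N a) ξ)) a)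
  rw [← hT, hlen]

private theorem cmi_nontrivial [Nontrivial E] (R : RadIso N N') (hSC : StrictC N)
    {G : E × E → ℝ≥0∞} (hG : Measurable G) :
    ∫⁻ ζ in N'.dual.ball, ∫⁻ z in N'.ball, G (entryPt N' (uhat N' ζ) z, rad N'.dual ζ) =
      ∫⁻ ξ in N.dual.ball, ∫⁻ z in N.ball,
        G (R.F (entryPt N (uhat N ξ) z), Tmap R (entryPt N (uhat N ξ) z) (rad N.dual ξ)) := by
  have hG₁ : Measurable (fun p : E × E => G (R.F p.1, Tmap R p.1 p.2)) :=
    hG.comp ((R.continuous_F.measurable.comp measurable_fst).prodMk R.measurable_Tmap)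
  have hL := master_formula N' (R.strictC hSC) hG
  have hM := master_formula N hSC hG₁
  have hO := R.outer_cov (measurable_innerI N' hG)
  have hcongr : ∫⁻ z in N.ball, ENNReal.ofReal |(fderiv ℝ R.F z).det| * innerI N' G (R.F z) =
      ∫⁻ z in N.ball, innerI N (fun p => G (R.F p.1, Tmap R p.1 p.2)) z := by
    refine lintegral_congr_ae ?_
    filter_upwards [ae_restrict_of_ae R.ae_good] with z hz
    exact key_good R hSC hG hz
  calc _ = (Module.finrank ℝ E : ℝ≥0∞) * ∫⁻ z' in N'.ball, innerI N' G z' := hL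
    _ = (Module.finrank ℝ E : ℝ≥0∞) * ∫⁻ z in N.ball, innerI N (fun p => G (R.F p.1, Tmap R p.1 p.2)) z := by
        rw [hO, hcongr]
    _ = _ := hM.symm

private theorem ball_univ_of_subsingleton [Subsingleton E] (M : NF E) : M.ball = univ := by
  ext x
  simp only [NF.ball, mem_ofPred_eq, mem_univ, iff_true]
  rw [Subsingleton.elim x 0, M.map_zero']
  exact zero_lt_one

/-- Invariance of the chord measure with functional. -/
theorem cmi (R : RadIso N N') (hSC : StrictC N) {G : E × E → ℝ≥0∞} (hG : Measurable G) :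
    ∫⁻ ζ in N'.dual.ball, ∫⁻ z in N'.ball, G (entryPt N' (uhat N' ζ) z, rad N'.dual ζ) =
      ∫⁻ ξ in N.dual.ball, ∫⁻ z in N.ball,
        G (R.F (entryPt N (uhat N ξ) z), Tmap R (entryPt N (uhat N ξ) z) (rad N.dual ξ)) := by
  rcases subsingleton_or_nontrivial E with hE | hE
  · simp only [ball_univ_of_subsingleton]
    have : ∀ p q : E × E, G p = G q := fun p q => by rw [Subsingleton.elim p q]
    simp only [this _ ((0 : E), (0 : E))]
  · exact cmi_nontrivial R hSC hG

/-- Invariance of the chord measure, chord level form. -/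
theorem cmi_chord (R : RadIso N N') (hSC : StrictC N) {H : E × E → ℝ≥0∞} (hH : Measurable H) :
    ∫⁻ ζ in N'.dual.ball, ∫⁻ z in N'.ball, H (entryPt N' (uhat N' ζ) z, exitPt N' (uhat N' ζ) z) =
      ∫⁻ ξ in N.dual.ball, ∫⁻ z in N.ball,
        H (R.F (entryPt N (uhat N ξ) z), R.F (exitPt N (uhat N ξ) z)) := by
  rcases subsingleton_or_nontrivial E with hE | hE
  · simp only [ball_univ_of_subsingleton]
    have : ∀ p q : E × E, H p = H q := fun p q => by rw [Subsingleton.elim p q]
    simp only [this _ ((0 : E), (0 : E))]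
  have hSC' := R.strictC hSC
  have hG : Measurable (fun p : E × E => H (p.1, exitPt N' (uhat N' p.2) p.1)) :=
    hH.comp (measurable_fst.prodMk ((measurable_exitPt N').comp
      (((measurable_uhat N').comp measurable_snd).prodMk measurable_fst)))
  have hc := cmi R hSC hG
  have hne : ∀ᵐ ξ ∂(volume : Measure E), ξ ≠ 0 := by
    simp [ae_iff, measure_singleton]
  have hgood0 : volume ((Good R)ᶜ : Set E) = 0 := by
    have := R.ae_good
    rwa [ae_iff] at this
  have hcone : ∀ x ∈ ((Good R)ᶜ : Set E), ∀ c : ℝ, 0 < c → c • x ∈ ((Good R)ᶜ : Set E) := by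
    intro x hx c hc hcx
    apply hx
    have := R.good_smul hcx (inv_pos.mpr hc)
    rwa [smul_smul, inv_mul_cancel₀ hc.ne', one_smul] at this
  -- left side
  have hleft : ∫⁻ ζ in N'.dual.ball, ∫⁻ z in N'.ball, H (entryPt N' (uhat N' ζ) z, exitPt N' (uhat N' ζ) z) =
      ∫⁻ ζ in N'.dual.ball, ∫⁻ z in N'.ball,
        H (entryPt N' (uhat N' ζ) z, exitPt N' (uhat N' (rad N'.dual ζ)) (entryPt N' (uhat N' ζ) z)) := by
    refine lintegral_congr_ae ?_
    filter_upwards [ae_restrict_of_ae hne] with ζ hζ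
    refine setLIntegral_congr_fun (measurableSet_ball N') ?_
    intro z hz
    have hv : uhat N' ζ ≠ 0 := by
      intro h0
      have := (hSC'.uhat_spec hζ).2.1
      rw [h0, N'.map_zero'] at this
      exact zero_ne_one this
    show H _ = H _
    rw [uhat_rad N' hζ, (tm_entryPt N' hv (hits_of_mem_ball N' hz)).2.2.1]
  -- right side
  have hright : ∫⁻ ξ in N.dual.ball, ∫⁻ z in N.ball,
        H (R.F (entryPt N (uhat N ξ) z), exitPt N' (uhat N' (Tmap R (entryPt N (uhat N ξ) z) (rad N.dual ξ)))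
          (R.F (entryPt N (uhat N ξ) z))) =
      ∫⁻ ξ in N.dual.ball, ∫⁻ z in N.ball,
        H (R.F (entryPt N (uhat N ξ) z), R.F (exitPt N (uhat N ξ) z)) := by
    refine lintegral_congr_ae ?_
    filter_upwards [ae_restrict_of_ae hne] with ξ hξ
    have hv : uhat N ξ ≠ 0 := by
      intro h0
      have := (hSC.uhat_spec hξ).2.1
      rw [h0, N.map_zero'] at this
      exact zero_ne_one this
    refine lintegral_congr_ae ?_
    have hae := ae_restrict_of_ae (s := N.ball) (ae_entry_exit_not_mem N hv hgood0 hcone)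
    have hmem : ∀ᵐ z ∂(volume.restrict N.ball : Measure E), z ∈ N.ball :=
      ae_restrict_mem (measurableSet_ball N)
    filter_upwards [hae, hmem] with z hz hzb
    have hgood : entryPt N (uhat N ξ) z ∈ Good R := by
      have := (hz hzb).1
      simpa using this
    have hhit := hits_of_mem_ball (v := uhat N ξ) N hzb
    have hnorm : N (entryPt N (uhat N ξ) z) = 1 := norm_entryPt N hv hhit
    have hneg : ⟪grad N (entryPt N (uhat N ξ) z), uhat N ξ⟫ < 0 :=
      (hasFDerivAt_tm N hv hhit hgood.2.2.2.1).1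
    have hrad1 : N.dual (rad N.dual ξ) = 1 := N.dual.norm_rad hξ
    have hu : uhat N (rad N.dual ξ) = uhat N ξ := uhat_rad N hξ
    have hcorr := chord_corr R hSC hgood hnorm hrad1 (by rw [hu]; exact hneg)
    have hexit := hcorr.2.2.2.1
    rw [hu, (tm_entryPt N hv hhit).2.2.1] at hexit
    rw [← hexit]
  rw [hleft, ← hright]
  exact hc

private theorem measurable_badIndicator (N' : NF E) :
    Measurable (({ζ : E | AlexAt N' ζ}ᶜ : Set E).indicator (fun _ => (1 : ℝ≥0∞))) :=
  measurable_const.indicator (measurableSet_AlexAt N').compl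

private theorem hzero_left [Nontrivial E] (hSC' : StrictC N') :
    ∫⁻ ζ in N'.dual.ball, ∫⁻ _z in N'.ball,
      ({ζ : E | AlexAt N' ζ}ᶜ : Set E).indicator (fun _ => (1 : ℝ≥0∞)) (rad N'.dual ζ) = 0 := by
  have hne : ∀ᵐ ξ ∂(volume : Measure E), ξ ≠ 0 := by
    simp [ae_iff, measure_singleton]
  have hAe : ∀ᵐ ζ ∂(volume : Measure E), AlexAt N' ζ := ae_AlexAt hSC'
  have : ∀ᵐ ζ ∂(volume.restrict N'.dual.ball : Measure E), ∫⁻ _z in N'.ball,
      ({ζ : E | AlexAt N' ζ}ᶜ : Set E).indicator (fun _ => (1 : ℝ≥0∞)) (rad N'.dual ζ) = 0 := by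
    filter_upwards [ae_restrict_of_ae hAe, ae_restrict_of_ae hne] with ζ hζ hζ0
    have h1 : AlexAt N' (rad N'.dual ζ) :=
      (AlexAt_smul N' (inv_pos.mpr (N'.dual.pos ζ hζ0))).mpr hζ
    have h2 : ({ζ : E | AlexAt N' ζ}ᶜ : Set E).indicator (fun _ => (1 : ℝ≥0∞)) (rad N'.dual ζ) = 0 :=
      indicator_of_notMem (by simpa using h1) _
    simp [h2]
  rw [lintegral_congr_ae this]
  simp

private theorem hjoint_meas (R : RadIso N N') :
    Measurable (fun p : E × E => ({ζ : E | AlexAt N' ζ}ᶜ : Set E).indicator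
      (fun _ => (1 : ℝ≥0∞)) (Tmap R (entryPt N (uhat N p.1) p.2) (rad N.dual p.1))) := by
  have hent : Measurable (fun p : E × E => entryPt N (uhat N p.1) p.2) :=
    (measurable_entryPt N).comp (((measurable_uhat N).comp measurable_fst).prodMk measurable_snd)
  have hT : Measurable (fun p : E × E => Tmap R (entryPt N (uhat N p.1) p.2) (rad N.dual p.1)) :=
    Measurable.comp (g := fun p : E × E => Tmap R p.1 p.2)
      (f := fun p : E × E => (entryPt N (uhat N p.1) p.2, rad N.dual p.1))
      R.measurable_Tmap (hent.prodMk (N.dual.measurable_rad.comp measurable_fst))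
  exact (measurable_badIndicator N').comp hT

private theorem ae_of_iter_zero {f : E → E → ℝ≥0∞} (hf : Measurable (fun p : E × E => f p.1 p.2))
    {s t : Set E} (hs : MeasurableSet s) (ht : MeasurableSet t)
    (h : ∫⁻ x in s, ∫⁻ y in t, f x y = 0) :
    ∀ᵐ x ∂(volume : Measure E), x ∈ s → ∀ᵐ y ∂(volume : Measure E), y ∈ t → f x y = 0 := by
  have hmeas : Measurable (fun x : E => ∫⁻ y in t, f x y) :=
    hf.lintegral_prod_right' (ν := (volume : Measure E).restrict t)
  have hae1 : ∀ᵐ x ∂(volume.restrict s : Measure E), ∫⁻ y in t, f x y = 0 :=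
    (lintegral_eq_zero_iff hmeas).mp h
  have hae2 := (ae_restrict_iff' hs).mp hae1
  filter_upwards [hae2] with x hx hxs
  have hm : Measurable (f x) := hf.comp (measurable_const.prodMk measurable_id)
  have h1 : ∀ᵐ y ∂(volume.restrict t : Measure E), f x y = 0 :=
    (lintegral_eq_zero_iff hm).mp (hx hxs)
  exact (ae_restrict_iff' ht).mp h1

private theorem hae_right [Nontrivial E] (R : RadIso N N') (hSC : StrictC N) :
    ∀ᵐ ξ ∂(volume : Measure E), ξ ∈ N.dual.ball → ∀ᵐ z ∂(volume : Measure E), z ∈ N.ball →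
      AlexAt N' (Tmap R (entryPt N (uhat N ξ) z) (rad N.dual ξ)) := by
  have hSC' := R.strictC hSC
  have hG : Measurable (fun p : E × E => ({ζ : E | AlexAt N' ζ}ᶜ : Set E).indicator
      (fun _ => (1 : ℝ≥0∞)) p.2) := (measurable_badIndicator N').comp measurable_snd
  have hc := cmi R hSC hG
  have hzero := hzero_left hSC'
  have hc' : ∫⁻ ξ in N.dual.ball, ∫⁻ z in N.ball,
      ({ζ : E | AlexAt N' ζ}ᶜ : Set E).indicator (fun _ => (1 : ℝ≥0∞))
        (Tmap R (entryPt N (uhat N ξ) z) (rad N.dual ξ)) = 0 := by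
    exact hc.symm.trans hzero
  have hmain := ae_of_iter_zero (f := fun ξ z => ({ζ : E | AlexAt N' ζ}ᶜ : Set E).indicator
      (fun _ => (1 : ℝ≥0∞)) (Tmap R (entryPt N (uhat N ξ) z) (rad N.dual ξ)))
    (hjoint_meas R) (measurableSet_ball N.dual) (measurableSet_ball N) hc'
  filter_upwards [hmain] with ξ hξi hξb
  filter_upwards [hξi hξb] with z h2 hz
  have h5 := h2 hz
  by_contra hcon
  have h6 : Tmap R (entryPt N (uhat N ξ) z) (rad N.dual ξ) ∈ ({ζ : E | AlexAt N' ζ}ᶜ : Set E) := hcon
  have h7 : ({ζ : E | AlexAt N' ζ}ᶜ : Set E).indicator (fun _ => (1 : ℝ≥0∞))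
      (Tmap R (entryPt N (uhat N ξ) z) (rad N.dual ξ)) = 1 := indicator_of_mem h6 _
  rw [h7] at h5
  exact one_ne_zero h5

/-- Typical chords. -/
theorem typical [Nontrivial E] (R : RadIso N N') (hSC : StrictC N) :
    ∀ᵐ ξ ∂(volume : Measure E), ξ ∈ N.dual.ball → ξ ≠ 0 ∧ AlexAt N (rad N.dual ξ) ∧
      ∀ᵐ z ∂(volume : Measure E), z ∈ N.ball →
        entryPt N (uhat N ξ) z ∈ Good R ∧ exitPt N (uhat N ξ) z ∈ Good R ∧
          AlexAt N' (Tmap R (entryPt N (uhat N ξ) z) (rad N.dual ξ)) := by
  have hne : ∀ᵐ ξ ∂(volume : Measure E), ξ ≠ 0 := by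
    simp [ae_iff, measure_singleton]
  have hgood0 : volume ((Good R)ᶜ : Set E) = 0 := by
    have := R.ae_good
    rwa [ae_iff] at this
  have hcone : ∀ x ∈ ((Good R)ᶜ : Set E), ∀ c : ℝ, 0 < c → c • x ∈ ((Good R)ᶜ : Set E) := by
    intro x hx c hc hcx
    apply hx
    have := R.good_smul hcx (inv_pos.mpr hc)
    rwa [smul_smul, inv_mul_cancel₀ hc.ne', one_smul] at this
  have hAlex : ∀ᵐ ξ ∂(volume : Measure E), AlexAt N ξ := ae_AlexAt hSC
  filter_upwards [hne, hae_right R hSC, hAlex] with ξ hξ0 hξi hξA hξb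
  refine ⟨hξ0, (AlexAt_smul N (inv_pos.mpr (N.dual.pos ξ hξ0))).mpr hξA, ?_⟩
  have hv : uhat N ξ ≠ 0 := by
    intro h0
    have := (hSC.uhat_spec hξ0).2.1
    rw [h0, N.map_zero'] at this
    exact zero_ne_one this
  filter_upwards [ae_entry_exit_not_mem N hv hgood0 hcone, hξi hξb] with z h1 h2 hz
  obtain ⟨h3, h4⟩ := h1 hz
  exact ⟨by simpa using h3, by simpa using h4, h2 hz⟩

end Vale.Agent.Lib.P084T
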