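import Vale.Agent.Lib.P084T.I3
import Vale.Agent.Lib.P084T.F2
import Vale.Agent.Lib.P084T.J1

set_option linter.unusedSectionVars false

/-! # P084T part J2. See `notes/P084_blueprint.md`, section J2. -/

open MeasureTheory Set Filter Topology
open scoped RealInnerProductSpace ENNReal NNReal

namespace Vale.Agent.Lib.P084T

variable {E : Type*} [NormedAddCommGroup E] [InnerProductSpace ℝ E] [FiniteDimensional ℝ E]
  [CompleteSpace E] [MeasurableSpace E] [BorelSpace E]
variable {N N' : NF E}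

lemma j2_ball_isOpen (N : NF E) : IsOpen N.ball :=
  isOpen_lt N.continuous continuous_const

lemma j2_ball_meas (N : NF E) : MeasurableSet N.ball := (j2_ball_isOpen N).measurableSet

lemma j2_vol_pos (N : NF E) : volume N.ball ≠ 0 := by
  have h0 : (0 : E) ∈ N.ball := by
    show N 0 < 1
    rw [N.map_zero']
    exact one_pos
  exact ((j2_ball_isOpen N).measure_pos volume ⟨0, h0⟩).ne'

lemma j2_vol_top (N : NF E) : volume N.ball ≠ ⊤ := by
  obtain ⟨C, hC, h⟩ := N.exists_bounds
  have hb : Bornology.IsBounded N.ball := by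
    refine (Metric.isBounded_iff_subset_closedBall 0).mpr ⟨C, fun x hx => ?_⟩
    rw [mem_closedBall_zero_iff]
    have h1 : N x < 1 := hx
    have h2 := (h x).2
    nlinarith
  exact hb.measure_lt_top.ne

lemma j2_meas_uhat (N : NF E) : Measurable (uhat N) := N.dual.measurable_grad

/-- The end points of the chord through `q.2` attached to `q.1`. -/
noncomputable def j2ends (N : NF E) (q : E × E) : E × E :=
  (entryPt N (uhat N q.1) q.2, exitPt N (uhat N q.1) q.2)

lemma j2_meas_ends (N : NF E) : Measurable (j2ends N) := by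
  have h1 : Measurable (fun q : E × E => (uhat N q.1, q.2)) :=
    ((j2_meas_uhat N).comp measurable_fst).prodMk measurable_snd
  exact ((measurable_entryPt N).comp h1).prodMk ((measurable_exitPt N).comp h1)

/-- The integrand of the leaf inequality. -/
noncomputable def j2H (R : RadIso N N') (p : E × E) : ℝ≥0∞ := Gam (ell R p.1 p.2) (ell R p.2 p.1)

/-- The integrand of the reversed leaf inequality. -/
noncomputable def j2H' (R : RadIso N N') (p : E × E) : ℝ≥0∞ :=
  Gam (ell R p.1 p.2)⁻¹ (ell R p.2 p.1)⁻¹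

lemma j2_meas_H (R : RadIso N N') : Measurable (j2H R) :=
  measurable_Gam.comp (R.measurable_ell.prodMk (R.measurable_ell.comp measurable_swap))

lemma j2_meas_H' (R : RadIso N N') : Measurable (j2H' R) :=
  measurable_Gam.comp ((measurable_fst.inv.prodMk measurable_snd.inv).comp
    (R.measurable_ell.prodMk (R.measurable_ell.comp measurable_swap)))

/-- The leaf inequality integrated over the dual ball. -/
lemma j2_int_le [Nontrivial E] (R : RadIso N N') (hSC : StrictC N) :
    ∫⁻ ξ in N.dual.ball, ∫⁻ z in N.ball, j2H R (j2ends N (ξ, z)) ≤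
      volume N'.ball * volume N.dual.ball := by
  have hae : ∀ᵐ ξ ∂((volume : Measure E).restrict N.dual.ball),
      ∫⁻ z in N.ball, j2H R (j2ends N (ξ, z)) ≤ volume N'.ball := by
    rw [ae_restrict_iff' (j2_ball_meas _)]
    filter_upwards [typical R hSC] with ξ hξ hξB
    obtain ⟨h0, hA, hz⟩ := hξ hξB
    have h1 := leaf_ineq R hSC (ξ := rad N.dual ξ) (N.dual.norm_rad h0) hA
    rw [uhat_rad N h0] at h1
    exact h1 hz
  calc _ ≤ ∫⁻ _ξ in N.dual.ball, volume N'.ball := lintegral_mono_ae hae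
    _ = _ := by rw [setLIntegral_const]

/-- Both ends of a typical chord have positive `ell`. -/
lemma j2_pos [Nontrivial E] (R : RadIso N N') (hSC : StrictC N) :
    ∀ᵐ ξ ∂(volume : Measure E), ξ ∈ N.dual.ball →
      ∀ᵐ z ∂(volume : Measure E), z ∈ N.ball →
        (j2ends N (ξ, z)).1 ∈ Good R ∧ (j2ends N (ξ, z)).2 ∈ Good R ∧
          0 < ell R (j2ends N (ξ, z)).1 (j2ends N (ξ, z)).2 ∧
          0 < ell R (j2ends N (ξ, z)).2 (j2ends N (ξ, z)).1 := by
  filter_upwards [typical R hSC] with ξ hξ hξB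
  obtain ⟨h0, _, hz⟩ := hξ hξB
  filter_upwards [hz] with z hz2 hzB
  obtain ⟨ga, gb, _⟩ := hz2 hzB
  simp only [j2ends]
  rw [← uhat_rad N h0] at ga gb ⊢
  have c := chord_of_typical R hSC (N.dual.norm_rad h0) hzB ga gb
  exact ⟨ga, gb, (det_M0 R hSC c).2, (det_M1 R hSC c).2⟩

/-- The reversed inequality, pulled back by the chord invariance. -/
lemma j2_int_le' [Nontrivial E] (R : RadIso N N') (hSC : StrictC N) :
    ∫⁻ ξ in N.dual.ball, ∫⁻ z in N.ball, j2H' R (j2ends N (ξ, z)) ≤
      volume N.ball * volume N'.dual.ball := by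
  have h2' := j2_int_le R.swap (R.strictC hSC)
  have h2c := cmi_chord R hSC (j2_meas_H R.swap)
  have hpos := j2_pos R hSC
  have h3 : ∫⁻ ξ in N.dual.ball, ∫⁻ z in N.ball, j2H' R (j2ends N (ξ, z)) =
      ∫⁻ ξ in N.dual.ball, ∫⁻ z in N.ball,
        j2H R.swap (R.F (entryPt N (uhat N ξ) z), R.F (exitPt N (uhat N ξ) z)) := by
    refine lintegral_congr_ae ?_
    rw [Filter.EventuallyEq, ae_restrict_iff' (j2_ball_meas _)]
    filter_upwards [hpos] with ξ hξ hξB
    refine lintegral_congr_ae ?_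
    rw [Filter.EventuallyEq, ae_restrict_iff' (j2_ball_meas _)]
    filter_upwards [hξ hξB] with z hz hzB
    obtain ⟨ga, gb, _, _⟩ := hz hzB
    simp only [j2ends] at ga gb
    simp only [j2H', j2H, j2ends]
    rw [ell_swap R ga, ell_swap R gb]
  rw [h3, ← h2c]
  exact h2'

/-- Equality of the products of volumes. -/
lemma j2_vol_eq (R : RadIso N N') (hSC : StrictC N) :
    volume N'.ball * volume N'.dual.ball = volume N.ball * volume N.dual.ball := by
  have := cmi_chord R hSC (H := fun _ => 1) measurable_const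
  simp only [lintegral_const, Measure.restrict_apply, MeasurableSet.univ, Set.univ_inter,
    one_mul] at this
  exact this

/-- A nonnegative function at least `2` almost everywhere, with integral at most that of the constant
`2`, equals `2` almost everywhere: the iterated form. -/
lemma j2_closing {S₁ S₂ : Set E} (h₁ : MeasurableSet S₁) (h₂ : MeasurableSet S₂)
    (ht₁ : volume S₁ ≠ ⊤) (ht₂ : volume S₂ ≠ ⊤) {T : E × E → ℝ≥0∞} (mT : Measurable T)
    (hlow : ∀ᵐ ξ ∂(volume : Measure E), ξ ∈ S₁ → ∀ᵐ z ∂(volume : Measure E), z ∈ S₂ → 2 ≤ T (ξ, z))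
    (htotal : ∫⁻ ξ in S₁, ∫⁻ z in S₂, T (ξ, z) ≤ 2 * volume S₂ * volume S₁) :
    ∀ᵐ ξ ∂(volume : Measure E), ξ ∈ S₁ → ∀ᵐ z ∂(volume : Measure E), z ∈ S₂ → T (ξ, z) = 2 := by
  have hlow2 : ∀ᵐ ξ ∂((volume : Measure E).restrict S₁),
      (2 * volume S₂ : ℝ≥0∞) ≤ ∫⁻ z in S₂, T (ξ, z) := by
    rw [ae_restrict_iff' h₁]
    filter_upwards [hlow] with ξ hξ hξB
    have h5 : ∀ᵐ z ∂((volume : Measure E).restrict S₂), (2 : ℝ≥0∞) ≤ T (ξ, z) := by
      rw [ae_restrict_iff' h₂]
      exact hξ hξB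
    calc (2 * volume S₂ : ℝ≥0∞) = ∫⁻ _z in S₂, 2 := by rw [setLIntegral_const]
      _ ≤ _ := lintegral_mono_ae h5
  have mphi : Measurable (fun ξ => ∫⁻ z in S₂, T (ξ, z)) := mT.lintegral_prod_right'
  have heq : (fun _ : E => (2 * volume S₂ : ℝ≥0∞)) =ᵐ[(volume : Measure E).restrict S₁]
      (fun ξ => ∫⁻ z in S₂, T (ξ, z)) := by
    refine ae_eq_of_ae_le_of_lintegral_le hlow2 ?_ mphi.aemeasurable ?_
    · rw [setLIntegral_const]
      exact ENNReal.mul_ne_top (ENNReal.mul_ne_top (by simp) ht₂) ht₁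
    · rw [setLIntegral_const]
      exact htotal
  have heq2 := (ae_restrict_iff' h₁).mp heq
  filter_upwards [hlow, heq2] with ξ hξ hξ2 hξB
  have h5 : ∀ᵐ z ∂((volume : Measure E).restrict S₂), (2 : ℝ≥0∞) ≤ T (ξ, z) := by
    rw [ae_restrict_iff' h₂]
    exact hξ hξB
  have h6 : (fun _ : E => (2 : ℝ≥0∞)) =ᵐ[(volume : Measure E).restrict S₂]
      (fun z => T (ξ, z)) := by
    refine ae_eq_of_ae_le_of_lintegral_le h5 ?_
      (mT.comp measurable_prodMk_left).aemeasurable ?_
    · rw [setLIntegral_const]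
      exact ENNReal.mul_ne_top (by simp) ht₂
    · rw [setLIntegral_const]
      exact (hξ2 hξB).symm.le
  have h7 := (ae_restrict_iff' h₂).mp h6
  filter_upwards [h7] with z hz2 hzB
  exact (hz2 hzB).symm

/-- The combined integrand. -/
noncomputable def j2T (R : RadIso N N') (c : ℝ≥0∞) (q : E × E) : ℝ≥0∞ :=
  j2H R (j2ends N q) * c⁻¹ + c * j2H' R (j2ends N q)

lemma j2_meas_T (R : RadIso N N') (c : ℝ≥0∞) : Measurable (j2T R c) :=
  (((j2_meas_H R).comp (j2_meas_ends N)).mul_const _).add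
    (((j2_meas_H' R).comp (j2_meas_ends N)).const_mul _)

lemma j2_total [Nontrivial E] (R : RadIso N N') (hSC : StrictC N) {c : ℝ≥0∞} (hc0 : c ≠ 0) (hct : c ≠ ⊤)
    (hcV : c * volume N.ball = volume N'.ball) :
    ∫⁻ ξ in N.dual.ball, ∫⁻ z in N.ball, j2T R c (ξ, z) ≤
      2 * volume N.ball * volume N.dual.ball := by
  have mA : Measurable (fun q : E × E => j2H R (j2ends N q)) := (j2_meas_H R).comp (j2_meas_ends N)
  have mA' : Measurable (fun q : E × E => j2H' R (j2ends N q)) :=
    (j2_meas_H' R).comp (j2_meas_ends N)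
  have e1 : ∀ ξ, ∫⁻ z in N.ball, j2T R c (ξ, z) =
      (∫⁻ z in N.ball, j2H R (j2ends N (ξ, z))) * c⁻¹ +
        c * ∫⁻ z in N.ball, j2H' R (j2ends N (ξ, z)) := by
    intro ξ
    have m1 : Measurable (fun z => j2H R (j2ends N (ξ, z))) := mA.comp measurable_prodMk_left
    have m2 : Measurable (fun z => j2H' R (j2ends N (ξ, z))) := mA'.comp measurable_prodMk_left
    simp only [j2T]
    rw [lintegral_add_left (m1.mul_const _), lintegral_mul_const _ m1, lintegral_const_mul _ m2]
  have m1 : Measurable (fun ξ => ∫⁻ z in N.ball, j2H R (j2ends N (ξ, z))) :=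
    mA.lintegral_prod_right'
  have m2 : Measurable (fun ξ => ∫⁻ z in N.ball, j2H' R (j2ends N (ξ, z))) :=
    mA'.lintegral_prod_right'
  simp_rw [e1]
  rw [lintegral_add_left (m1.mul_const _), lintegral_mul_const _ m1, lintegral_const_mul _ m2]
  have h1 := j2_int_le R hSC
  have h2 := j2_int_le' R hSC
  have h3 := j2_vol_eq R hSC
  generalize volume N.ball = V at *
  generalize volume N'.ball = V' at *
  generalize volume N.dual.ball = Vd at *
  generalize volume N'.dual.ball = Vd' at *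
  calc _ ≤ (V' * Vd) * c⁻¹ + c * (V * Vd') := by gcongr
    _ = V * Vd + V * Vd := by
      congr 1
      · rw [← hcV]
        calc c * V * Vd * c⁻¹ = (c * c⁻¹) * (V * Vd) := by ring
          _ = V * Vd := by rw [ENNReal.mul_inv_cancel hc0 hct, one_mul]
      · calc c * (V * Vd') = (c * V) * Vd' := by ring
          _ = V' * Vd' := by rw [hcV]
          _ = V * Vd := h3
    _ = 2 * V * Vd := by ring

/-- The chord integral bounds and the conclusion on typical chords. -/
theorem ae_ell_eq (R : RadIso N N') (hSC : StrictC N) :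
    ∃ r : ℝ, 0 < r ∧ ∀ᵐ ξ ∂(volume : Measure E), ξ ∈ N.dual.ball →
      ∀ᵐ z ∂(volume : Measure E), z ∈ N.ball →
        ell R (entryPt N (uhat N ξ) z) (exitPt N (uhat N ξ) z) = r ∧
        ell R (exitPt N (uhat N ξ) z) (entryPt N (uhat N ξ) z) = r := by
  rcases subsingleton_or_nontrivial E with hE | hE
  · refine ⟨1, one_pos, ae_of_all _ fun ξ _ => ae_of_all _ fun z _ => ?_⟩
    have key : ∀ a b : E, ell R a b = 1 := by
      intro a b
      have h1 : (fderiv ℝ R.F a).det = 1 := by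
        show LinearMap.det _ = 1
        exact LinearMap.det_eq_one_of_subsingleton _
      have h2 : ∀ x y : E, ⟪x, y⟫ = 0 := by
        intro x y
        rw [Subsingleton.elim x 0, inner_zero_left]
      unfold ell
      rw [h1, h2, h2]
      simp
    exact ⟨key _ _, key _ _⟩
  have hV0 := j2_vol_pos N
  have hVt := j2_vol_top N
  have hV'0 := j2_vol_pos N'
  have hV't := j2_vol_top N'
  set c : ℝ≥0∞ := volume N'.ball / volume N.ball with hc
  have hc0 : c ≠ 0 := ENNReal.div_ne_zero.mpr ⟨hV'0, hVt⟩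
  have hct : c ≠ ⊤ := ENNReal.div_ne_top hV't hV0
  have hcV : c * volume N.ball = volume N'.ball := ENNReal.div_mul_cancel hV0 hVt
  have hofr : ENNReal.ofReal c.toReal = c := ENNReal.ofReal_toReal hct
  have hrpos : 0 < c.toReal := ENNReal.toReal_pos hc0 hct
  refine ⟨c.toReal, hrpos, ?_⟩
  have hpos := j2_pos R hSC
  have hlow : ∀ᵐ ξ ∂(volume : Measure E), ξ ∈ N.dual.ball → ∀ᵐ z ∂(volume : Measure E), z ∈ N.ball →
      2 ≤ j2T R c (ξ, z) ∧ (j2T R c (ξ, z) = 2 →
        ell R (j2ends N (ξ, z)).1 (j2ends N (ξ, z)).2 = c.toReal ∧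
        ell R (j2ends N (ξ, z)).2 (j2ends N (ξ, z)).1 = c.toReal) := by
    filter_upwards [hpos] with ξ hξ hξB
    filter_upwards [hξ hξB] with z hz hzB
    obtain ⟨_, _, px, py⟩ := hz hzB
    have h4 := Gam_pointwise px py hrpos
    rw [hofr] at h4
    simpa [j2T, j2H, j2H', div_eq_mul_inv] using h4
  have hlow' : ∀ᵐ ξ ∂(volume : Measure E), ξ ∈ N.dual.ball →
      ∀ᵐ z ∂(volume : Measure E), z ∈ N.ball → 2 ≤ j2T R c (ξ, z) := by
    filter_upwards [hlow] with ξ hξ hξB
    filter_upwards [hξ hξB] with z hz hzB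
    exact (hz hzB).1
  have hcl := j2_closing (j2_ball_meas N.dual) (j2_ball_meas N) (j2_vol_top N.dual) hVt
    (j2_meas_T R c) hlow' (j2_total R hSC hc0 hct hcV)
  filter_upwards [hlow, hcl] with ξ hξ hξ2 hξB
  filter_upwards [hξ hξB, hξ2 hξB] with z hz hz2 hzB
  exact (hz hzB).2 (hz2 hzB)

end Vale.Agent.Lib.P084T
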