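import Vale.Agent.Lib.P084T.D1

set_option linter.unusedSectionVars false

/-! # P084T part E1. See `notes/P084_blueprint.md`, section E1. -/

open MeasureTheory Set Filter Topology
open scoped RealInnerProductSpace ENNReal NNReal

namespace Vale.Agent.Lib.P084T

variable {E : Type*} [NormedAddCommGroup E] [InnerProductSpace ℝ E] [FiniteDimensional ℝ E]
  [CompleteSpace E] [MeasurableSpace E] [BorelSpace E]
variable {N N' : NF E}

/-- Norm along a tangent direction: first order constancy. -/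
private theorem tendsto_norm_line (N : NF E) {a h : E} (ha0 : a ≠ 0)
    (hd : DifferentiableAt ℝ (N : E → ℝ) a) (hh : ⟪grad N a, h⟫ = 0) :
    Tendsto (fun ε : ℝ => ε⁻¹ * (N (a + ε • h) - N a)) (𝓝[>] 0) (𝓝 0) := by
  have hg := (N.grad_spec ha0 hd).1
  have hF : HasFDerivAt (N : E → ℝ) (InnerProductSpace.toDual ℝ E (grad N a)) a :=
    hg.hasFDerivAt
  have hL : HasDerivAt (fun t : ℝ => (N : E → ℝ) (a + t • h))
      ((InnerProductSpace.toDual ℝ E (grad N a)) h) 0 := by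
    exact hF.hasLineDerivAt h
  have h0 : (InnerProductSpace.toDual ℝ E (grad N a)) h = 0 := by
    simpa [InnerProductSpace.toDual_apply_apply] using hh
  rw [h0] at hL
  have := hL.tendsto_slope_zero_right
  simpa [smul_eq_mul] using this

/-- Convexity of the slope. -/
private theorem slope_mono (N' : NF E) (w y : E) {ε l : ℝ} (hε : 0 < ε) (hl : ε ≤ l) :
    ε⁻¹ * (N' (w + ε • y) - N' w) ≤ l⁻¹ * (N' (w + l • y) - N' w) := by
  have hl0 : 0 < l := lt_of_lt_of_le hε hl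
  have hdec : w + ε • y = (1 - ε / l) • w + (ε / l) • (w + l • y) := by
    have : (ε / l) * l = ε := by field_simp
    rw [smul_add, smul_smul, this]
    simp only [sub_smul, one_smul]
    abel
  have hc1 : 0 ≤ 1 - ε / l := by
    have : ε / l ≤ 1 := (div_le_one hl0).mpr hl
    linarith
  have hc2 : 0 ≤ ε / l := by positivity
  have hle : N' (w + ε • y) ≤ (1 - ε / l) * N' w + (ε / l) * N' (w + l • y) := by
    rw [hdec]
    refine (N'.add_le _ _).trans ?_
    rw [N'.smul_eq, N'.smul_eq, abs_of_nonneg hc1, abs_of_nonneg hc2]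
  have hle2 : N' (w + ε • y) - N' w ≤ (ε / l) * (N' (w + l • y) - N' w) := by
    have : (1 - ε / l) * N' w + (ε / l) * N' (w + l • y) - N' w
        = (ε / l) * (N' (w + l • y) - N' w) := by ring
    linarith
  have h3 := mul_le_mul_of_nonneg_left hle2 (inv_pos.mpr hε).le
  have h4 : ε⁻¹ * ((ε / l) * (N' (w + l • y) - N' w)) = l⁻¹ * (N' (w + l • y) - N' w) := by
    field_simp
  rw [h4] at h3
  exact h3

/-- The inequality (★) of the blueprint. -/
private theorem corr_star (R : RadIso N N') {a b η : E} (ha : a ∈ Good R) (ha1 : N a = 1)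
    (hb1 : N b = 1) (hη : N.dual η ≤ 1) (hηw : ⟪η, a - b⟫ = N (a - b)) (h : E)
    (hh : ⟪grad N a, h⟫ = 0) {l : ℝ} (hl : 0 < l) :
    N (a - b) + l * ⟪η, h⟫ ≤ N' (R.F a - R.F b + l • fderiv ℝ R.F a h) := by
  have ha' : a ∈ Good R := ha
  obtain ⟨ha0, -, -, hdN, -, -, -⟩ := ha
  set y := fderiv ℝ R.F a h with hy
  set w' := R.F a - R.F b with hw'
  have hLw : N' w' = N (a - b) := R.iso a b ha1 hb1
  -- the error term
  have hexp : Tendsto (fun ε : ℝ => ε⁻¹ • (R.F (rad N (a + ε • h)) - R.F a - ε • y))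
      (𝓝[>] 0) (𝓝 0) := R.good_expansion ha' ha1 hh
  have hN0 : Tendsto (fun ε : ℝ => N' (ε⁻¹ • (R.F (rad N (a + ε • h)) - R.F a - ε • y)))
      (𝓝[>] 0) (𝓝 0) := by
    have := (N'.continuous.tendsto (0 : E)).comp hexp
    rw [N'.map_zero'] at this
    exact this
  -- the scalar
  have hline := tendsto_norm_line N ha0 hdN hh
  have hN1 : Tendsto (fun ε : ℝ => N (a + ε • h)) (𝓝[>] 0) (𝓝 1) := by
    have hc : Tendsto (fun ε : ℝ => a + ε • h) (𝓝[>] 0) (𝓝 a) := by
      have : Continuous (fun ε : ℝ => a + ε • h) := by fun_prop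
      have h2 := this.tendsto 0
      simp only [zero_smul, add_zero] at h2
      exact h2.mono_left nhdsWithin_le_nhds
    have := (N.continuous.tendsto a).comp hc
    rwa [ha1] at this
  -- the lower bound function
  set lb : ℝ → ℝ := fun ε =>
    (-(ε⁻¹ * (N (a + ε • h) - N a)) / N (a + ε • h)) * ⟪η, a⟫ + (N (a + ε • h))⁻¹ * ⟪η, h⟫
      - N' (ε⁻¹ • (R.F (rad N (a + ε • h)) - R.F a - ε • y)) with hlb
  have hlbt : Tendsto lb (𝓝[>] 0) (𝓝 ⟪η, h⟫) := by
    have h1 : Tendsto (fun ε : ℝ => (-(ε⁻¹ * (N (a + ε • h) - N a)) / N (a + ε • h)) * ⟪η, a⟫)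
        (𝓝[>] 0) (𝓝 ((-0 / 1) * ⟪η, a⟫)) :=
      ((hline.neg).div hN1 one_ne_zero).mul_const _
    have h2 : Tendsto (fun ε : ℝ => (N (a + ε • h))⁻¹ * ⟪η, h⟫) (𝓝[>] 0) (𝓝 (1⁻¹ * ⟪η, h⟫)) :=
      (hN1.inv₀ one_ne_zero).mul_const _
    have h3 := (h1.add h2).sub hN0
    simpa [hlb] using h3
  -- the eventual inequality
  have hev : ∀ᶠ ε in 𝓝[>] (0 : ℝ), lb ε ≤ l⁻¹ * (N' (w' + l • y) - N' w') := by
    have e1 : ∀ᶠ ε in 𝓝[>] (0 : ℝ), 0 < ε := self_mem_nhdsWithin
    have e2 : ∀ᶠ ε in 𝓝[>] (0 : ℝ), ε < l := by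
      have : Iio l ∈ 𝓝 (0 : ℝ) := Iio_mem_nhds hl
      exact mem_nhdsWithin_of_mem_nhds this
    have e3 : ∀ᶠ ε in 𝓝[>] (0 : ℝ), 0 < N (a + ε • h) :=
      hN1.eventually (lt_mem_nhds one_pos)
    filter_upwards [e1, e2, e3] with ε hε hεl hpos
    have hne : a + ε • h ≠ 0 := by
      intro h0
      rw [h0, N.map_zero'] at hpos
      exact lt_irrefl _ hpos
    have hrad1 : N (rad N (a + ε • h)) = 1 := N.norm_rad hne
    -- the isometry
    have hiso := R.iso _ b hrad1 hb1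
    -- duality
    have hdual : ⟪η, rad N (a + ε • h) - b⟫ ≤ N (rad N (a + ε • h) - b) := by
      have h1 := N.inner_le η (rad N (a + ε • h) - b)
      have h2 : N.dual η * N (rad N (a + ε • h) - b) ≤ 1 * N (rad N (a + ε • h) - b) :=
        mul_le_mul_of_nonneg_right hη (N.nonneg _)
      linarith
    -- decomposition in the target
    have hdec : R.F (rad N (a + ε • h)) - R.F b =
        (w' + ε • y) + ε • (ε⁻¹ • (R.F (rad N (a + ε • h)) - R.F a - ε • y)) := by
      rw [smul_smul, mul_inv_cancel₀ hε.ne', one_smul, hw']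
      abel
    have hup : N' (R.F (rad N (a + ε • h)) - R.F b) ≤ N' (w' + ε • y) +
        ε * N' (ε⁻¹ • (R.F (rad N (a + ε • h)) - R.F a - ε • y)) := by
      rw [hdec]
      refine (N'.add_le _ _).trans ?_
      rw [N'.smul_eq (ε), abs_of_pos hε]
    -- value of the functional
    have hval : ⟪η, rad N (a + ε • h) - b⟫ =
        (N (a + ε • h))⁻¹ * (⟪η, a⟫ + ε * ⟪η, h⟫) - ⟪η, b⟫ := by
      simp only [rad, inner_sub_right, inner_smul_right, inner_add_right]
    have hLe : N (a - b) = ⟪η, a⟫ - ⟪η, b⟫ := by rw [← hηw, inner_sub_right]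
    have hmono := slope_mono N' w' y hε hεl.le
    -- combine
    have hmain : ε * lb ε ≤ N' (w' + ε • y) - N' w' := by
      have key : ε * lb ε = ((N (a + ε • h))⁻¹ * (⟪η, a⟫ + ε * ⟪η, h⟫) - ⟪η, a⟫) -
          ε * N' (ε⁻¹ • (R.F (rad N (a + ε • h)) - R.F a - ε • y)) := by
        simp only [hlb, ha1]
        field_simp
        ring
      rw [key, hLw, hLe]
      have h5 : (N (a + ε • h))⁻¹ * (⟪η, a⟫ + ε * ⟪η, h⟫) - ⟪η, b⟫ ≤
          N' (w' + ε • y) + ε * N' (ε⁻¹ • (R.F (rad N (a + ε • h)) - R.F a - ε • y)) := by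
        rw [← hval]
        exact hdual.trans (by rw [← hiso]; exact hup)
      linarith
    have hfin : lb ε ≤ ε⁻¹ * (N' (w' + ε • y) - N' w') := by
      have := mul_le_mul_of_nonneg_left hmain (inv_pos.mpr hε).le
      rwa [← mul_assoc, inv_mul_cancel₀ hε.ne', one_mul] at this
    exact hfin.trans hmono
  have hlim : ⟪η, h⟫ ≤ l⁻¹ * (N' (w' + l • y) - N' w') := le_of_tendsto hlbt hev
  have h6 := mul_le_mul_of_nonneg_left hlim hl.le
  rw [← mul_assoc, mul_inv_cancel₀ hl.ne', one_mul] at h6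
  linarith

/-- The key inequality. -/
theorem corr_key (R : RadIso N N') {a b η : E} (ha : a ∈ Good R) (ha1 : N a = 1) (hb1 : N b = 1)
    (hη : N.dual η ≤ 1) (hηw : ⟪η, a - b⟫ = N (a - b)) (h : E) (hh : ⟪grad N a, h⟫ = 0) (s : ℝ) :
    ⟪η, h⟫ + s * N (a - b) ≤ N' (fderiv ℝ R.F a h + s • (R.F a - R.F b)) := by
  set y := fderiv ℝ R.F a h with hy
  set w' := R.F a - R.F b with hw'
  have hLw : N' w' = N (a - b) := R.iso a b ha1 hb1
  -- pick a small parameter
  set ε : ℝ := (|s| + 1)⁻¹ with hεd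
  have hs1 : 0 < |s| + 1 := by positivity
  have hε : 0 < ε := inv_pos.mpr hs1
  have hc : 0 < 1 + ε * s := by
    have h1 : ε * |s| < 1 := by
      rw [hεd, inv_mul_lt_iff₀ hs1]
      linarith
    have h2 : -(ε * |s|) ≤ ε * s := by
      have := neg_abs_le s
      nlinarith
    linarith
  set l : ℝ := ε / (1 + ε * s) with hl
  have hl0 : 0 < l := div_pos hε hc
  have hstar := corr_star R ha ha1 hb1 hη hηw h hh hl0
  rw [← hw', ← hy] at hstar
  have hdec : w' + ε • (y + s • w') = (1 + ε * s) • (w' + l • y) := by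
    have : (1 + ε * s) * l = ε := by rw [hl]; field_simp
    have h1 : (1 + ε * s) • (w' + l • y) = (1 + ε * s) • w' + ((1 + ε * s) * l) • y := by
      rw [smul_add, smul_smul]
    rw [h1, this, smul_add, smul_smul, add_smul, one_smul]
    abel
  have hlow : (1 + ε * s) * N (a - b) + ε * ⟪η, h⟫ ≤ N' (w' + ε • (y + s • w')) := by
    rw [hdec, N'.smul_eq, abs_of_pos hc]
    have h1 := mul_le_mul_of_nonneg_left hstar hc.le
    have h2 : (1 + ε * s) * (N (a - b) + l * ⟪η, h⟫) =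
        (1 + ε * s) * N (a - b) + ε * ⟪η, h⟫ := by
      rw [hl]; field_simp
    linarith
  have hup : N' (w' + ε • (y + s • w')) ≤ N (a - b) + ε * N' (y + s • w') := by
    refine (N'.add_le _ _).trans ?_
    rw [N'.smul_eq, abs_of_pos hε, hLw]
  have h3 : ε * (⟪η, h⟫ + s * N (a - b)) ≤ ε * N' (y + s • w') := by
    nlinarith
  exact le_of_mul_le_mul_left h3 hε

/-- The partner functional of a chord. -/
theorem corr_partner (R : RadIso N N') (hSC : StrictC N) {a b η : E} (ha : a ∈ Good R)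
    (ha1 : N a = 1) (hb1 : N b = 1) (hab : a ≠ b) (hη : N.dual η ≤ 1)
    (hηw : ⟪η, a - b⟫ = N (a - b)) :
    ∃ η', N'.dual η' ≤ 1 ∧ ⟪η', R.F a - R.F b⟫ = N (a - b) ∧
      ∀ h, ⟪grad N a, h⟫ = 0 → ⟪η', fderiv ℝ R.F a h⟫ = ⟪η, h⟫ := by
  have hSC' : StrictC N' := R.strictC hSC
  have ha' := ha
  obtain ⟨ha0, hdF, hdG, hdN, hdN', -, -⟩ := ha'
  have hFa1 : N' (R.F a) = 1 := by rw [R.norm_F, ha1]
  have hFb1 : N' (R.F b) = 1 := by rw [R.norm_F, hb1]
  have hFa0 : R.F a ≠ 0 := by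
    intro h0
    rw [h0, N'.map_zero'] at hFa1
    exact zero_ne_one hFa1
  have hFab : R.F a ≠ R.F b := by
    intro h0
    apply hab
    rw [← R.G_F a, ← R.G_F b, h0]
  obtain ⟨-, hφ1, hφa⟩ := N'.grad_spec hFa0 hdN'
  set φ' := grad N' (R.F a) with hφ'
  have hφa1 : ⟪φ', R.F a⟫ = 1 := by rw [hφa, hFa1]
  have hφb : ⟪φ', R.F b⟫ < 1 := StrictC.inner_lt hSC' hFa1 hFb1 hFab hφ1.le hφa1
  set w' := R.F a - R.F b with hw'
  have hφw : 0 < ⟪φ', w'⟫ := by
    rw [hw', inner_sub_right, hφa1]; linarith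
  obtain ⟨hinv1, hinv2⟩ := R.good_inverse ha
  set A := fderiv ℝ R.F a with hA
  set B := fderiv ℝ R.G (R.F a) with hB
  have hBA : ∀ h, B (A h) = h := fun h => by
    have := congrArg (fun f : E →L[ℝ] E => f h) hinv1
    simpa using this
  have hAB : ∀ y, A (B y) = y := fun y => by
    have := congrArg (fun f : E →L[ℝ] E => f y) hinv2
    simpa using this
  have hgrad : ∀ h, ⟪φ', A h⟫ = ⟪grad N a, h⟫ := fun h => R.good_grad ha h
  -- the functional
  set Ξη := ContinuousLinearMap.adjoint B η with hΞ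
  have hΞA : ∀ h, ⟪Ξη, A h⟫ = ⟪η, h⟫ := fun h => by
    rw [hΞ, ContinuousLinearMap.adjoint_inner_left, hBA]
  set c : ℝ := (N (a - b) - ⟪Ξη, w'⟫) / ⟪φ', w'⟫ with hc
  set η' := Ξη + c • φ' with hη'
  have hη'w : ⟪η', w'⟫ = N (a - b) := by
    rw [hη', inner_add_left, inner_smul_left, hc]
    simp only [conj_trivial]
    field_simp
    ring
  have hη'A : ∀ h, ⟪grad N a, h⟫ = 0 → ⟪η', A h⟫ = ⟪η, h⟫ := by
    intro h hh
    rw [hη', inner_add_left, inner_smul_left, hΞA, hgrad, hh]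
    simp
  refine ⟨η', ?_, hη'w, hη'A⟩
  -- the dual norm bound
  have hle : ∀ y, ⟪η', y⟫ ≤ N' y := by
    intro y
    set s : ℝ := ⟪φ', y⟫ / ⟪φ', w'⟫ with hs
    set h := B (y - s • w') with hh
    have hAh : A h = y - s • w' := hAB _
    have hh0 : ⟪grad N a, h⟫ = 0 := by
      rw [← hgrad, hAh, inner_sub_right, inner_smul_right, hs]
      field_simp
      ring
    have hkey := corr_key R ha ha1 hb1 hη hηw h hh0 s
    rw [← hA, hAh, ← hw', sub_add_cancel] at hkey
    have hy : y = A h + s • w' := by rw [hAh]; abel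
    have : ⟪η', y⟫ = ⟪η, h⟫ + s * N (a - b) := by
      rw [hy, inner_add_right, inner_smul_right, hη'A h hh0, hη'w]
    rw [this]
    exact hkey
  refine csSup_le ⟨_, 0, by simp [N'.map_zero'], rfl⟩ ?_
  rintro _ ⟨x, hx, rfl⟩
  exact (hle x).trans hx

end Vale.Agent.Lib.P084T
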