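import Vale.Agent.Lib.P084T.D1
import Vale.Agent.Lib.P084T.E1
import Vale.Agent.Lib.P084T.G2
import Vale.Agent.Lib.P084T.B5

set_option linter.unusedSectionVars false

/-! # P084T part H1. See `notes/P084_blueprint.md`, section H1. -/

open MeasureTheory Set Filter Topology
open scoped RealInnerProductSpace ENNReal NNReal

namespace Vale.Agent.Lib.P084T

variable {E : Type*} [NormedAddCommGroup E] [InnerProductSpace ℝ E] [FiniteDimensional ℝ E]
  [CompleteSpace E] [MeasurableSpace E] [BorelSpace E]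
variable {N N' : NF E}

/-- Scaling of the upper Taylor bound. -/
theorem H1_UT_smul {x : E} (hx : UT N x) {c : ℝ} (hc : 0 < c) : UT N (c • x) := by
  obtain ⟨C, δ, hδ, h⟩ := hx
  refine ⟨C / c, c * δ, mul_pos hc hδ, ?_⟩
  intro k hk
  have hk' : ‖c⁻¹ • k‖ < δ := by
    rw [norm_smul, Real.norm_of_nonneg (inv_pos.2 hc).le]
    rw [inv_mul_lt_iff₀ hc]
    exact hk
  have h1 := h (c⁻¹ • k) hk'
  have e1 : c • x + k = c • (x + c⁻¹ • k) := by
    rw [smul_add, smul_smul, mul_inv_cancel₀ hc.ne', one_smul]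
  rw [e1, N.smul_eq, abs_of_pos hc, N.smul_eq, abs_of_pos hc, N.grad_smul hc]
  have h2 := mul_le_mul_of_nonneg_left h1 hc.le
  have e2 : c * (N x + ⟪grad N x, c⁻¹ • k⟫ + C * ‖c⁻¹ • k‖ ^ 2) =
      c * N x + ⟪grad N x, k⟫ + C / c * ‖k‖ ^ 2 := by
    rw [inner_smul_right, norm_smul, Real.norm_of_nonneg (inv_pos.2 hc).le]
    field_simp
  rw [e2] at h2
  exact h2

/-- The chord from a differentiability point `a` of the sphere in a direction pointing inwards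
reaches the sphere again. -/
theorem H1_exit (N : NF E) {a w : E} (ha : a ≠ 0) (ha1 : N a = 1)
    (hd : DifferentiableAt ℝ (N : E → ℝ) a) (hw : 0 < ⟪grad N a, w⟫) :
    ∃ t : ℝ, 0 < t ∧ N (a - t • w) = 1 := by
  have hw0 : w ≠ 0 := by
    rintro rfl
    simp at hw
  have hNw : 0 < N w := N.pos w hw0
  have hg := (N.grad_spec ha hd).1
  set f : ℝ → ℝ := fun t => N (a - t • w) with hf
  have hfc : Continuous f := N.continuous.comp (by fun_prop)
  have hder : HasDerivAt f (-⟪grad N a, w⟫) 0 := by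
    have h1 : HasDerivAt (fun t : ℝ => a - t • w) (-w) 0 := by
      have := ((hasDerivAt_id (0 : ℝ)).smul_const w).const_sub a
      simpa using this
    have h2 : HasFDerivAt (N : E → ℝ) (InnerProductSpace.toDual ℝ E (grad N a)) (a - (0 : ℝ) • w) := by
      have e0 : a - (0 : ℝ) • w = a := by simp
      rw [e0]
      exact hg.hasFDerivAt
    have h3 := h2.comp_hasDerivAt (0 : ℝ) h1
    have e : (InnerProductSpace.toDual ℝ E (grad N a)) (-w) = -⟪grad N a, w⟫ := by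
      simp [inner_neg_right]
    rw [e] at h3
    exact h3
  have hslope := hasDerivAt_iff_tendsto_slope_zero.1 hder
  have hev : ∀ᶠ t in 𝓝[≠] (0 : ℝ), t⁻¹ • (f (0 + t) - f 0) < 0 :=
    hslope.eventually (gt_mem_nhds (by linarith))
  have hev2 : ∀ᶠ t in 𝓝[>] (0 : ℝ), t⁻¹ • (f (0 + t) - f 0) < 0 :=
    hev.filter_mono (nhdsWithin_mono _ (fun x hx => ne_of_gt hx))
  obtain ⟨s, hs1, hs0⟩ := (hev2.and self_mem_nhdsWithin).exists
  have hs0' : (0 : ℝ) < s := hs0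
  have hf0 : f 0 = 1 := by simp [hf, ha1]
  have hfs : f s < 1 := by
    have h3 : f s - f 0 < 0 := by
      have := hs1
      rw [zero_add, smul_eq_mul] at this
      have h4 := mul_neg_iff.1 this
      rcases h4 with h4 | h4
      · exact h4.2
      · exact absurd h4.1 (not_lt.2 (inv_pos.2 hs0').le)
    linarith
  set T : ℝ := s + 3 / N w with hT
  have hsT : s ≤ T := by
    have : 0 < 3 / N w := by positivity
    linarith
  have hfT : 1 < f T := by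
    have h1 := N.sub_le (T • w) a
    have h2 : N (T • w - a) = N (a - T • w) := by rw [← N.map_neg', neg_sub]
    have h3 : N (T • w) = T * N w := by
      rw [N.smul_eq, abs_of_pos (lt_of_lt_of_le hs0' hsT)]
    have h4 : T * N w = s * N w + 3 := by
      rw [hT]
      field_simp
    have h5 : 0 < s * N w := by positivity
    rw [hf]
    simp only
    rw [← h2]
    rw [h3, h4, ha1] at h1
    linarith
  have hmem : (1 : ℝ) ∈ Icc (f s) (f T) := ⟨hfs.le, hfT.le⟩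
  obtain ⟨t, ht, hft⟩ := intermediate_value_Icc hsT hfc.continuousOn hmem
  exact ⟨t, lt_of_lt_of_le hs0' ht.1, hft⟩

/-- One auxiliary chord. -/
theorem H1_one (N : NF E) {a h₀ : E} (ha : a ≠ 0) (ha1 : N a = 1)
    (hd : DifferentiableAt ℝ (N : E → ℝ) a) (hh₀ : ⟪grad N a, h₀⟫ = 0) (hh₁ : N h₀ = 1) :
    ∃ p, N p = 1 ∧ p ≠ a ∧ DifferentiableAt ℝ (N : E → ℝ) (a - p) ∧ UT N (a - p) ∧
      ∀ h, N (h - h₀) < 1 / 2 → 1 / 4 ≤ ⟪grad N (a - p), h⟫ := by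
  obtain ⟨hg, hdu, hga⟩ := N.grad_spec ha hd
  rw [ha1] at hga
  set w : E := h₀ + (1 / 16 : ℝ) • a with hw
  -- a good point near `w`
  obtain ⟨K, hK⟩ := N.lipschitz
  have hae : ∀ᵐ x ∂(volume : Measure E), UT N x ∧ DifferentiableAt ℝ (N : E → ℝ) x :=
    (ae_UT N).and hK.ae_differentiableAt
  have hdense := Measure.dense_of_ae hae
  have hopen : IsOpen {x : E | N (x - w) < 1 / 16} :=
    isOpen_lt (N.continuous.comp (by fun_prop)) continuous_const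
  have hne : {x : E | N (x - w) < 1 / 16}.Nonempty := ⟨w, by simp [N.map_zero']⟩
  obtain ⟨w', hw'1, hw'2⟩ := hdense.inter_open_nonempty _ hopen hne
  have hw'1' : N (w' - w) < 1 / 16 := hw'1
  obtain ⟨hUT, hdw⟩ := hw'2
  -- positivity of the slope
  have hin1 : ⟪grad N a, w' - w⟫ ≤ N (w' - w) := by
    have := N.inner_le (grad N a) (w' - w)
    rwa [hdu, one_mul] at this
  have hin2 : -N (w' - w) ≤ ⟪grad N a, w' - w⟫ := by
    have := N.inner_le (grad N a) (-(w' - w))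
    rw [hdu, one_mul, N.map_neg', inner_neg_right] at this
    linarith
  have hφw : ⟪grad N a, w⟫ = 1 / 16 := by
    rw [hw, inner_add_right, hh₀, inner_smul_right, hga]
    norm_num
  have hφw' : 0 < ⟪grad N a, w'⟫ := by
    have : ⟪grad N a, w'⟫ = ⟪grad N a, w' - w⟫ + ⟪grad N a, w⟫ := by
      rw [← inner_add_right]; simp
    rw [this, hφw]
    linarith
  have hw'0 : w' ≠ 0 := by
    rintro rfl
    simp at hφw'
  obtain ⟨t, ht, hpt⟩ := H1_exit N ha ha1 hd hφw'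
  refine ⟨a - t • w', hpt, ?_, ?_, ?_, ?_⟩
  · intro h
    have h2 : t • w' = 0 := by
      have : a - t • w' = a - 0 := by rw [h]; simp
      exact sub_right_injective this
    rcases smul_eq_zero.1 h2 with h3 | h3
    · exact ht.ne' h3
    · exact hw'0 h3
  · have : a - (a - t • w') = t • w' := by abel
    rw [this, N.differentiableAt_smul_iff ht]
    exact hdw
  · have : a - (a - t • w') = t • w' := by abel
    rw [this]
    exact H1_UT_smul hUT ht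
  · intro h hh
    have e1 : a - (a - t • w') = t • w' := by abel
    rw [e1, N.grad_smul ht]
    obtain ⟨-, hdθ, hθw⟩ := N.grad_spec hw'0 hdw
    have hle : ∀ y, ⟪grad N w', y⟫ ≤ N y := by
      intro y
      have := N.inner_le (grad N w') y
      rwa [hdθ, one_mul] at this
    have h1 : N (h₀ - w) = 1 / 16 := by
      have : h₀ - w = (-(1 / 16 : ℝ)) • a := by
        rw [hw]; simp [neg_smul]
      rw [this, N.smul_eq, ha1]
      norm_num [abs_of_pos]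
    have h2 : N (w - w') < 1 / 16 := by
      have : w - w' = -(w' - w) := by abel
      rw [this, N.map_neg']
      exact hw'1'
    have h3 : N (h₀ - w') < 1 / 8 := by
      have : h₀ - w' = (h₀ - w) + (w - w') := by abel
      rw [this]
      have := N.add_le (h₀ - w) (w - w')
      linarith
    have h4 : 7 / 8 < N w' := by
      have := N.sub_le h₀ w'
      linarith
    have h5 : ⟪grad N w', w' - h₀⟫ ≤ N (w' - h₀) := hle _
    have h6 : N (w' - h₀) = N (h₀ - w') := by rw [← N.map_neg', neg_sub]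
    have h7 : ⟪grad N w', h₀ - h⟫ ≤ N (h₀ - h) := hle _
    have h8 : N (h₀ - h) = N (h - h₀) := by rw [← N.map_neg', neg_sub]
    have e2 : ⟪grad N w', h⟫ = ⟪grad N w', w'⟫ - ⟪grad N w', w' - h₀⟫ - ⟪grad N w', h₀ - h⟫ := by
      rw [inner_sub_right, inner_sub_right]; ring
    rw [e2, hθw]
    linarith

/-- The finite family of auxiliary chords. -/
theorem H1_family (N : NF E) {a : E} (ha : a ≠ 0) (ha1 : N a = 1)
    (hd : DifferentiableAt ℝ (N : E → ℝ) a) :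
    ∃ (t : Finset E) (p : E → E), (∀ i ∈ t, N (p i) = 1 ∧ p i ≠ a ∧
        DifferentiableAt ℝ (N : E → ℝ) (a - p i) ∧ UT N (a - p i)) ∧
      ∀ h, ⟪grad N a, h⟫ = 0 → h ≠ 0 → ∃ i ∈ t, 1 / 4 * N h ≤ ⟪grad N (a - p i), h⟫ := by
  classical
  set K : Set E := {h | ⟪grad N a, h⟫ = 0 ∧ N h = 1} with hK
  have hKcl : IsClosed K := by
    have h1 : IsClosed {h : E | ⟪grad N a, h⟫ = 0} :=
      isClosed_eq (by fun_prop) continuous_const
    have h2 : IsClosed {h : E | N h = 1} := isClosed_eq N.continuous continuous_const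
    exact h1.inter h2
  obtain ⟨C, hC, hb⟩ := N.exists_bounds
  have hKb : Bornology.IsBounded K := by
    refine (Metric.isBounded_iff_subset_closedBall 0).2 ⟨C, ?_⟩
    intro h hh
    have h2 := (hb h).2
    rw [hh.2, mul_one] at h2
    simpa using h2
  have hKc : IsCompact K := Metric.isCompact_of_isClosed_isBounded hKcl hKb
  have key : ∀ h₀ ∈ K, ∃ p, N p = 1 ∧ p ≠ a ∧ DifferentiableAt ℝ (N : E → ℝ) (a - p) ∧
      UT N (a - p) ∧ ∀ h, N (h - h₀) < 1 / 2 → 1 / 4 ≤ ⟪grad N (a - p), h⟫ :=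
    fun h₀ hh₀ => H1_one N ha ha1 hd hh₀.1 hh₀.2
  choose! p hp using key
  obtain ⟨t, htK, hcov⟩ := hKc.elim_nhds_subcover (fun h₀ => {h | N (h - h₀) < 1 / 2}) (by
    intro h₀ _
    refine IsOpen.mem_nhds (isOpen_lt (N.continuous.comp (by fun_prop)) continuous_const) ?_
    simp [N.map_zero'])
  refine ⟨t, p, ?_, ?_⟩
  · intro i hi
    obtain ⟨h1, h2, h3, h4, -⟩ := hp i (htK i hi)
    exact ⟨h1, h2, h3, h4⟩
  · intro h hφ hne
    have hNh : 0 < N h := N.pos h hne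
    set u : E := (N h)⁻¹ • h with hu
    have huK : u ∈ K := by
      refine ⟨?_, ?_⟩
      · rw [hu, inner_smul_right, hφ, mul_zero]
      · rw [hu, N.smul_eq, abs_of_pos (inv_pos.2 hNh), inv_mul_cancel₀ hNh.ne']
    have hcov' := hcov huK
    simp only [mem_iUnion, exists_prop] at hcov'
    obtain ⟨i, hi, hui⟩ := hcov'
    refine ⟨i, hi, ?_⟩
    have h1 := (hp i (htK i hi)).2.2.2.2 u hui
    rw [hu, inner_smul_right] at h1
    have h2 := mul_le_mul_of_nonneg_right h1 hNh.le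
    have h3 : (N h)⁻¹ * ⟪grad N (a - p i), h⟫ * N h = ⟪grad N (a - p i), h⟫ := by
      field_simp
    rw [h3] at h2
    exact h2

/-- The defect of a point of the sphere from the tangent hyperplane. -/
theorem H1_defect (N : NF E) {a z φ : E} {C : ℝ} (ha1 : N a = 1) (hz : N z = 1)
    (hφd : N.dual φ = 1) (hφa : ⟪φ, a⟫ = 1)
    (hC : N (a + (z - a)) ≤ N a + ⟪φ, z - a⟫ + C * ‖z - a‖ ^ 2) :
    |⟪φ, z - a⟫| ≤ |C| * ‖z - a‖ ^ 2 := by
  have h1 := N.inner_le φ z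
  rw [hφd, hz, one_mul] at h1
  have e1 : a + (z - a) = z := by abel
  rw [e1, hz, ha1] at hC
  have e2 : ⟪φ, z - a⟫ = ⟪φ, z⟫ - 1 := by rw [inner_sub_right, hφa]
  have h2 : C * ‖z - a‖ ^ 2 ≤ |C| * ‖z - a‖ ^ 2 :=
    mul_le_mul_of_nonneg_right (le_abs_self _) (by positivity)
  have h3 : 0 ≤ |C| * ‖z - a‖ ^ 2 := by positivity
  rw [abs_le]
  constructor
  · linarith
  · linarith

/-- The estimate along one auxiliary chord. -/
theorem H1_chord (R : RadIso N N') {a p z θ θ' φ x x' h' : E} {Â : E →L[ℝ] E} {c g g' : ℝ}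
    (ha1 : N a = 1) (hp : N p = 1) (hz : N z = 1)
    (hθd : N.dual θ = 1) (hθ'd : N'.dual θ' ≤ 1) (hθ1 : ⟪θ', R.F a - R.F p⟫ = N (a - p))
    (hθ2 : ∀ h, ⟪φ, h⟫ = 0 → ⟪θ', Â h⟫ = ⟪θ, h⟫)
    (hc : N (z - p) ≤ N (a - p) + ⟪θ, z - a⟫ + c)
    (hx : z - a = x + g • a) (hx' : R.F z - R.F a = x' + g' • R.F a)
    (hh' : Â h' = x') (hφh' : ⟪φ, h'⟫ = 0) :
    ⟪θ, h' - x⟫ ≤ |g'| + |g| + c := by
  have hFa1 : N' (R.F a) = 1 := by rw [R.norm_F, ha1]
  have h4 : ⟪θ', R.F z - R.F p⟫ ≤ N' (R.F z - R.F p) := by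
    have h1 := N'.inner_le θ' (R.F z - R.F p)
    have h2 := N'.nonneg (R.F z - R.F p)
    have h3 : N'.dual θ' * N' (R.F z - R.F p) ≤ 1 * N' (R.F z - R.F p) :=
      mul_le_mul_of_nonneg_right hθ'd h2
    linarith
  rw [R.iso z p hz hp] at h4
  have hst : ⟪θ', R.F z - R.F a⟫ ≤ ⟪θ, z - a⟫ + c := by
    have e2 : R.F z - R.F a = (R.F z - R.F p) - (R.F a - R.F p) := by abel
    rw [e2, inner_sub_right, hθ1]
    linarith
  have hA : |⟪θ', R.F a⟫| ≤ 1 := by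
    have h1 := N'.inner_le θ' (R.F a)
    have h2 := N'.inner_le θ' (-R.F a)
    rw [hFa1, mul_one] at h1
    rw [N'.map_neg', hFa1, mul_one, inner_neg_right] at h2
    rw [abs_le]
    constructor <;> linarith
  have hB : |⟪θ, a⟫| ≤ 1 := by
    have h1 := N.inner_le θ a
    have h2 := N.inner_le θ (-a)
    rw [hθd, ha1, mul_one] at h1
    rw [hθd, N.map_neg', ha1, mul_one, inner_neg_right] at h2
    rw [abs_le]
    constructor <;> linarith
  have e3 : ⟪θ', R.F z - R.F a⟫ = ⟪θ, h'⟫ + g' * ⟪θ', R.F a⟫ := by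
    rw [hx', inner_add_right, inner_smul_right, ← hh', hθ2 h' hφh']
  have e4 : ⟪θ, z - a⟫ = ⟪θ, x⟫ + g * ⟪θ, a⟫ := by
    rw [hx, inner_add_right, inner_smul_right]
  have h5 : -|g'| ≤ g' * ⟪θ', R.F a⟫ := by
    have := neg_abs_le (g' * ⟪θ', R.F a⟫)
    rw [abs_mul] at this
    have h6 : |g'| * |⟪θ', R.F a⟫| ≤ |g'| * 1 := mul_le_mul_of_nonneg_left hA (abs_nonneg _)
    linarith
  have h7 : g * ⟪θ, a⟫ ≤ |g| := by
    have := le_abs_self (g * ⟪θ, a⟫)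
    rw [abs_mul] at this
    have h6 : |g| * |⟪θ, a⟫| ≤ |g| * 1 := mul_le_mul_of_nonneg_left hB (abs_nonneg _)
    linarith
  rw [inner_sub_right]
  rw [e3, e4] at hst
  linarith

/-- Assembling the pieces for a fixed point `z`. -/
theorem H1_final (R : RadIso N N') {a z u x x' h' : E} {Â A' : E →L[ℝ] E} {g g' : ℝ}
    (hself : Â a = R.F a) (hinv : ∀ y, Â (A' y) = y)
    (hx : z - a = x + g • a) (hx' : R.F z - R.F a = x' + g' • R.F a)
    (hh' : h' = A' x') (hu : u = h' - x) :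
    R.F z - R.F a - Â (z - a) = Â u + (g' - g) • R.F a := by
  have e2 : Â (z - a) = Â x + g • R.F a := by
    rw [hx, map_add, map_smul, hself]
  have e3 : Â u = x' - Â x := by
    rw [hu, map_sub, hh', hinv]
  rw [e2, e3, hx', sub_smul]
  abel

/-- The decomposition along the tangent hyperplane. -/
theorem H1_decomp {N N' : NF E} (R : RadIso N N') {a z : E} (ha : a ∈ Good R) (ha1 : N a = 1)
    (hFa0 : R.F a ≠ 0) :
    ∃ (g g' : ℝ) (x x' h' u : E), g = ⟪grad N a, z - a⟫ ∧ g' = ⟪grad N' (R.F a), R.F z - R.F a⟫ ∧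
      z - a = x + g • a ∧ R.F z - R.F a = x' + g' • R.F a ∧
      h' = fderiv ℝ R.G (R.F a) x' ∧ u = h' - x ∧
      fderiv ℝ R.F a h' = x' ∧ ⟪grad N a, h'⟫ = 0 ∧ ⟪grad N a, u⟫ = 0 := by
  have hFa1 : N' (R.F a) = 1 := by rw [R.norm_F, ha1]
  obtain ⟨-, -, hφa⟩ := N.grad_spec ha.1 ha.2.2.2.1
  obtain ⟨-, -, hφ'a⟩ := N'.grad_spec hFa0 ha.2.2.2.2.1
  rw [ha1] at hφa
  rw [hFa1] at hφ'a
  have hinv2 := (R.good_inverse ha).2
  have hinv2' : ∀ y, fderiv ℝ R.F a (fderiv ℝ R.G (R.F a) y) = y := fun y => by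
    have := congrArg (fun L : E →L[ℝ] E => L y) hinv2
    simpa using this
  refine ⟨_, _, (z - a) - ⟪grad N a, z - a⟫ • a, (R.F z - R.F a) - ⟪grad N' (R.F a), R.F z - R.F a⟫ • R.F a,
    fderiv ℝ R.G (R.F a) ((R.F z - R.F a) - ⟪grad N' (R.F a), R.F z - R.F a⟫ • R.F a),
    fderiv ℝ R.G (R.F a) ((R.F z - R.F a) - ⟪grad N' (R.F a), R.F z - R.F a⟫ • R.F a) -
      ((z - a) - ⟪grad N a, z - a⟫ • a), rfl, rfl, by abel, by abel, rfl, rfl, hinv2' _, ?_, ?_⟩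
  · have := R.good_grad ha (fderiv ℝ R.G (R.F a) ((R.F z - R.F a) - ⟪grad N' (R.F a), R.F z - R.F a⟫ • R.F a))
    rw [hinv2', inner_sub_right, inner_smul_right, hφ'a, mul_one, sub_self] at this
    exact this.symm
  · have := R.good_grad ha (fderiv ℝ R.G (R.F a) ((R.F z - R.F a) - ⟪grad N' (R.F a), R.F z - R.F a⟫ • R.F a))
    rw [hinv2', inner_sub_right, inner_smul_right, hφ'a, mul_one, sub_self] at this
    rw [inner_sub_right, ← this, inner_sub_right, inner_smul_right, hφa, mul_one, sub_self, sub_self]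

/-- Second order expansion of `F` along the sphere at a good point. -/
theorem second_order (R : RadIso N N') (hSC : StrictC N) {a : E} (ha : a ∈ Good R)
    (ha1 : N a = 1) :
    ∃ C δ : ℝ, 0 < δ ∧ ∀ z, N z = 1 → ‖z - a‖ < δ →
      ‖R.F z - R.F a - fderiv ℝ R.F a (z - a)‖ ≤ C * ‖z - a‖ ^ 2 := by
  classical
  have ha_good := ha
  obtain ⟨ha0, hdF, hdG, hdN, hdN', hUT, hUT'⟩ := ha
  have hFa1 : N' (R.F a) = 1 := by rw [R.norm_F, ha1]
  have hFa0 : R.F a ≠ 0 := by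
    intro h
    rw [h, N'.map_zero'] at hFa1
    norm_num at hFa1
  obtain ⟨-, hφd, hφa⟩ := N.grad_spec ha0 hdN
  obtain ⟨-, hφ'd, hφ'a⟩ := N'.grad_spec hFa0 hdN'
  rw [ha1] at hφa
  rw [hFa1] at hφ'a
  -- the family
  obtain ⟨t, p, hp, hcov⟩ := H1_family N ha0 ha1 hdN
  have hpart : ∀ i ∈ t, ∃ θ', N'.dual θ' ≤ 1 ∧
      ⟪θ', R.F a - R.F (p i)⟫ = N (a - p i) ∧
      ∀ h, ⟪grad N a, h⟫ = 0 → ⟪θ', fderiv ℝ R.F a h⟫ = ⟪grad N (a - p i), h⟫ := by
    intro i hi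
    obtain ⟨h1, h2, h3, -⟩ := hp i hi
    have hne : a - p i ≠ 0 := sub_ne_zero.2 (Ne.symm h2)
    obtain ⟨-, h5, h6⟩ := N.grad_spec hne h3
    exact corr_partner R hSC ha_good ha1 h1 (Ne.symm h2) h5.le h6
  choose! θ' hθ' using hpart
  have hUTi : ∀ i ∈ t, ∃ C δ : ℝ, 0 < δ ∧ ∀ h, ‖h‖ < δ →
      N (a - p i + h) ≤ N (a - p i) + ⟪grad N (a - p i), h⟫ + C * ‖h‖ ^ 2 :=
    fun i hi => (hp i hi).2.2.2
  choose! Ci δi hδi hCi using hUTi
  obtain ⟨Ca, δa, hδa, hCa⟩ := hUT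
  obtain ⟨Cb, δb, hδb, hCb⟩ := hUT'
  obtain ⟨C₁, hC₁, hb₁⟩ := N.exists_bounds
  obtain ⟨C₂, hC₂, hb₂⟩ := N'.exists_bounds
  obtain ⟨Cm, hCm0, hCmi⟩ : ∃ Cm : ℝ, 0 ≤ Cm ∧ ∀ i ∈ t, Ci i ≤ Cm :=
    ⟨∑ i ∈ t, |Ci i|, Finset.sum_nonneg (fun _ _ => abs_nonneg _), fun i hi =>
      (le_abs_self _).trans
        (Finset.single_le_sum (f := fun i => |Ci i|) (fun _ _ => abs_nonneg _) hi)⟩
  -- uniform radius
  have htn : Tendsto (fun h : E => ‖h‖) (𝓝 0) (𝓝 0) := by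
    simpa using (continuous_norm (E := E)).tendsto 0
  have hev : ∀ᶠ h in 𝓝 (0 : E), (∀ i ∈ t, ‖h‖ < δi i) ∧ ‖h‖ < δa ∧ C₂ * C₁ * ‖h‖ < δb := by
    refine Eventually.and ?_ (Eventually.and ?_ ?_)
    · exact (Finset.eventually_all t).2 (fun i hi => htn.eventually (gt_mem_nhds (hδi i hi)))
    · exact htn.eventually (gt_mem_nhds hδa)
    · have : Tendsto (fun h : E => C₂ * C₁ * ‖h‖) (𝓝 0) (𝓝 0) := by
        have h0 : Continuous (fun h : E => C₂ * C₁ * ‖h‖) := by fun_prop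
        simpa using h0.tendsto 0
      exact this.eventually (gt_mem_nhds hδb)
  obtain ⟨δ, hδ, hball⟩ := Metric.eventually_nhds_iff.1 hev
  obtain ⟨Kb, hKbdef⟩ : ∃ Kb : ℝ, Kb = C₂ * C₁ := ⟨_, rfl⟩
  rw [← hKbdef] at hball
  have hKb0 : 0 < Kb := by rw [hKbdef]; positivity
  obtain ⟨Mg, hMg⟩ : ∃ Mg : ℝ, Mg = |Ca| := ⟨_, rfl⟩
  obtain ⟨Mg', hMg'⟩ : ∃ Mg' : ℝ, Mg' = |Cb| * Kb ^ 2 := ⟨_, rfl⟩
  have hMg0 : 0 ≤ Mg := by rw [hMg]; positivity
  have hMg'0 : 0 ≤ Mg' := by rw [hMg']; positivity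
  obtain ⟨M, hM⟩ : ∃ M : ℝ, M = Mg' + Mg + Cm := ⟨_, rfl⟩
  have hM0 : 0 ≤ M := by rw [hM]; positivity
  refine ⟨‖fderiv ℝ R.F a‖ * (C₁ * (4 * M)) + (Mg' + Mg) * ‖R.F a‖, δ, hδ, ?_⟩
  intro z hz hzδ
  obtain ⟨hi1, hi2, hi3⟩ := hball (y := z - a) (by simpa [dist_eq_norm] using hzδ)
  have hee : 0 ≤ ‖z - a‖ ^ 2 := by positivity
  -- norm of the image difference
  have hNe' : N' (R.F z - R.F a) = N (z - a) := R.iso z a hz ha1
  have hnorm : ‖R.F z - R.F a‖ ≤ Kb * ‖z - a‖ := by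
    have h1 := (hb₂ (R.F z - R.F a)).2
    have h2 := (hb₁ (z - a)).1
    rw [hNe'] at h1
    calc ‖R.F z - R.F a‖ ≤ C₂ * N (z - a) := h1
      _ ≤ C₂ * (C₁ * ‖z - a‖) := mul_le_mul_of_nonneg_left h2 hC₂.le
      _ = Kb * ‖z - a‖ := by rw [hKbdef]; ring
  obtain ⟨g, g', x, x', h', u, hg, hg', hx, hx', hh', hu, hAh', hφh', hφu⟩ :=
    H1_decomp (z := z) R ha_good ha1 hFa0
  have hgb : |g| ≤ Mg * ‖z - a‖ ^ 2 := by
    rw [hg, hMg]
    exact H1_defect N ha1 hz hφd hφa (hCa _ hi2)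
  have hg'b : |g'| ≤ Mg' * ‖z - a‖ ^ 2 := by
    have hlt : ‖R.F z - R.F a‖ < δb := lt_of_le_of_lt hnorm hi3
    have hz' : N' (R.F z) = 1 := by rw [R.norm_F, hz]
    have h1 := H1_defect N' hFa1 hz' hφ'd hφ'a (hCb _ hlt)
    have h3 : ‖R.F z - R.F a‖ ^ 2 ≤ (Kb * ‖z - a‖) ^ 2 := pow_le_pow_left₀ (norm_nonneg _) hnorm 2
    have h4 := mul_le_mul_of_nonneg_left h3 (abs_nonneg Cb)
    have h5 : |Cb| * (Kb * ‖z - a‖) ^ 2 = Mg' * ‖z - a‖ ^ 2 := by rw [hMg']; ring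
    rw [hg']
    linarith
  have hchord : ∀ i ∈ t, ⟪grad N (a - p i), u⟫ ≤ M * ‖z - a‖ ^ 2 := by
    intro i hi
    obtain ⟨h1, h2, h3, -⟩ := hp i hi
    have hne : a - p i ≠ 0 := sub_ne_zero.2 (Ne.symm h2)
    obtain ⟨-, hdθ, -⟩ := N.grad_spec hne h3
    obtain ⟨hθd, hθ1, hθ2⟩ := hθ' i hi
    have h5 := hCi i hi (z - a) (hi1 i hi)
    have e1 : a - p i + (z - a) = z - p i := by abel
    rw [e1] at h5
    have h6 := H1_chord R ha1 h1 hz hdθ hθd hθ1 hθ2 h5 hx hx' hAh' hφh'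
    rw [hu]
    have h7 : Ci i * ‖z - a‖ ^ 2 ≤ Cm * ‖z - a‖ ^ 2 :=
      mul_le_mul_of_nonneg_right (hCmi i hi) hee
    rw [hM, add_mul, add_mul]
    linarith
  have hNu : N u ≤ 4 * M * ‖z - a‖ ^ 2 := by
    by_cases hu0 : u = 0
    · rw [hu0, N.map_zero']
      positivity
    · obtain ⟨i, hi, hle⟩ := hcov u hφu hu0
      have := hchord i hi
      linarith
  have hnu : ‖u‖ ≤ C₁ * (4 * M) * ‖z - a‖ ^ 2 := by
    calc ‖u‖ ≤ C₁ * N u := (hb₁ u).2
      _ ≤ C₁ * (4 * M * ‖z - a‖ ^ 2) := mul_le_mul_of_nonneg_left hNu hC₁.le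
      _ = C₁ * (4 * M) * ‖z - a‖ ^ 2 := by ring
  have hinv2' : ∀ y, fderiv ℝ R.F a (fderiv ℝ R.G (R.F a) y) = y := fun y => by
    have := congrArg (fun L : E →L[ℝ] E => L y) (R.good_inverse ha_good).2
    simpa using this
  rw [H1_final R (R.good_apply_self ha_good) hinv2' hx hx' hh' hu]
  have hA : ‖fderiv ℝ R.F a u‖ ≤ ‖fderiv ℝ R.F a‖ * (C₁ * (4 * M) * ‖z - a‖ ^ 2) :=
    ((fderiv ℝ R.F a).le_opNorm u).trans (mul_le_mul_of_nonneg_left hnu (norm_nonneg _))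
  have hgg : |g' - g| ≤ (Mg' + Mg) * ‖z - a‖ ^ 2 := by
    have := abs_sub g' g
    rw [add_mul]
    linarith
  have hB : ‖(g' - g) • R.F a‖ ≤ (Mg' + Mg) * ‖z - a‖ ^ 2 * ‖R.F a‖ := by
    rw [norm_smul, Real.norm_eq_abs]
    exact mul_le_mul_of_nonneg_right hgg (norm_nonneg _)
  calc ‖fderiv ℝ R.F a u + (g' - g) • R.F a‖ ≤ ‖fderiv ℝ R.F a u‖ + ‖(g' - g) • R.F a‖ := norm_add_le _ _
    _ ≤ ‖fderiv ℝ R.F a‖ * (C₁ * (4 * M) * ‖z - a‖ ^ 2) + (Mg' + Mg) * ‖z - a‖ ^ 2 * ‖R.F a‖ :=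
        add_le_add hA hB
    _ = (‖fderiv ℝ R.F a‖ * (C₁ * (4 * M)) + (Mg' + Mg) * ‖R.F a‖) * ‖z - a‖ ^ 2 := by ring

end Vale.Agent.Lib.P084T
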