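import Vale.Agent.Lib.P084T.H1

set_option linter.unusedSectionVars false

/-! # P084T part H3. See `notes/P084_blueprint.md`, section H3. -/

open MeasureTheory Set Filter Topology
open scoped RealInnerProductSpace ENNReal NNReal

namespace Vale.Agent.Lib.P084T

variable {E : Type*} [NormedAddCommGroup E] [InnerProductSpace ℝ E] [FiniteDimensional ℝ E]
  [CompleteSpace E] [MeasurableSpace E] [BorelSpace E]
variable {N N' : NF E}

/-- Evaluation of `Mop`. -/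
theorem Mop_apply' (A : E →L[ℝ] E) (φ u u' ξ ζ h : E) :
    Mop A φ u u' ξ ζ h =
      A (h - ((⟪φ, u⟫)⁻¹ * ⟪φ, h⟫) • u) - ⟪ζ, A (h - ((⟪φ, u⟫)⁻¹ * ⟪φ, h⟫) • u)⟫ • u'
        + ⟪ξ, h⟫ • u' := by
  simp [Mop, ContinuousLinearMap.smulRight_apply, innerSL_apply_apply, inner_sub_right,
    inner_smul_right]

/-- The second order bound of the dual norm along a direction killed by the second derivative. -/
theorem dual_second {N : NF E} (hSC : StrictC N) {ζ η₀ : E} {Q : E →L[ℝ] E}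
    (hζ : N.dual ζ = 1) (hQ : HasFDerivAt (uhat N) Q ζ) (hη : Q η₀ = 0)
    (hu : ⟪η₀, uhat N ζ⟫ = 0) {ε : ℝ} (hε : 0 < ε) :
    ∃ δ' : ℝ, 0 < δ' ∧ ∀ δ : ℝ, 0 < δ → δ < δ' → ∀ y : E,
      ⟪ζ + δ • η₀, y⟫ ≤ (1 + ε * δ ^ 2) * N y := by
  have hζ0 : ζ ≠ 0 := by
    intro h
    rw [h, NF.map_zero'] at hζ
    norm_num at hζ
  set ε₁ : ℝ := ε / (‖η₀‖ ^ 2 + 1) with hε₁
  have hε₁pos : 0 < ε₁ := by positivity
  have hlo := (hasFDerivAt_iff_isLittleO_nhds_zero.mp hQ).def hε₁pos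
  obtain ⟨r, hr, hball⟩ := Metric.eventually_nhds_iff.mp hlo
  have hr2 : 0 < ‖ζ‖ := norm_pos_iff.mpr hζ0
  refine ⟨min r ‖ζ‖ / (‖η₀‖ + 1), by positivity, ?_⟩
  intro δ hδ hδ' y
  have hη1 : 0 < ‖η₀‖ + 1 := by positivity
  have hδη : δ * ‖η₀‖ < min r ‖ζ‖ := by
    have h1 : δ * (‖η₀‖ + 1) < min r ‖ζ‖ := (lt_div_iff₀ hη1).mp hδ'
    nlinarith [norm_nonneg η₀]
  have hnh : ‖δ • η₀‖ = δ * ‖η₀‖ := by
    rw [norm_smul, Real.norm_of_nonneg hδ.le]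
  have h_r : ‖δ • η₀‖ < r := by
    rw [hnh]; exact lt_of_lt_of_le hδη (min_le_left _ _)
  have h_z : ‖δ • η₀‖ < ‖ζ‖ := by
    rw [hnh]; exact lt_of_lt_of_le hδη (min_le_right _ _)
  have hne : ζ + δ • η₀ ≠ 0 := by
    intro h
    have : δ • η₀ = -ζ := by
      rw [eq_neg_iff_add_eq_zero, add_comm]; exact h
    rw [this, norm_neg] at h_z
    exact lt_irrefl _ h_z
  obtain ⟨-, hu1, hu2⟩ := hSC.uhat_spec hne
  set û := uhat N (ζ + δ • η₀) with hû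
  have hest : ‖û - uhat N ζ - Q (δ • η₀)‖ ≤ ε₁ * ‖δ • η₀‖ := by
    have := hball (y := δ • η₀) (by simpa [dist_eq_norm] using h_r)
    simpa [Real.norm_eq_abs] using this
  have hQ0 : Q (δ • η₀) = 0 := by rw [map_smul, hη, smul_zero]
  rw [hQ0, sub_zero, hnh] at hest
  have hin : ⟪η₀, û⟫ ≤ ‖η₀‖ * (ε₁ * (δ * ‖η₀‖)) := by
    have h1 : ⟪η₀, û⟫ = ⟪η₀, û - uhat N ζ⟫ := by
      rw [inner_sub_right, hu, sub_zero]
    rw [h1]
    calc ⟪η₀, û - uhat N ζ⟫ ≤ ‖η₀‖ * ‖û - uhat N ζ‖ := real_inner_le_norm _ _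
      _ ≤ ‖η₀‖ * (ε₁ * (δ * ‖η₀‖)) := mul_le_mul_of_nonneg_left hest (norm_nonneg _)
  have hdual : N.dual (ζ + δ • η₀) ≤ 1 + ε * δ ^ 2 := by
    rw [← hu2, inner_add_left, inner_smul_left]
    simp only [conj_trivial]
    have h1 : ⟪ζ, û⟫ ≤ 1 := by
      have := N.inner_le ζ û
      rwa [hζ, hu1, one_mul] at this
    have h2 : δ * ⟪η₀, û⟫ ≤ δ * (‖η₀‖ * (ε₁ * (δ * ‖η₀‖))) :=
      mul_le_mul_of_nonneg_left hin hδ.le
    have h3 : δ * (‖η₀‖ * (ε₁ * (δ * ‖η₀‖))) = (ε₁ * ‖η₀‖ ^ 2) * δ ^ 2 := by ring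
    have h4 : ε₁ * ‖η₀‖ ^ 2 ≤ ε := by
      rw [hε₁, div_mul_eq_mul_div, div_le_iff₀ (by positivity)]
      nlinarith [sq_nonneg ‖η₀‖]
    have h5 : (ε₁ * ‖η₀‖ ^ 2) * δ ^ 2 ≤ ε * δ ^ 2 :=
      mul_le_mul_of_nonneg_right h4 (by positivity)
    linarith
  calc ⟪ζ + δ • η₀, y⟫ ≤ N.dual (ζ + δ • η₀) * N y := N.inner_le _ _
    _ ≤ (1 + ε * δ ^ 2) * N y := mul_le_mul_of_nonneg_right hdual (N.nonneg _)

/-- A nonnegative function with a second order expansion has no linear term. -/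
theorem linear_coeff_zero {f : ℝ → ℝ} {κ C δ₀ : ℝ} (hδ₀ : 0 < δ₀) (hC : 0 ≤ C)
    (h0 : ∀ s : ℝ, |s| < δ₀ → 0 ≤ f s) (h : ∀ s : ℝ, |s| < δ₀ → f s - s * κ ≤ C * s ^ 2) :
    κ = 0 := by
  by_contra hne
  have hκpos : 0 < κ ^ 2 := by positivity
  obtain ⟨t, ht0, ht1, ht2⟩ : ∃ t : ℝ, 0 < t ∧ t ≤ δ₀ / (2 * (|κ| + 1)) ∧ t ≤ 1 / (2 * (C + 1)) :=
    ⟨min (δ₀ / (2 * (|κ| + 1))) (1 / (2 * (C + 1))), by positivity, min_le_left _ _,
      min_le_right _ _⟩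
  have hs : |(-κ) * t| < δ₀ := by
    rw [abs_mul, abs_neg, abs_of_pos ht0]
    have h3 : t * (2 * (|κ| + 1)) ≤ δ₀ := (le_div_iff₀ (by positivity)).mp ht1
    nlinarith [abs_nonneg κ]
  have h6 := h _ hs
  have h5 := h0 _ hs
  have h7 : C * t ≤ 1 / 2 := by
    have h3 : t * (2 * (C + 1)) ≤ 1 := (le_div_iff₀ (by positivity)).mp ht2
    nlinarith
  have h8 : (-κ * t) * κ + C * (-κ * t) ^ 2 = κ ^ 2 * t * (C * t - 1) := by ring
  have h9 : κ ^ 2 * t * (C * t - 1) < 0 := by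
    apply mul_neg_of_pos_of_neg (by positivity)
    linarith
  linarith

/-- The real number step of Lemma S. -/
theorem core_final {x C' D δ₀ B : ℝ} {Ls ins fs : ℝ → ℝ} (hδ₀ : 0 < δ₀) (hδ' : ∀ (ε : ℝ), 0 < ε →
      ∃ δ' : ℝ, 0 < δ' ∧ ∀ δ s : ℝ, 0 < δ → δ < δ' → |s| < δ₀ → 0 < s →
        δ * ins s ≤ fs s + ε * δ ^ 2 * Ls s)
    (hC' : 0 ≤ C') (hD0 : 0 ≤ D) (hB0 : 0 < B) (hx : 0 < x)
    (hLB : ∀ s : ℝ, |s| < δ₀ → |s| < 1 → Ls s ≤ B)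
    (hf : ∀ s : ℝ, |s| < δ₀ → fs s ≤ C' * s ^ 2)
    (hlow : ∀ s : ℝ, |s| < δ₀ → s * x - D * s ^ 2 ≤ ins s) : False := by
  obtain ⟨K, hK0, hKx⟩ : ∃ K : ℝ, 0 < K ∧ K * x = 2 * (C' + 1) :=
    ⟨2 * (C' + 1) / x, by positivity, by field_simp⟩
  obtain ⟨ε, hε0, hε⟩ : ∃ ε : ℝ, 0 < ε ∧ ε * (K ^ 2 * B) = 1 :=
    ⟨1 / (K ^ 2 * B), by positivity, by field_simp⟩
  obtain ⟨δ', hδ'0, hd⟩ := hδ' ε hε0
  obtain ⟨s, hs0, hs1, hs2, hs3, hs4⟩ : ∃ s : ℝ, 0 < s ∧ s ≤ δ₀ / 2 ∧ s ≤ 1 / 2 ∧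
      s ≤ δ' / (2 * K) ∧ s ≤ 1 / (2 * (K * D + 1)) :=
    ⟨min (min (δ₀ / 2) (1 / 2)) (min (δ' / (2 * K)) (1 / (2 * (K * D + 1)))), by positivity,
      (min_le_left _ _).trans (min_le_left _ _), (min_le_left _ _).trans (min_le_right _ _),
      (min_le_right _ _).trans (min_le_left _ _), (min_le_right _ _).trans (min_le_right _ _)⟩
  have habs : |s| = s := abs_of_pos hs0
  have hsδ : |s| < δ₀ := by rw [habs]; linarith
  have hs11 : |s| < 1 := by rw [habs]; linarith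
  have hKs : K * s < δ' := by
    have h3 : s * (2 * K) ≤ δ' := (le_div_iff₀ (by positivity)).mp hs3
    nlinarith
  have hKDs : K * D * s ≤ 1 / 2 := by
    have h3 : s * (2 * (K * D + 1)) ≤ 1 := (le_div_iff₀ (by positivity)).mp hs4
    nlinarith
  have hmain := hd (K * s) s (by positivity) hKs hsδ hs0
  have hLs := hLB s hsδ hs11
  have hLs' : ε * (K * s) ^ 2 * Ls s ≤ s ^ 2 := by
    have h1 : ε * (K * s) ^ 2 * Ls s ≤ ε * (K * s) ^ 2 * B :=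
      mul_le_mul_of_nonneg_left hLs (by positivity)
    have h2 : ε * (K * s) ^ 2 * B = (ε * (K ^ 2 * B)) * s ^ 2 := by ring
    rw [h2, hε, one_mul] at h1
    exact h1
  have hfs := hf s hsδ
  have h1 : K * s * (s * x - D * s ^ 2) ≤ K * s * ins s :=
    mul_le_mul_of_nonneg_left (hlow s hsδ) (by positivity)
  have h2 : K * s * (s * x - D * s ^ 2) = s ^ 2 * (K * x - K * D * s) := by ring
  have h3 : s ^ 2 * (K * x - K * D * s) ≤ s ^ 2 * (C' + 1) := by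
    rw [← h2]
    have : s ^ 2 * (C' + 1) = C' * s ^ 2 + s ^ 2 := by ring
    linarith
  have h4 : K * x - K * D * s ≤ C' + 1 := le_of_mul_le_mul_left h3 (by positivity)
  rw [hKx] at h4
  linarith

/-- The analytic core of Lemma S. -/
theorem core_ineq (N' : NF E) {ζ η₀ V₀ Vd : E} {V : ℝ → E} {L : ℝ → ℝ} {L₀ Ld C δ₀ : ℝ}
    (hδ₀ : 0 < δ₀) (hC : 0 ≤ C)
    (hV : ∀ s : ℝ, |s| < δ₀ → ‖V s - V₀ - s • Vd‖ ≤ C * s ^ 2)
    (hL : ∀ s : ℝ, |s| < δ₀ → |L s - L₀ - s * Ld| ≤ C * s ^ 2)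
    (hNV : ∀ s : ℝ, |s| < δ₀ → N' (V s) = L s)
    (hζ : N'.dual ζ = 1) (hζV₀ : ⟪ζ, V₀⟫ = L₀) (hηV₀ : ⟪η₀, V₀⟫ = 0)
    (hdual : ∀ ε : ℝ, 0 < ε → ∃ δ' : ℝ, 0 < δ' ∧ ∀ δ : ℝ, 0 < δ → δ < δ' → ∀ y : E,
      ⟪ζ + δ • η₀, y⟫ ≤ (1 + ε * δ ^ 2) * N' y) :
    ⟪η₀, Vd⟫ ≤ 0 := by
  by_contra hx
  push Not at hx
  have hle : ∀ s : ℝ, |s| < δ₀ → ⟪ζ, V s⟫ ≤ L s := by
    intro s hs
    have := N'.inner_le ζ (V s)
    rwa [hζ, one_mul, hNV s hs] at this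
  have hf : ∀ s : ℝ, |s| < δ₀ →
      (L s - ⟪ζ, V s⟫) - s * (Ld - ⟪ζ, Vd⟫) ≤ (C + ‖ζ‖ * C) * s ^ 2 := by
    intro s hs
    have h1 : (L s - ⟪ζ, V s⟫) - s * (Ld - ⟪ζ, Vd⟫) =
        (L s - L₀ - s * Ld) - ⟪ζ, V s - V₀ - s • Vd⟫ := by
      rw [inner_sub_right, inner_sub_right, inner_smul_right, hζV₀]
      ring
    rw [h1]
    have h2 : |⟪ζ, V s - V₀ - s • Vd⟫| ≤ ‖ζ‖ * (C * s ^ 2) :=
      (abs_real_inner_le_norm _ _).trans (mul_le_mul_of_nonneg_left (hV s hs) (norm_nonneg _))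
    have h3 := (abs_le.mp h2).1
    have h4 := (abs_le.mp (hL s hs)).2
    have h5 : (C + ‖ζ‖ * C) * s ^ 2 = C * s ^ 2 + ‖ζ‖ * (C * s ^ 2) := by ring
    linarith
  have hκ0 : Ld - ⟪ζ, Vd⟫ = 0 :=
    linear_coeff_zero hδ₀ (by positivity) (f := fun s => L s - ⟪ζ, V s⟫)
      (fun s hs => sub_nonneg.mpr (hle s hs)) hf
  have hf' : ∀ s : ℝ, |s| < δ₀ → L s - ⟪ζ, V s⟫ ≤ (C + ‖ζ‖ * C) * s ^ 2 := by
    intro s hs
    have := hf s hs
    rwa [hκ0, mul_zero, sub_zero] at this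
  refine core_final (x := ⟪η₀, Vd⟫) (C' := C + ‖ζ‖ * C) (D := ‖η₀‖ * C) (δ₀ := δ₀)
    (B := |L₀| + |Ld| + C + 1) (Ls := L) (ins := fun s => ⟪η₀, V s⟫)
    (fs := fun s => L s - ⟪ζ, V s⟫) hδ₀ ?_ (by positivity) (by positivity)
    (by positivity) hx ?_ hf' ?_
  · intro ε hε
    obtain ⟨δ', hδ', hd⟩ := hdual ε hε
    refine ⟨δ', hδ', ?_⟩
    intro δ s hδ hδlt hs _
    have hmain := hd δ hδ hδlt (V s)
    rw [inner_add_left, inner_smul_left, hNV s hs] at hmain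
    simp only [conj_trivial] at hmain
    have e : (1 + ε * δ ^ 2) * L s = L s + ε * δ ^ 2 * L s := by ring
    linarith
  · intro s hs hs1
    have h1 := (abs_le.mp (hL s hs)).2
    have h2 : s ^ 2 ≤ 1 := by
      rw [← sq_abs]; nlinarith [abs_nonneg s]
    have h3 : s * Ld ≤ |Ld| := by
      calc s * Ld ≤ |s * Ld| := le_abs_self _
        _ = |s| * |Ld| := abs_mul _ _
        _ ≤ 1 * |Ld| := mul_le_mul_of_nonneg_right hs1.le (abs_nonneg _)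
        _ = |Ld| := one_mul _
    have h4 : C * s ^ 2 ≤ C := by nlinarith
    have h5 : L₀ ≤ |L₀| := le_abs_self _
    linarith
  · intro s hs
    have h1 : ⟪η₀, V s⟫ = ⟪η₀, V s - V₀ - s • Vd⟫ + s * ⟪η₀, Vd⟫ := by
      rw [inner_sub_right, inner_sub_right, inner_smul_right, hηV₀]
      ring
    have h2 : -(‖η₀‖ * (C * s ^ 2)) ≤ ⟪η₀, V s - V₀ - s • Vd⟫ := by
      have := (abs_real_inner_le_norm η₀ (V s - V₀ - s • Vd)).trans
        (mul_le_mul_of_nonneg_left (hV s hs) (norm_nonneg _))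
      exact (abs_le.mp this).1
    have h3 : ‖η₀‖ * C * s ^ 2 = ‖η₀‖ * (C * s ^ 2) := by ring
    rw [h1, h3]
    linarith

/-- A path on the sphere with a second order expansion has an image with a second order
expansion. -/
theorem path_expansion {F : E → E} {A : E →L[ℝ] E} {N : NF E} {a w : E} {x : ℝ → E}
    {C₁ δ₁ C₂ δ₂ : ℝ} (hδ₁ : 0 < δ₁) (hδ₂ : 0 < δ₂) (hC₂ : 0 ≤ C₂)
    (h2 : ∀ z, N z = 1 → ‖z - a‖ < δ₁ → ‖F z - F a - A (z - a)‖ ≤ C₁ * ‖z - a‖ ^ 2)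
    (hx1 : ∀ s : ℝ, |s| < δ₂ → N (x s) = 1)
    (hx2 : ∀ s : ℝ, |s| < δ₂ → ‖x s - a - s • w‖ ≤ C₂ * s ^ 2) :
    ∃ C δ : ℝ, 0 < δ ∧ 0 ≤ C ∧ ∀ s : ℝ, |s| < δ → ‖F (x s) - F a - s • A w‖ ≤ C * s ^ 2 := by
  set M : ℝ := ‖w‖ + C₂ with hM
  have hM0 : 0 ≤ M := by positivity
  refine ⟨|C₁| * M ^ 2 + ‖A‖ * C₂, min (min δ₂ 1) (δ₁ / (M + 1)), by positivity, by positivity, ?_⟩
  intro s hs
  have hs1 : |s| < δ₂ := lt_of_lt_of_le hs ((min_le_left _ _).trans (min_le_left _ _))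
  have hs2 : |s| < 1 := lt_of_lt_of_le hs ((min_le_left _ _).trans (min_le_right _ _))
  have hs3 : |s| < δ₁ / (M + 1) := lt_of_lt_of_le hs (min_le_right _ _)
  have hsq : s ^ 2 = |s| * |s| := by rw [← sq_abs]; ring
  have hbd : ‖x s - a‖ ≤ |s| * M := by
    have h1 : x s - a = (x s - a - s • w) + s • w := by abel
    rw [h1]
    calc ‖(x s - a - s • w) + s • w‖ ≤ ‖x s - a - s • w‖ + ‖s • w‖ := norm_add_le _ _
      _ ≤ C₂ * s ^ 2 + |s| * ‖w‖ := by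
          refine add_le_add (hx2 s hs1) ?_
          rw [norm_smul, Real.norm_eq_abs]
      _ ≤ |s| * M := by
          rw [hM, hsq]
          have : C₂ * (|s| * |s|) ≤ C₂ * (|s| * 1) :=
            mul_le_mul_of_nonneg_left
              (mul_le_mul_of_nonneg_left hs2.le (abs_nonneg _)) hC₂
          nlinarith
  have hlt : ‖x s - a‖ < δ₁ := by
    have h3 : |s| * (M + 1) < δ₁ := (lt_div_iff₀ (by positivity)).mp hs3
    nlinarith [abs_nonneg s]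
  have h3 := h2 _ (hx1 s hs1) hlt
  have hsplit : F (x s) - F a - s • A w =
      (F (x s) - F a - A (x s - a)) + A (x s - a - s • w) := by
    rw [map_sub A (x s - a) (s • w), map_smul]; abel
  rw [hsplit]
  have h4 : ‖x s - a‖ ^ 2 ≤ (|s| * M) ^ 2 := by
    exact pow_le_pow_left₀ (norm_nonneg _) hbd 2
  calc ‖(F (x s) - F a - A (x s - a)) + A (x s - a - s • w)‖
      ≤ ‖F (x s) - F a - A (x s - a)‖ + ‖A (x s - a - s • w)‖ := norm_add_le _ _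
    _ ≤ C₁ * ‖x s - a‖ ^ 2 + ‖A‖ * (C₂ * s ^ 2) := by
        refine add_le_add h3 ?_
        exact (A.le_opNorm _).trans (mul_le_mul_of_nonneg_left (hx2 s hs1) (norm_nonneg _))
    _ ≤ |C₁| * (|s| * M) ^ 2 + ‖A‖ * (C₂ * s ^ 2) := by
        refine add_le_add ?_ le_rfl
        calc C₁ * ‖x s - a‖ ^ 2 ≤ |C₁| * ‖x s - a‖ ^ 2 :=
              mul_le_mul_of_nonneg_right (le_abs_self _) (by positivity)
          _ ≤ |C₁| * (|s| * M) ^ 2 := mul_le_mul_of_nonneg_left h4 (abs_nonneg _)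
    _ = (|C₁| * M ^ 2 + ‖A‖ * C₂) * s ^ 2 := by
        rw [mul_pow, sq_abs]; ring

/-- The projection along the chord direction. -/
noncomputable def chordP (φ u e : E) : E := e - ((⟪φ, u⟫)⁻¹ * ⟪φ, e⟫) • u

omit [MeasurableSpace E] [BorelSpace E] in
theorem chordP_neg (φ u e : E) : chordP φ u (-e) = -chordP φ u e := by
  simp only [chordP, inner_neg_right]
  rw [mul_neg, neg_smul]
  abel

/-- The line picture of a chord: geometry of the two end points. -/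
theorem chord_line (R : RadIso N N') (hSC : StrictC N) {a b ξ ζ : E} (c : Chord R a b ξ ζ) :
    0 < N (b - a) ∧ N (cu N a b) = 1 ∧ cu N a b ≠ 0 ∧ b = a + N (b - a) • cu N a b ∧
      ⟪grad N a, cu N a b⟫ < 0 ∧ 0 < ⟪grad N b, cu N a b⟫ ∧
      hits N (cu N a b) (a + (N (b - a) / 2) • cu N a b) ∧
      entryPt N (cu N a b) (a + (N (b - a) / 2) • cu N a b) = a ∧
      exitPt N (cu N a b) (a + (N (b - a) / 2) • cu N a b) = b ∧
      tm N (cu N a b) (a + (N (b - a) / 2) • cu N a b) = N (b - a) / 2 ∧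
      tp N (cu N a b) (a + (N (b - a) / 2) • cu N a b) = N (b - a) / 2 := by
  have hba : b - a ≠ 0 := sub_ne_zero.mpr c.hab.symm
  have hL : 0 < N (b - a) := N.pos _ hba
  set L := N (b - a) with hLdef
  set u := cu N a b with hu
  have hu1 : N u = 1 := by
    rw [hu, cu, N.smul_eq, abs_of_pos (inv_pos.mpr hL), ← hLdef, inv_mul_cancel₀ hL.ne']
  have hu0 : u ≠ 0 := by
    intro h
    rw [h, NF.map_zero'] at hu1
    norm_num at hu1
  have hb : b = a + L • u := by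
    rw [hu, cu, smul_smul, ← hLdef, mul_inv_cancel₀ hL.ne', one_smul]
    abel
  obtain ⟨ha0, -, -, hda, -, -, -⟩ := c.ga
  obtain ⟨hb0, -, -, hdb, -, -, -⟩ := c.gb
  obtain ⟨-, hφa1, hφa2⟩ := N.grad_spec ha0 hda
  obtain ⟨-, hφb1, hφb2⟩ := N.grad_spec hb0 hdb
  rw [c.ha] at hφa2
  rw [c.hb] at hφb2
  have h1 : ⟪grad N a, b⟫ < 1 :=
    hSC.inner_lt c.ha c.hb c.hab hφa1.le hφa2
  have h2 : ⟪grad N b, a⟫ < 1 :=
    hSC.inner_lt c.hb c.ha c.hab.symm hφb1.le hφb2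
  have hua : ⟪grad N a, u⟫ < 0 := by
    rw [hu, cu, inner_smul_right, inner_sub_right, hφa2]
    apply mul_neg_of_pos_of_neg (inv_pos.mpr hL)
    linarith
  have hub : 0 < ⟪grad N b, u⟫ := by
    rw [hu, cu, inner_smul_right, inner_sub_right, hφb2]
    apply mul_pos (inv_pos.mpr hL)
    linarith
  obtain ⟨hha, htma, hea⟩ := entry_of_grad_neg N c.ha hda hua
  have hub' : ⟪grad N b, -u⟫ < 0 := by
    rw [inner_neg_right]; linarith
  obtain ⟨-, htmb, heb⟩ := entry_of_grad_neg N c.hb hdb hub'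
  rw [tm_neg] at htmb
  rw [entryPt_neg] at heb
  have hz : hits N u (a + (L / 2) • u) := (hits_add N u a (L / 2)).mpr hha
  have hbz : b = (a + (L / 2) • u) + (L / 2) • u := by
    rw [hb, add_assoc, ← add_smul]
    congr 2
    ring
  have hexit : exitPt N u (a + (L / 2) • u) = b := by
    have := exitPt_add N hu0 hz (L / 2)
    rw [← hbz, heb] at this
    exact this.symm
  have htp : tp N u (a + (L / 2) • u) = L / 2 := by
    have := tp_add N hu0 hz (L / 2)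
    rw [← hbz, htmb] at this
    linarith
  have hentry : entryPt N u (a + (L / 2) • u) = a := by
    rw [entryPt_add N hu0 hha, hea]
  have htm : tm N u (a + (L / 2) • u) = L / 2 := by
    rw [tm_add N hu0 hha, htma, zero_add]
  exact ⟨hL, hu1, hu0, hb, hua, hub, hz, hentry, hexit, htm, htp⟩

/-- The abstract family of chords. -/
theorem family_core (R : RadIso N N') {a b u z₀ e wa wb : E} {L₀ α β K₁ K₂ Ca Cb δa δb δ₃ : ℝ}
    {ta tb : ℝ → ℝ} (haz : a = z₀ - (L₀ / 2) • u) (hbz : b = z₀ + (L₀ / 2) • u)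
    (hu1 : N u = 1) (hδ₃ : 0 < δ₃) (hK₁ : 0 ≤ K₁) (hK₂ : 0 ≤ K₂)
    (hwa : wa = e - α • u) (hwb : wb = e - β • u)
    (hδa : 0 < δa) (hδb : 0 < δb)
    (hsa : ∀ z, N z = 1 → ‖z - a‖ < δa →
      ‖R.F z - R.F a - fderiv ℝ R.F a (z - a)‖ ≤ Ca * ‖z - a‖ ^ 2)
    (hsb : ∀ z, N z = 1 → ‖z - b‖ < δb →
      ‖R.F z - R.F b - fderiv ℝ R.F b (z - b)‖ ≤ Cb * ‖z - b‖ ^ 2)
    (hxa1 : ∀ s : ℝ, |s| < δ₃ → N (z₀ + s • e - ta s • u) = 1)
    (hxb1 : ∀ s : ℝ, |s| < δ₃ → N (z₀ + s • e + tb s • u) = 1)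
    (hpos : ∀ s : ℝ, |s| < δ₃ → 0 < ta s + tb s)
    (hta : ∀ s : ℝ, |s| < δ₃ → |ta s - L₀ / 2 - s * α| ≤ K₁ * s ^ 2)
    (htb : ∀ s : ℝ, |s| < δ₃ → |tb s - L₀ / 2 + s * β| ≤ K₂ * s ^ 2) :
    ∃ (V : ℝ → E) (L : ℝ → ℝ) (Ld C δ : ℝ), 0 < δ ∧ 0 ≤ C ∧
      (∀ s : ℝ, |s| < δ → ‖V s - (R.F b - R.F a) -
        s • (fderiv ℝ R.F b wb - fderiv ℝ R.F a wa)‖ ≤ C * s ^ 2) ∧
      (∀ s : ℝ, |s| < δ → |L s - L₀ - s * Ld| ≤ C * s ^ 2) ∧
      (∀ s : ℝ, |s| < δ → N' (V s) = L s) := by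
  have hxa2 : ∀ s : ℝ, |s| < δ₃ →
      ‖(z₀ + s • e - ta s • u) - a - s • wa‖ ≤ (K₁ * ‖u‖) * s ^ 2 := by
    intro s hs
    have h1 : (z₀ + s • e - ta s • u) - a - s • wa = (-(ta s - L₀ / 2 - s * α)) • u := by
      rw [haz, hwa]; module
    rw [h1, norm_smul, norm_neg, Real.norm_eq_abs]
    calc |ta s - L₀ / 2 - s * α| * ‖u‖ ≤ (K₁ * s ^ 2) * ‖u‖ :=
          mul_le_mul_of_nonneg_right (hta s hs) (norm_nonneg _)
      _ = (K₁ * ‖u‖) * s ^ 2 := by ring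
  have hxb2 : ∀ s : ℝ, |s| < δ₃ →
      ‖(z₀ + s • e + tb s • u) - b - s • wb‖ ≤ (K₂ * ‖u‖) * s ^ 2 := by
    intro s hs
    have h1 : (z₀ + s • e + tb s • u) - b - s • wb = (tb s - L₀ / 2 + s * β) • u := by
      rw [hbz, hwb]; module
    rw [h1, norm_smul, Real.norm_eq_abs]
    calc |tb s - L₀ / 2 + s * β| * ‖u‖ ≤ (K₂ * s ^ 2) * ‖u‖ :=
          mul_le_mul_of_nonneg_right (htb s hs) (norm_nonneg _)
      _ = (K₂ * ‖u‖) * s ^ 2 := by ring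
  obtain ⟨Ca', δa', hδa', hCa', hFa⟩ := path_expansion (F := R.F) (A := fderiv ℝ R.F a) (N := N)
    (x := fun s => z₀ + s • e - ta s • u) hδa hδ₃ (by positivity) hsa hxa1 hxa2
  obtain ⟨Cb', δb', hδb', hCb', hFb⟩ := path_expansion (F := R.F) (A := fderiv ℝ R.F b) (N := N)
    (x := fun s => z₀ + s • e + tb s • u) hδb hδ₃ (by positivity) hsb hxb1 hxb2
  refine ⟨fun s => R.F (z₀ + s • e + tb s • u) - R.F (z₀ + s • e - ta s • u),
    fun s => ta s + tb s, α - β, Ca' + Cb' + (K₁ + K₂),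
    min (min δa' δb') δ₃, by positivity, by positivity, ?_, ?_, ?_⟩
  · intro s hs
    have hs1 : |s| < δa' := lt_of_lt_of_le hs ((min_le_left _ _).trans (min_le_left _ _))
    have hs2 : |s| < δb' := lt_of_lt_of_le hs ((min_le_left _ _).trans (min_le_right _ _))
    have hsplit : (R.F (z₀ + s • e + tb s • u) - R.F (z₀ + s • e - ta s • u)) - (R.F b - R.F a) -
        s • (fderiv ℝ R.F b wb - fderiv ℝ R.F a wa) =
        (R.F (z₀ + s • e + tb s • u) - R.F b - s • fderiv ℝ R.F b wb) -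
        (R.F (z₀ + s • e - ta s • u) - R.F a - s • fderiv ℝ R.F a wa) := by
      rw [smul_sub]; abel
    simp only []
    rw [hsplit]
    refine (norm_sub_le _ _).trans ?_
    have h3 := hFb s hs2
    have h4 := hFa s hs1
    have h5 : 0 ≤ (K₁ + K₂) * s ^ 2 := by positivity
    have h6 : (Ca' + Cb' + (K₁ + K₂)) * s ^ 2 = Cb' * s ^ 2 + Ca' * s ^ 2 + (K₁ + K₂) * s ^ 2 := by
      ring
    rw [h6]
    linarith
  · intro s hs
    have hs3 : |s| < δ₃ := lt_of_lt_of_le hs (min_le_right _ _)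
    have h1 := hta s hs3
    have h2 := htb s hs3
    have hsplit : ta s + tb s - L₀ - s * (α - β) =
        (ta s - L₀ / 2 - s * α) + (tb s - L₀ / 2 + s * β) := by ring
    simp only []
    rw [hsplit]
    refine (abs_add_le _ _).trans ?_
    have h5 : 0 ≤ (Ca' + Cb') * s ^ 2 := by positivity
    have h6 : (Ca' + Cb' + (K₁ + K₂)) * s ^ 2 = (Ca' + Cb') * s ^ 2 + K₁ * s ^ 2 + K₂ * s ^ 2 := by
      ring
    rw [h6]
    linarith
  · intro s hs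
    have hs3 : |s| < δ₃ := lt_of_lt_of_le hs (min_le_right _ _)
    simp only []
    rw [R.iso _ _ (hxb1 s hs3) (hxa1 s hs3)]
    have hdiff : (z₀ + s • e + tb s • u) - (z₀ + s • e - ta s • u) = (ta s + tb s) • u := by
      module
    rw [hdiff, N.smul_eq, hu1, mul_one, abs_of_pos (hpos s hs3)]

/-- The family of chords parallel to a given chord, near the chord: second order expansions. -/
theorem chord_family (R : RadIso N N') (hSC : StrictC N) {a b ξ ζ : E} (c : Chord R a b ξ ζ)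
    (e : E) :
    ∃ (V : ℝ → E) (L : ℝ → ℝ) (Ld C δ : ℝ), 0 < δ ∧ 0 ≤ C ∧
      (∀ s : ℝ, |s| < δ → ‖V s - (R.F b - R.F a) -
        s • (fderiv ℝ R.F b (chordP (grad N b) (cu N a b) e) -
          fderiv ℝ R.F a (chordP (grad N a) (cu N a b) e))‖ ≤ C * s ^ 2) ∧
      (∀ s : ℝ, |s| < δ → |L s - N (b - a) - s * Ld| ≤ C * s ^ 2) ∧
      (∀ s : ℝ, |s| < δ → N' (V s) = L s) := by
  obtain ⟨hL, hu1, hu0, hb, hua, hub, hz, hentry, hexit, htm, htp⟩ := chord_line R hSC c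
  obtain ⟨ha0, -, -, hda, -, hUa, -⟩ := c.ga
  obtain ⟨hb0, -, -, hdb, -, hUb, -⟩ := c.gb
  obtain ⟨Ca, δa, hδa, hsa⟩ := second_order R hSC c.ga c.ha
  obtain ⟨Cb, δb, hδb, hsb⟩ := second_order R hSC c.gb c.hb
  generalize hL₀ : N (b - a) = L₀ at *
  generalize hu : cu N a b = u at *
  generalize hz₀ : a + (L₀ / 2) • u = z₀ at *
  -- first order control of the two end times
  obtain ⟨C₁, δ₁, hδ₁, h₁⟩ := tm_second N hu0 hz (by rw [hentry]; exact hda) (by rw [hentry]; exact hUa)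
  obtain ⟨C₂, δ₂, hδ₂, h₂⟩ := tp_second N hu0 hz (by rw [hexit]; exact hdb) (by rw [hexit]; exact hUb)
  rw [hentry, htm] at h₁
  rw [hexit, htp] at h₂
  have haz : a = z₀ - (L₀ / 2) • u := by rw [← hz₀]; module
  have hbz : b = z₀ + (L₀ / 2) • u := by rw [← hz₀, hb]; module
  have hz₀ball : N z₀ < 1 := by
    have hmid : z₀ = (1 / 2 : ℝ) • (a + b) := by rw [← hz₀, hb]; module
    rw [hmid]
    exact hSC a b c.ha c.hb c.hab
  have hNe : 0 < N e + 1 := by have := N.nonneg e; linarith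
  have hd₁0 : 0 < (1 - N z₀) / (N e + 1) := div_pos (by linarith) hNe
  obtain ⟨δ₃, hδ₃0, hs_ball, hs_1, hs_2⟩ : ∃ δ₃ : ℝ, 0 < δ₃ ∧ (∀ s : ℝ, |s| < δ₃ → N (z₀ + s • e) < 1) ∧
      (∀ s : ℝ, |s| < δ₃ → ‖s • e‖ < δ₁) ∧ (∀ s : ℝ, |s| < δ₃ → ‖s • e‖ < δ₂) := by
    refine ⟨min (min ((1 - N z₀) / (N e + 1)) (δ₁ / (‖e‖ + 1))) (δ₂ / (‖e‖ + 1)), by positivity,
      ?_, ?_, ?_⟩
    · intro s hs
      have h1 : |s| < (1 - N z₀) / (N e + 1) :=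
        lt_of_lt_of_le hs ((min_le_left _ _).trans (min_le_left _ _))
      have h2 : |s| * (N e + 1) < 1 - N z₀ := (lt_div_iff₀ hNe).mp h1
      have h3 := N.add_le z₀ (s • e)
      rw [N.smul_eq] at h3
      nlinarith [abs_nonneg s]
    · intro s hs
      have h1 : |s| < δ₁ / (‖e‖ + 1) :=
        lt_of_lt_of_le hs ((min_le_left _ _).trans (min_le_right _ _))
      have h2 : |s| * (‖e‖ + 1) < δ₁ := (lt_div_iff₀ (by positivity)).mp h1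
      rw [norm_smul, Real.norm_eq_abs]
      nlinarith [abs_nonneg s]
    · intro s hs
      have h1 : |s| < δ₂ / (‖e‖ + 1) := lt_of_lt_of_le hs (min_le_right _ _)
      have h2 : |s| * (‖e‖ + 1) < δ₂ := (lt_div_iff₀ (by positivity)).mp h1
      rw [norm_smul, Real.norm_eq_abs]
      nlinarith [abs_nonneg s]
  have hs_hits : ∀ s : ℝ, |s| < δ₃ → hits N u (z₀ + s • e) := fun s hs =>
    hits_of_mem_ball N (hs_ball s hs)
  refine family_core R (z₀ := z₀) (e := e) (u := u) (L₀ := L₀)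
    (α := (⟪grad N a, u⟫)⁻¹ * ⟪grad N a, e⟫) (β := (⟪grad N b, u⟫)⁻¹ * ⟪grad N b, e⟫)
    (K₁ := |C₁| * ‖e‖ ^ 2) (K₂ := |C₂| * ‖e‖ ^ 2)
    (ta := fun s => tm N u (z₀ + s • e)) (tb := fun s => tp N u (z₀ + s • e))
    haz hbz hu1 hδ₃0 (by positivity) (by positivity) rfl rfl hδa hδb hsa hsb ?_ ?_ ?_ ?_ ?_
  · intro s hs
    exact norm_entryPt N hu0 (hs_hits s hs)
  · intro s hs
    exact norm_exitPt N hu0 (hs_hits s hs)
  · intro s hs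
    exact len_pos N hu0 (hs_hits s hs)
  · intro s hs
    have hn : ‖s • e‖ = |s| * ‖e‖ := by rw [norm_smul, Real.norm_eq_abs]
    have := h₁ (s • e) (hs_1 s hs)
    have he : ⟪grad N a, s • e⟫ / ⟪grad N a, u⟫ = s * ((⟪grad N a, u⟫)⁻¹ * ⟪grad N a, e⟫) := by
      rw [inner_smul_right]
      field_simp
    rw [he, hn] at this
    refine this.trans ?_
    calc C₁ * (|s| * ‖e‖) ^ 2 ≤ |C₁| * (|s| * ‖e‖) ^ 2 :=
          mul_le_mul_of_nonneg_right (le_abs_self _) (by positivity)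
      _ = |C₁| * ‖e‖ ^ 2 * s ^ 2 := by rw [mul_pow, sq_abs]; ring
  · intro s hs
    have hn : ‖s • e‖ = |s| * ‖e‖ := by rw [norm_smul, Real.norm_eq_abs]
    have := h₂ (s • e) (hs_2 s hs)
    have he : ⟪grad N b, s • e⟫ / ⟪grad N b, u⟫ = s * ((⟪grad N b, u⟫)⁻¹ * ⟪grad N b, e⟫) := by
      rw [inner_smul_right]
      field_simp
    rw [he, hn] at this
    refine this.trans ?_
    calc C₂ * (|s| * ‖e‖) ^ 2 ≤ |C₂| * (|s| * ‖e‖) ^ 2 :=
          mul_le_mul_of_nonneg_right (le_abs_self _) (by positivity)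
      _ = |C₂| * ‖e‖ ^ 2 * s ^ 2 := by rw [mul_pow, sq_abs]; ring

/-- Lemma S: the range of `M1 - M0` lies in the range of `Q'`. -/
theorem lemma_S (R : RadIso N N') (hSC : StrictC N)
    {a b ξ ζ : E} (c : Chord R a b ξ ζ)
    {Q' : E →L[ℝ] E} (hQ' : HasFDerivAt (uhat N') Q' ζ) (hQ's : ∀ v w, ⟪Q' v, w⟫ = ⟪v, Q' w⟫)
    {η : E} (hη : Q' η = 0) :
    ContinuousLinearMap.adjoint (M1 R a b ξ ζ) η = ContinuousLinearMap.adjoint (M0 R a b ξ ζ) η := by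
  have hSC' : StrictC N' := R.strictC hSC
  obtain ⟨hL, hu1, hu0, hb, hua, hub, -⟩ := chord_line R hSC c
  have hζ0 : ζ ≠ 0 := by
    intro h
    have := c.hζ
    rw [h, NF.map_zero'] at this
    norm_num at this
  set L := N (b - a) with hLdef
  set u := cu N a b with hu
  set u' := cu' R a b with hu'
  have hiso : N' (R.F b - R.F a) = L := R.iso _ _ c.hb c.ha
  have hu'1 : N' u' = 1 := by
    rw [hu', cu', N'.smul_eq, abs_of_pos (inv_pos.mpr hL), hiso, inv_mul_cancel₀ hL.ne']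
  have hζu' : ⟪ζ, u'⟫ = 1 := by
    rw [hu', cu', inner_smul_right, c.hζu, ← hLdef, inv_mul_cancel₀ hL.ne']
  have huhat : u' = uhat N' ζ := hSC'.uhat_unique hζ0 hu'1 (by rw [hζu', c.hζ])
  have hQζ : Q' ζ = 0 := (AlexAt_kill hζ0 hQ' hQ's).1
  set η₀ : E := η - ⟪η, u'⟫ • ζ with hη₀
  have hQη₀ : Q' η₀ = 0 := by
    rw [hη₀, map_sub, map_smul, hη, hQζ, smul_zero, sub_zero]
  have hη₀u' : ⟪η₀, u'⟫ = 0 := by
    rw [hη₀, inner_sub_left, inner_smul_left, hζu']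
    simp
  have hV₀ : R.F b - R.F a = L • u' := by
    rw [hu', cu', smul_smul, ← hLdef, mul_inv_cancel₀ hL.ne', one_smul]
  have hdual := fun (ε : ℝ) (hε : 0 < ε) =>
    dual_second hSC' c.hζ hQ' hQη₀ (by rw [← huhat]; exact hη₀u') hε
  -- the key inequality in all directions
  have hkey : ∀ e : E, ⟪η₀, fderiv ℝ R.F b (chordP (grad N b) u e) -
      fderiv ℝ R.F a (chordP (grad N a) u e)⟫ ≤ 0 := by
    intro e
    obtain ⟨V, Ls, Ld, C, δ, hδ, hC, hV, hLs, hNV⟩ := chord_family R hSC c e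
    refine core_ineq N' hδ hC hV hLs hNV c.hζ ?_ ?_ hdual
    · exact c.hζu
    · rw [hV₀, inner_smul_right, hη₀u', mul_zero]
  have hkey0 : ∀ e : E, ⟪η₀, fderiv ℝ R.F b (chordP (grad N b) u e) -
      fderiv ℝ R.F a (chordP (grad N a) u e)⟫ = 0 := by
    intro e
    apply le_antisymm (hkey e)
    have := hkey (-e)
    simp only [chordP_neg, map_neg, inner_sub_right, inner_neg_right] at this ⊢
    linarith
  -- the algebra
  apply ext_inner_right ℝ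
  intro h
  rw [ContinuousLinearMap.adjoint_inner_left, ContinuousLinearMap.adjoint_inner_left]
  have hM : ∀ A : E →L[ℝ] E, ∀ φ : E, ⟪η, Mop A φ u u' ξ ζ h⟫ =
      ⟪η₀, A (chordP φ u h)⟫ + ⟪ξ, h⟫ * ⟪η, u'⟫ := by
    intro A φ
    rw [Mop_apply', hη₀, inner_add_right, inner_sub_right, inner_sub_left, inner_smul_right,
      inner_smul_right, inner_smul_left]
    simp only [chordP, conj_trivial]
    ring
  have h1 : ⟪η, M1 R a b ξ ζ h⟫ = ⟪η₀, fderiv ℝ R.F b (chordP (grad N b) u h)⟫ + ⟪ξ, h⟫ * ⟪η, u'⟫ :=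
    hM _ _
  have h0 : ⟪η, M0 R a b ξ ζ h⟫ = ⟪η₀, fderiv ℝ R.F a (chordP (grad N a) u h)⟫ + ⟪ξ, h⟫ * ⟪η, u'⟫ :=
    hM _ _
  rw [h1, h0]
  have := hkey0 h
  rw [inner_sub_right] at this
  linarith

end Vale.Agent.Lib.P084T
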