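import Vale.Agent.Lib.P084T.Basic

set_option linter.unusedSectionVars false

/-! # P084T part A1. See `notes/P084_blueprint.md`, section A1. -/

open MeasureTheory Set Filter Topology
open scoped RealInnerProductSpace ENNReal NNReal

namespace Vale.Agent.Lib.P084T

variable {E : Type*} [NormedAddCommGroup E] [InnerProductSpace ℝ E] [FiniteDimensional ℝ E]
  [CompleteSpace E] [MeasurableSpace E] [BorelSpace E]
variable {N N' : NF E}

theorem NF.ball_eq (N : NF E) : N.ball = {x | N x < 1} := rfl

/-- The duality inequality. -/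
theorem NF.inner_le (N : NF E) (ξ x : E) : ⟪ξ, x⟫ ≤ N.dual ξ * N x := N.inner_le_dualFun_mul ξ x

/-- The closed unit ball of a norm function is compact. -/
private lemma NF_isCompact_unit (N : NF E) : IsCompact {x | N x ≤ 1} := by
  obtain ⟨C, hC, h⟩ := N.exists_bounds
  have hcl : IsClosed {x | N x ≤ 1} := isClosed_le N.continuous continuous_const
  refine (ProperSpace.isCompact_closedBall (0 : E) C).of_isClosed_subset hcl (fun x hx => ?_)
  have hx' : N x ≤ 1 := hx
  rw [mem_closedBall_zero_iff]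
  have := (h x).2
  have h2 : C * N x ≤ C * 1 := mul_le_mul_of_nonneg_left hx' hC.le
  linarith

/-- Every nonzero functional attains its dual norm on the unit sphere. -/
theorem NF.exists_norming_vec (N : NF E) {ξ : E} (hξ : ξ ≠ 0) :
    ∃ x, N x = 1 ∧ ⟪ξ, x⟫ = N.dual ξ := by
  have hc : IsCompact {x | N x ≤ 1} := NF_isCompact_unit N
  have hne : ({x | N x ≤ 1} : Set E).Nonempty := ⟨0, by simp [N.map_zero']⟩
  obtain ⟨x, hx, hmax⟩ := hc.exists_isMaxOn hne
    (f := fun x => ⟪ξ, x⟫) (continuous_const.inner continuous_id).continuousOn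
  have hdual : N.dual ξ = ⟪ξ, x⟫ := by
    apply le_antisymm
    · show N.dualFun ξ ≤ _
      refine csSup_le ⟨_, 0, by simp [N.map_zero'], rfl⟩ ?_
      rintro _ ⟨y, hy, rfl⟩
      exact hmax hy
    · have := N.inner_le ξ x
      have hx' : N x ≤ 1 := hx
      have h0 : 0 ≤ N.dual ξ := N.dual.nonneg ξ
      nlinarith
  have hpos : 0 < N.dual ξ := N.dual.pos ξ hξ
  have hx0 : x ≠ 0 := by
    intro h
    rw [h, inner_zero_right] at hdual
    linarith
  have hx1 : N x = 1 := by
    apply le_antisymm hx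
    have := N.inner_le ξ x
    rw [← hdual] at this
    by_contra hlt
    have hlt' : N x < 1 := not_le.mp hlt
    nlinarith
  exact ⟨x, hx1, hdual.symm⟩

/-- (Hahn-Banach) Every nonzero vector has a norming functional. -/
theorem NF.exists_norming_fun (N : NF E) {x : E} (hx : x ≠ 0) :
    ∃ ξ, N.dual ξ = 1 ∧ ⟪ξ, x⟫ = N x := by
  -- the functional on the line
  let f : E →ₗ.[ℝ] ℝ := LinearPMap.mkSpanSingleton (K := ℝ) (L := ℝ) (σ := RingHom.id ℝ) x (N x) hx
  have hval : ∀ (c : ℝ) (hy : c • x ∈ f.domain), f ⟨c • x, hy⟩ = c * N x := by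
    intro c hy
    have := LinearPMap.mkSpanSingleton'_apply (σ := RingHom.id ℝ) x (N x)
      (fun c hc => (smul_eq_zero.1 hc).elim (fun hc => by rw [hc, RingHom.map_zero, zero_smul])
        fun hx' => absurd hx' hx) c hy
    exact this.trans (by simp [smul_eq_mul])
  have hf : ∀ y : f.domain, f y ≤ N (y : E) := by
    rintro ⟨y, hy⟩
    obtain ⟨c, rfl⟩ := Submodule.mem_span_singleton.mp hy
    rw [hval c hy, N.smul_eq]
    exact mul_le_mul_of_nonneg_right (le_abs_self c) (N.nonneg x)
  obtain ⟨g, hg1, hg2⟩ := exists_extension_of_le_sublinear f (fun y => N y)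
    (fun c hc y => by
      show N (c • y) = c * N y
      rw [N.smul_eq, abs_of_pos hc])
    (fun y z => N.add_le y z)
    hf
  -- Riesz
  let g' : StrongDual ℝ E := g.toContinuousLinearMap
  let ξ := (InnerProductSpace.toDual ℝ E).symm g'
  have hξ : ∀ y, ⟪ξ, y⟫ = g y := by
    intro y
    simp [ξ, g']
  have hgx : g x = N x := by
    have hm : (1 : ℝ) • x ∈ f.domain := by
      rw [one_smul]
      exact Submodule.mem_span_singleton_self x
    have h1 := hg1 ⟨(1 : ℝ) • x, hm⟩
    rw [hval 1 hm] at h1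
    simpa using h1
  refine ⟨ξ, ?_, by rw [hξ, hgx]⟩
  apply le_antisymm
  · show N.dualFun ξ ≤ 1
    refine csSup_le ⟨_, 0, by simp [N.map_zero'], rfl⟩ ?_
    rintro _ ⟨y, hy, rfl⟩
    simp only
    rw [hξ]
    exact (hg2 y).trans hy
  · have h1 := N.inner_le ξ x
    rw [hξ, hgx] at h1
    have hp := N.pos x hx
    nlinarith

/-- The bidual. -/
theorem NF.dual_dual (N : NF E) (x : E) : N.dual.dual x = N x := by
  by_cases hx : x = 0
  · rw [hx, N.map_zero', N.dual.dual.map_zero']
  apply le_antisymm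
  · show N.dual.dualFun x ≤ N x
    refine csSup_le ⟨_, 0, by simp [N.dual.map_zero'], rfl⟩ ?_
    rintro _ ⟨ξ, hξ, rfl⟩
    simp only
    have hξ' : N.dual ξ ≤ 1 := hξ
    rw [real_inner_comm]
    refine (N.inner_le ξ x).trans ?_
    have := N.nonneg x
    nlinarith
  · obtain ⟨ξ, hξ1, hξx⟩ := N.exists_norming_fun hx
    have := N.dual.inner_le x ξ
    rw [real_inner_comm, hξx, hξ1, mul_one] at this
    exact this

theorem NF.norm_rad (N : NF E) {z : E} (hz : z ≠ 0) : N (rad N z) = 1 := by
  have hp := N.pos z hz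
  unfold rad
  rw [N.smul_eq, abs_of_pos (inv_pos.mpr hp), inv_mul_cancel₀ hp.ne']

theorem NF.rad_smul (N : NF E) {c : ℝ} (hc : 0 < c) (z : E) : rad N (c • z) = rad N z := by
  unfold rad
  rw [N.smul_eq, abs_of_pos hc, smul_smul, mul_inv]
  congr 1
  field_simp

theorem NF.rad_rad (N : NF E) {z : E} (hz : z ≠ 0) : rad N (rad N z) = rad N z := by
  have h := N.norm_rad hz
  show (N (rad N z))⁻¹ • rad N z = rad N z
  rw [h, inv_one, one_smul]

theorem NF.continuousOn_rad (N : NF E) : ContinuousOn (rad N) {0}ᶜ := by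
  unfold rad
  refine ContinuousOn.smul (ContinuousOn.inv₀ N.continuous.continuousOn ?_) continuousOn_id
  intro x hx
  exact (N.pos x hx).ne'

theorem NF.measurable_rad (N : NF E) : Measurable (rad N) := by
  unfold rad
  exact (N.continuous.measurable.inv).smul measurable_id

end Vale.Agent.Lib.P084T
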