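import Vale.Agent.Lib.P084T.A1

set_option linter.unusedSectionVars false

/-! # P084T part A2. See `notes/P084_blueprint.md`, section A2. -/

open MeasureTheory Set Filter Topology
open scoped RealInnerProductSpace ENNReal NNReal

namespace Vale.Agent.Lib.P084T

variable {E : Type*} [NormedAddCommGroup E] [InnerProductSpace ℝ E] [FiniteDimensional ℝ E]
  [CompleteSpace E] [MeasurableSpace E] [BorelSpace E]
variable {N N' : NF E}

/-- The derivative of `N` along a line, at a point of differentiability. -/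
private lemma line_deriv (N : NF E) {x : E} (hd : DifferentiableAt ℝ (N : E → ℝ) x) (y : E) :
    HasDerivAt (fun t : ℝ => N (x + t • y)) ⟪grad N x, y⟫ 0 := by
  have hg : HasGradientAt (N : E → ℝ) (grad N x) x := hd.hasGradientAt
  have h1 : HasDerivAt (fun t : ℝ => x + t • y) y 0 := by
    have := ((hasDerivAt_id (0 : ℝ)).smul_const y).const_add x
    simpa using this
  have e0 : x + (0 : ℝ) • y = x := by simp
  have h2 : HasFDerivAt (N : E → ℝ) (InnerProductSpace.toDual ℝ E (grad N x)) (x + (0 : ℝ) • y) := by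
    rw [e0]
    exact hg.hasFDerivAt
  have h3 := h2.comp_hasDerivAt (0 : ℝ) h1
  exact h3.congr_deriv (by simp [InnerProductSpace.toDual_apply_apply])

/-- The difference quotient bound gives a bound on the derivative. -/
private lemma deriv_le_of_slope {f : ℝ → ℝ} {d c : ℝ} (hf : HasDerivAt f d 0)
    (h : ∀ t : ℝ, 0 < t → t ≤ 1 → f t ≤ f 0 + t * c) : d ≤ c := by
  have h3 := hf.hasDerivWithinAt (s := Ioi 0)
  have h4 := hasDerivWithinAt_iff_tendsto_slope' (by simp) |>.mp h3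
  refine le_of_tendsto h4 ?_
  have hmem : Ioc (0 : ℝ) 1 ∈ 𝓝[>] (0 : ℝ) := Ioc_mem_nhdsGT (by norm_num)
  filter_upwards [hmem] with t ht
  rw [slope_def_field, div_le_iff₀ (by linarith [ht.1] : 0 < t - 0)]
  have := h t ht.1 ht.2
  linarith

private lemma le_deriv_of_slope {f : ℝ → ℝ} {d c : ℝ} (hf : HasDerivAt f d 0)
    (h : ∀ t : ℝ, 0 < t → f 0 + t * c ≤ f t) : c ≤ d := by
  have h3 := hf.hasDerivWithinAt (s := Ioi 0)
  have h4 := hasDerivWithinAt_iff_tendsto_slope' (by simp) |>.mp h3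
  refine ge_of_tendsto h4 ?_
  filter_upwards [self_mem_nhdsWithin] with t ht
  have ht' : 0 < t := ht
  rw [slope_def_field, le_div_iff₀ (by linarith : 0 < t - 0)]
  have := h t ht'
  linarith

/-- The subgradient inequality. -/
private lemma subgrad (N : NF E) {x : E} (hd : DifferentiableAt ℝ (N : E → ℝ) x) (y : E) :
    ⟪grad N x, y - x⟫ ≤ N y - N x := by
  refine deriv_le_of_slope (line_deriv N hd (y - x)) (fun t ht0 ht1 => ?_)
  have e : x + t • (y - x) = (1 - t) • x + t • y := by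
    simp only [smul_sub, sub_smul, one_smul]
    abel
  simp only [zero_smul, add_zero]
  rw [e]
  calc N ((1 - t) • x + t • y) ≤ N ((1 - t) • x) + N (t • y) := N.add_le _ _
    _ = (1 - t) * N x + t * N y := by
        rw [N.smul_eq, N.smul_eq, abs_of_nonneg (by linarith), abs_of_pos ht0]
    _ = N x + t * (N y - N x) := by ring

/-- The gradient at a point of differentiability. -/
theorem NF.grad_spec (N : NF E) {x : E} (hx : x ≠ 0) (hd : DifferentiableAt ℝ (N : E → ℝ) x) :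
    HasGradientAt (N : E → ℝ) (grad N x) x ∧ N.dual (grad N x) = 1 ∧ ⟪grad N x, x⟫ = N x := by
  have hg : HasGradientAt (N : E → ℝ) (grad N x) x := hd.hasGradientAt
  have h2 : ⟪grad N x, x⟫ ≤ N x := by
    have := subgrad N hd ((2 : ℝ) • x)
    have e : (2 : ℝ) • x - x = x := by rw [two_smul]; abel
    rw [e, N.smul_eq] at this
    simp only [Nat.abs_ofNat] at this
    linarith
  have h0 : N x ≤ ⟪grad N x, x⟫ := by
    have := subgrad N hd 0
    rw [zero_sub, inner_neg_right, N.map_zero'] at this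
    linarith
  have hself : ⟪grad N x, x⟫ = N x := le_antisymm h2 h0
  refine ⟨hg, ?_, hself⟩
  apply le_antisymm
  · show N.dualFun (grad N x) ≤ 1
    refine csSup_le ⟨_, 0, by simp [N.map_zero'], rfl⟩ ?_
    rintro _ ⟨y, hy, rfl⟩
    have := subgrad N hd y
    rw [inner_sub_right, hself] at this
    have hy' : N y ≤ 1 := hy
    simp only
    linarith
  · have h3 := N.inner_le (grad N x) x
    rw [hself] at h3
    have hp := N.pos x hx
    nlinarith

/-- Uniqueness of the norming functional at a point of differentiability. -/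
theorem NF.grad_unique (N : NF E) {x ξ : E} (hx : x ≠ 0) (hd : DifferentiableAt ℝ (N : E → ℝ) x)
    (hξ : N.dual ξ ≤ 1) (hξx : ⟪ξ, x⟫ = N x) : ξ = grad N x := by
  have key : ∀ y, ⟪ξ, y⟫ ≤ ⟪grad N x, y⟫ := by
    intro y
    refine le_deriv_of_slope (line_deriv N hd y) (fun t ht => ?_)
    simp only [zero_smul, add_zero]
    have h1 := N.inner_le ξ (x + t • y)
    rw [inner_add_right, inner_smul_right, hξx] at h1
    have h2 := N.nonneg (x + t • y)
    nlinarith
  apply ext_inner_right ℝ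
  intro y
  apply le_antisymm (key y)
  have := key (-y)
  rw [inner_neg_right, inner_neg_right] at this
  linarith

private lemma diff_of_smul (N : NF E) {c : ℝ} (hc : 0 < c) (x : E)
    (h : DifferentiableAt ℝ (N : E → ℝ) (c • x)) : DifferentiableAt ℝ (N : E → ℝ) x := by
  have e : (N : E → ℝ) = fun y => c⁻¹ * N (c • y) := by
    funext y
    rw [N.smul_eq, abs_of_pos hc, ← mul_assoc, inv_mul_cancel₀ hc.ne', one_mul]
  rw [e]
  have h1 : DifferentiableAt ℝ (fun y : E => c • y) x := (differentiableAt_id).const_smul c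
  exact (h.comp x h1).const_mul c⁻¹

theorem NF.differentiableAt_smul_iff (N : NF E) {c : ℝ} (hc : 0 < c) (x : E) :
    DifferentiableAt ℝ (N : E → ℝ) (c • x) ↔ DifferentiableAt ℝ (N : E → ℝ) x := by
  constructor
  · exact diff_of_smul N hc x
  · intro h
    apply diff_of_smul N (inv_pos.mpr hc) (c • x)
    rwa [smul_smul, inv_mul_cancel₀ hc.ne', one_smul]

/-- Homogeneity of the gradient (valid everywhere, the gradient being zero at points of non
differentiability). -/
theorem NF.grad_smul (N : NF E) {c : ℝ} (hc : 0 < c) (x : E) : grad N (c • x) = grad N x := by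
  by_cases hd : DifferentiableAt ℝ (N : E → ℝ) x
  · have hd' : DifferentiableAt ℝ (N : E → ℝ) (c • x) := (N.differentiableAt_smul_iff hc x).mpr hd
    -- compare directional derivatives
    apply ext_inner_right ℝ
    intro y
    have h1 := line_deriv N hd' y
    have h2 := line_deriv N hd y
    -- `N (c x + t y) = c N (x + (t / c) y)`
    have e : (fun t : ℝ => N (c • x + t • y)) = fun t => c * N (x + (c⁻¹ * t) • y) := by
      funext t
      rw [← abs_of_pos hc, ← N.smul_eq, abs_of_pos hc, smul_add, smul_smul, ← mul_assoc,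
        mul_inv_cancel₀ hc.ne', one_mul]
    rw [e] at h1
    have h3 : HasDerivAt (fun t : ℝ => c⁻¹ * t) c⁻¹ 0 := by
      simpa using (hasDerivAt_id (0 : ℝ)).const_mul c⁻¹
    have h2' : HasDerivAt (fun t : ℝ => N (x + t • y)) ⟪grad N x, y⟫ (c⁻¹ * 0) := by
      rwa [mul_zero]
    have h4 := (h2'.comp (0 : ℝ) h3).const_mul c
    have h5 := h1.unique h4
    rw [h5]
    field_simp
  · have hd' : ¬ DifferentiableAt ℝ (N : E → ℝ) (c • x) :=
      fun h => hd ((N.differentiableAt_smul_iff hc x).mp h)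
    unfold grad
    rw [gradient_eq_zero_of_not_differentiableAt hd, gradient_eq_zero_of_not_differentiableAt hd']

/-- The gradient is a Borel map. -/
theorem NF.measurable_grad (N : NF E) : Measurable (grad N) := by
  letI : MeasurableSpace (E →L[ℝ] ℝ) := borel _
  haveI : BorelSpace (E →L[ℝ] ℝ) := ⟨rfl⟩
  have h1 : Measurable (fderiv ℝ (N : E → ℝ)) := measurable_fderiv ℝ _
  have h2 : Continuous (fun L : E →L[ℝ] ℝ => (InnerProductSpace.toDual ℝ E).symm L) :=
    (InnerProductSpace.toDual ℝ E).symm.continuous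
  exact h2.measurable.comp h1

/-- Strict convexity: a supporting functional touches the unit sphere at one point only. -/
theorem StrictC.inner_lt (hSC : StrictC N) {x y ξ : E} (hx : N x = 1) (hy : N y = 1)
    (hxy : x ≠ y) (hξ : N.dual ξ ≤ 1) (hξx : ⟪ξ, x⟫ = 1) : ⟪ξ, y⟫ < 1 := by
  by_contra hge
  have hge' : 1 ≤ ⟪ξ, y⟫ := not_lt.mp hge
  have hm := hSC x y hx hy hxy
  have h1 := N.inner_le ξ ((1 / 2 : ℝ) • (x + y))
  rw [inner_smul_right, inner_add_right, hξx] at h1
  have h2 := N.nonneg ((1 / 2 : ℝ) • (x + y))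
  nlinarith

/-- Uniqueness of the norming vector. -/
private lemma norming_unique (hSC : StrictC N) {ξ x y : E} (hξ : ξ ≠ 0) (hx : N x = 1) (hy : N y = 1)
    (hξx : ⟪ξ, x⟫ = N.dual ξ) (hxy : x ≠ y) : ⟪ξ, y⟫ < N.dual ξ := by
  have hp := N.dual.pos ξ hξ
  have hd : N.dual ((N.dual ξ)⁻¹ • ξ) ≤ 1 := by
    rw [N.dual.smul_eq, abs_of_pos (inv_pos.mpr hp), inv_mul_cancel₀ hp.ne']
  have h1 : ⟪(N.dual ξ)⁻¹ • ξ, x⟫ = 1 := by
    rw [inner_smul_left, hξx]
    simp [hp.ne']
  have h2 := hSC.inner_lt hx hy hxy hd h1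
  rw [inner_smul_left] at h2
  simp only [conj_trivial] at h2
  rwa [inv_mul_lt_iff₀ hp, mul_one] at h2

/-- Norming vectors of nearby functionals are close. -/
private lemma norming_close (hSC : StrictC N) {ξ x : E} (hξ : ξ ≠ 0) (hx : N x = 1)
    (hξx : ⟪ξ, x⟫ = N.dual ξ) {ε : ℝ} (hε : 0 < ε) :
    ∃ δ : ℝ, 0 < δ ∧ ∀ ξ' x', ‖ξ' - ξ‖ < δ → N x' = 1 → ⟪ξ', x'⟫ = N.dual ξ' → ‖x' - x‖ < ε := by
  obtain ⟨C, hC, hb⟩ := N.exists_bounds
  obtain ⟨C', hC', hb'⟩ := N.dual.exists_bounds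
  -- the compact set of far away unit vectors
  set K : Set E := {y | N y = 1 ∧ ε ≤ ‖y - x‖} with hK
  have hKcl : IsClosed K :=
    (isClosed_eq N.continuous continuous_const).inter
      (isClosed_le continuous_const (continuous_id.sub continuous_const).norm)
  have hKb : K ⊆ Metric.closedBall 0 C := by
    intro y hy
    rw [mem_closedBall_zero_iff]
    have := (hb y).2
    rw [hy.1, mul_one] at this
    exact this
  have hKc : IsCompact K := (ProperSpace.isCompact_closedBall (0 : E) C).of_isClosed_subset hKcl hKb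
  by_cases hne : K.Nonempty
  · obtain ⟨y₀, hy₀, hmax⟩ := hKc.exists_isMaxOn hne
      (f := fun y => ⟪ξ, y⟫) (continuous_const.inner continuous_id).continuousOn
    have hlt : ⟪ξ, y₀⟫ < N.dual ξ := by
      refine norming_unique hSC hξ hx hy₀.1 hξx ?_
      intro h
      have := hy₀.2
      rw [← h, sub_self, norm_zero] at this
      linarith
    set γ := N.dual ξ - ⟪ξ, y₀⟫ with hγ
    have hγ0 : 0 < γ := by rw [hγ]; linarith
    refine ⟨γ / (2 * (C + C')), by positivity, fun ξ' x' hd hx' hn => ?_⟩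
    by_contra hfar
    have hfar' : ε ≤ ‖x' - x‖ := not_lt.mp hfar
    have hmem : x' ∈ K := ⟨hx', hfar'⟩
    have h1 : ⟪ξ, x'⟫ ≤ ⟪ξ, y₀⟫ := hmax hmem
    -- comparison of the values
    have h2 : ⟪ξ' - ξ, x'⟫ ≤ ‖ξ' - ξ‖ * C := by
      calc ⟪ξ' - ξ, x'⟫ ≤ ‖ξ' - ξ‖ * ‖x'‖ := real_inner_le_norm _ _
        _ ≤ ‖ξ' - ξ‖ * C := by
            apply mul_le_mul_of_nonneg_left _ (norm_nonneg _)
            have := (hb x').2
            rwa [hx', mul_one] at this
    have h3 : N.dual ξ - N.dual ξ' ≤ ‖ξ' - ξ‖ * C' := by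
      have h4 := N.dual.sub_le ξ ξ'
      have h5 := (hb' (ξ - ξ')).1
      have h6 : ‖ξ - ξ'‖ = ‖ξ' - ξ‖ := norm_sub_rev _ _
      rw [h6] at h5
      linarith
    have h7 : ⟪ξ, x'⟫ = ⟪ξ', x'⟫ - ⟪ξ' - ξ, x'⟫ := by
      rw [inner_sub_left]; ring
    have hCC : 0 < C + C' := by positivity
    have h8 : ‖ξ' - ξ‖ * (C + C') < γ / 2 := by
      have := (lt_div_iff₀ (by positivity : 0 < 2 * (C + C'))).mp hd
      nlinarith
    have h9 : N.dual ξ - ⟪ξ, x'⟫ ≤ ‖ξ' - ξ‖ * (C + C') := by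
      rw [h7, hn]
      nlinarith
    have h10 : γ ≤ N.dual ξ - ⟪ξ, x'⟫ := by
      rw [hγ]
      linarith
    linarith
  · refine ⟨1, one_pos, fun ξ' x' _ hx' _ => ?_⟩
    by_contra hfar
    exact hne ⟨x', hx', not_lt.mp hfar⟩

/-- Under strict convexity the dual norm is differentiable off the origin, with gradient the
unique norming point. -/
theorem StrictC.uhat_spec (hSC : StrictC N) {ξ : E} (hξ : ξ ≠ 0) :
    HasGradientAt (N.dual : E → ℝ) (uhat N ξ) ξ ∧ N (uhat N ξ) = 1 ∧ ⟪ξ, uhat N ξ⟫ = N.dual ξ := by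
  obtain ⟨x, hx, hξx⟩ := N.exists_norming_vec hξ
  have hg : HasGradientAt (N.dual : E → ℝ) x ξ := by
    rw [hasGradientAt_iff_hasFDerivAt, hasFDerivAt_iff_isLittleO_nhds_zero,
      Asymptotics.isLittleO_iff]
    intro c hc
    obtain ⟨δ, hδ, hclose⟩ := norming_close hSC hξ hx hξx hc
    have hnorm : 0 < ‖ξ‖ := norm_pos_iff.mpr hξ
    have hball : Metric.ball (0 : E) (min δ ‖ξ‖) ∈ 𝓝 (0 : E) :=
      Metric.ball_mem_nhds _ (lt_min hδ hnorm)
    filter_upwards [hball] with η hη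
    have hη' : ‖η‖ < min δ ‖ξ‖ := by simpa using hη
    have hη1 : ‖η‖ < δ := lt_of_lt_of_le hη' (min_le_left _ _)
    have hη2 : ‖η‖ < ‖ξ‖ := lt_of_lt_of_le hη' (min_le_right _ _)
    have hne : ξ + η ≠ 0 := by
      intro h
      have : ξ = -η := eq_neg_of_add_eq_zero_left h
      rw [this, norm_neg] at hη2
      exact lt_irrefl _ hη2
    obtain ⟨x', hx', hn'⟩ := N.exists_norming_vec hne
    have hcl := hclose (ξ + η) x' (by simpa using hη1) hx' hn'
    have e1 : (InnerProductSpace.toDual ℝ E x) η = ⟪x, η⟫ := InnerProductSpace.toDual_apply_apply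
    rw [e1, Real.norm_eq_abs, real_inner_comm]
    -- upper and lower bounds
    have hlow : N.dual ξ + ⟪η, x⟫ ≤ N.dual (ξ + η) := by
      have := N.inner_le (ξ + η) x
      rw [hx, mul_one, inner_add_left, hξx] at this
      exact this
    have hup : N.dual (ξ + η) ≤ N.dual ξ + ⟪η, x'⟫ := by
      rw [← hn', inner_add_left]
      have := N.inner_le ξ x'
      rw [hx', mul_one] at this
      linarith
    have h3 : ⟪η, x'⟫ - ⟪η, x⟫ ≤ ‖η‖ * ‖x' - x‖ := by
      rw [← inner_sub_right]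
      exact real_inner_le_norm _ _
    rw [abs_of_nonneg (by linarith)]
    have h4 : ‖η‖ * ‖x' - x‖ ≤ c * ‖η‖ := by
      rw [mul_comm]
      exact mul_le_mul_of_nonneg_right hcl.le (norm_nonneg _)
    linarith
  have e : uhat N ξ = x := hg.gradient
  rw [e]
  exact ⟨hg, hx, hξx⟩

theorem StrictC.uhat_unique (hSC : StrictC N) {ξ x : E} (hξ : ξ ≠ 0) (hx : N x = 1)
    (hξx : ⟪ξ, x⟫ = N.dual ξ) : x = uhat N ξ := by
  obtain ⟨_, h1, h2⟩ := hSC.uhat_spec hξ
  by_contra hne
  have := norming_unique hSC hξ hx h1 hξx hne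
  linarith

theorem uhat_smul (N : NF E) {c : ℝ} (hc : 0 < c) (ξ : E) : uhat N (c • ξ) = uhat N ξ :=
  N.dual.grad_smul hc ξ

theorem uhat_rad (N : NF E) {ξ : E} (hξ : ξ ≠ 0) : uhat N (rad N.dual ξ) = uhat N ξ :=
  uhat_smul N (inv_pos.mpr (N.dual.pos ξ hξ)) ξ

theorem StrictC.continuousOn_uhat (hSC : StrictC N) : ContinuousOn (uhat N) {0}ᶜ := by
  intro ξ hξ
  have hξ0 : ξ ≠ 0 := hξ
  obtain ⟨_, h1, h2⟩ := hSC.uhat_spec hξ0
  apply ContinuousAt.continuousWithinAt
  rw [Metric.continuousAt_iff]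
  intro ε hε
  obtain ⟨δ, hδ, hclose⟩ := norming_close hSC hξ0 h1 h2 hε
  have hnorm : 0 < ‖ξ‖ := norm_pos_iff.mpr hξ0
  refine ⟨min δ ‖ξ‖, lt_min hδ hnorm, fun {ξ'} hd => ?_⟩
  rw [dist_eq_norm] at hd ⊢
  have hd1 : ‖ξ' - ξ‖ < δ := lt_of_lt_of_le hd (min_le_left _ _)
  have hd2 : ‖ξ' - ξ‖ < ‖ξ‖ := lt_of_lt_of_le hd (min_le_right _ _)
  have hne : ξ' ≠ 0 := by
    intro h
    rw [h, zero_sub, norm_neg] at hd2
    exact lt_irrefl _ hd2
  obtain ⟨_, h3, h4⟩ := hSC.uhat_spec hne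
  exact hclose ξ' _ hd1 h3 h4

end Vale.Agent.Lib.P084T
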