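import Vale.Agent.Lib.P084T.A2

set_option linter.unusedSectionVars false

/-! # P084T part B1. See `notes/P084_blueprint.md`, section B1. -/

open MeasureTheory Set Filter Topology
open scoped RealInnerProductSpace ENNReal NNReal

namespace Vale.Agent.Lib.P084T

variable {E : Type*} [NormedAddCommGroup E] [InnerProductSpace ℝ E] [FiniteDimensional ℝ E]
  [CompleteSpace E] [MeasurableSpace E] [BorelSpace E]
variable {N N' : NF E}

/-! ### Auxiliary facts on lines -/

/-- Convexity of `N` along a line. -/
private lemma line_convex (N : NF E) (w v : E) {s t r : ℝ} (hs : s ≤ r) (ht : r ≤ t) {c : ℝ}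
    (h1 : N (w + s • v) < c) (h2 : N (w + t • v) < c) : N (w + r • v) < c := by
  rcases eq_or_lt_of_le (hs.trans ht) with h | hst
  · have : r = s := le_antisymm (by linarith) hs
    rwa [this]
  · have hd : 0 < t - s := by linarith
    set a := (t - r) / (t - s) with ha
    set b := (r - s) / (t - s) with hb
    have ha0 : 0 ≤ a := div_nonneg (by linarith) hd.le
    have hb0 : 0 ≤ b := div_nonneg (by linarith) hd.le
    have hab : a + b = 1 := by
      rw [ha, hb]; field_simp; ring
    have hr : a * s + b * t = r := by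
      rw [ha, hb]; field_simp; ring
    have e : w + r • v = a • (w + s • v) + b • (w + t • v) := by
      have : a • (w + s • v) + b • (w + t • v) = (a + b) • w + (a * s + b * t) • v := by
        simp only [smul_add, add_smul, mul_smul]
        abel
      rw [this, hab, hr, one_smul]
    rw [e]
    calc N (a • (w + s • v) + b • (w + t • v))
        ≤ N (a • (w + s • v)) + N (b • (w + t • v)) := N.add_le _ _
      _ = a * N (w + s • v) + b * N (w + t • v) := by
          rw [N.smul_eq, N.smul_eq, abs_of_nonneg ha0, abs_of_nonneg hb0]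
      _ < c := by
          rcases eq_or_lt_of_le ha0 with h0 | h0
          · have hb1 : b = 1 := by rw [← h0] at hab; linarith
            rw [← h0, hb1]; linarith
          · have : a * N (w + s • v) < a * c := mul_lt_mul_of_pos_left h1 h0
            have h3 : b * N (w + t • v) ≤ b * c := mul_le_mul_of_nonneg_left h2.le hb0
            have h4 : a * c + b * c = c := by rw [← add_mul, hab, one_mul]
            linarith

private lemma open_line (N : NF E) (w v : E) : IsOpen {t : ℝ | N (w + t • v) < 1} :=
  isOpen_lt (N.continuous.comp (continuous_const.add (continuous_id.smul continuous_const)))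
    continuous_const

private lemma bdd_line (N : NF E) {v : E} (hv : v ≠ 0) (w : E) :
    BddAbove {t : ℝ | N (w + t • v) < 1} := by
  have hp := N.pos v hv
  refine ⟨(1 + N w) / N v, fun t ht => ?_⟩
  have h1 : N (t • v) ≤ N (w + t • v) + N w := by
    have := N.add_le (w + t • v) (-w)
    rw [N.map_neg'] at this
    have e : w + t • v + -w = t • v := by abel
    rwa [e] at this
  rw [N.smul_eq] at h1
  rw [le_div_iff₀ hp]
  have h2 : t ≤ |t| := le_abs_self t
  have h3 : 0 ≤ N v := hp.le
  have ht' : N (w + t • v) < 1 := ht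
  nlinarith

private lemma set_tm (N : NF E) (v w : E) : {t : ℝ | N (w - t • v) < 1} = {t : ℝ | N (w + t • (-v)) < 1} := by
  ext t
  simp only [mem_ofPred_eq, smul_neg, sub_eq_add_neg]

private lemma bdd_tm (N : NF E) {v : E} (hv : v ≠ 0) (w : E) :
    BddAbove {t : ℝ | N (w - t • v) < 1} := by
  rw [set_tm]
  exact bdd_line N (neg_ne_zero.mpr hv) w

/-- `exitPt` and `tp` for `v` are `entryPt` and `tm` for `-v`. -/
theorem tm_neg (N : NF E) (v w : E) : tm N (-v) w = tp N v w := by
  unfold tm tp
  congr 1
  ext t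
  simp only [mem_ofPred_eq, smul_neg, sub_neg_eq_add]

theorem entryPt_neg (N : NF E) (v w : E) : entryPt N (-v) w = exitPt N v w := by
  unfold entryPt exitPt
  rw [tm_neg, smul_neg, sub_neg_eq_add]

private lemma hits_neg (N : NF E) {v w : E} (h : hits N v w) : hits N (-v) w := by
  obtain ⟨t, ht⟩ := h
  refine ⟨-t, ?_⟩
  rwa [smul_neg, neg_smul, neg_neg]

/-- The line meets the open ball exactly in the open time interval `(-tm, tp)`. -/
theorem line_iff (N : NF E) {v w : E} (hv : v ≠ 0) (h : hits N v w) (t : ℝ) :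
    N (w + t • v) < 1 ↔ -tm N v w < t ∧ t < tp N v w := by
  have hB := bdd_line N hv w
  have hB' := bdd_tm N hv w
  obtain ⟨t₀, ht₀⟩ := h
  constructor
  · intro ht
    constructor
    · -- the point `-t - ε` lies in the set for `tm`
      have hop : IsOpen {s : ℝ | N (w - s • v) < 1} := by
        rw [set_tm]
        exact open_line N w (-v)
      have hmem : -t ∈ {s : ℝ | N (w - s • v) < 1} := by
        show N (w - (-t) • v) < 1
        rwa [neg_smul, sub_neg_eq_add]
      obtain ⟨ε, hε, hball⟩ := Metric.isOpen_iff.mp hop _ hmem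
      have h2 : -t + ε / 2 ∈ {s : ℝ | N (w - s • v) < 1} :=
        hball (by simp [abs_of_pos hε]; linarith)
      have h3 := le_csSup hB' h2
      show -sSup _ < t
      linarith
    · have hop := open_line N w v
      obtain ⟨ε, hε, hball⟩ := Metric.isOpen_iff.mp hop _ ht
      have h2 : t + ε / 2 ∈ {s : ℝ | N (w + s • v) < 1} :=
        hball (by simp [abs_of_pos hε]; linarith)
      have h3 := le_csSup hB h2
      show t < sSup _
      linarith
  · rintro ⟨h1, h2⟩
    have hne : ({s : ℝ | N (w + s • v) < 1}).Nonempty := ⟨t₀, ht₀⟩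
    have hne' : ({s : ℝ | N (w - s • v) < 1}).Nonempty :=
      ⟨-t₀, by
        show N (w - (-t₀) • v) < 1
        rwa [neg_smul, sub_neg_eq_add]⟩
    obtain ⟨s₁, hs₁, hlt₁⟩ := exists_lt_of_lt_csSup hne h2
    have h1' : -t < sSup {s : ℝ | N (w - s • v) < 1} := by
      have : -sSup {s : ℝ | N (w - s • v) < 1} < t := h1
      linarith
    obtain ⟨s₂, hs₂, hlt₂⟩ := exists_lt_of_lt_csSup hne' h1'
    have hs₂' : N (w + (-s₂) • v) < 1 := by
      have : N (w - s₂ • v) < 1 := hs₂
      rwa [neg_smul, ← sub_eq_add_neg]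
    exact line_convex N w v (s := -s₂) (t := s₁) (by linarith) hlt₁.le hs₂' hs₁

theorem len_pos (N : NF E) {v w : E} (hv : v ≠ 0) (h : hits N v w) : 0 < len N v w := by
  obtain ⟨t, ht⟩ := id h
  obtain ⟨h1, h2⟩ := (line_iff N hv h t).mp ht
  unfold len
  linarith

private lemma norm_line_le (N : NF E) {v w : E} (hv : v ≠ 0) (h : hits N v w) {t : ℝ}
    (h1 : -tm N v w ≤ t) (h2 : t ≤ tp N v w) : N (w + t • v) ≤ 1 := by
  have hlen := len_pos N hv h
  -- `t` is a limit of points of the open interval
  set m := (tp N v w - tm N v w) / 2 with hm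
  have hm1 : -tm N v w < m := by
    rw [hm]; unfold len at hlen; linarith
  have hm2 : m < tp N v w := by
    rw [hm]; unfold len at hlen; linarith
  have hc : Continuous (fun s : ℝ => N (w + ((1 - s) * t + s * m) • v)) :=
    N.continuous.comp (continuous_const.add
      ((((continuous_const.sub continuous_id).mul continuous_const).add
        (continuous_id.mul continuous_const)).smul continuous_const))
  have hlim : Tendsto (fun s : ℝ => N (w + ((1 - s) * t + s * m) • v)) (𝓝[>] 0)
      (𝓝 (N (w + ((1 - 0) * t + 0 * m) • v))) :=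
    (hc.tendsto 0).mono_left nhdsWithin_le_nhds
  have e : (1 - (0 : ℝ)) * t + 0 * m = t := by ring
  rw [e] at hlim
  refine le_of_tendsto hlim ?_
  have hmem : Ioo (0 : ℝ) 1 ∈ 𝓝[>] (0 : ℝ) := Ioo_mem_nhdsGT (by norm_num)
  filter_upwards [hmem] with s hs
  apply le_of_lt
  rw [line_iff N hv h]
  have hs1 := hs.1
  have hs2 := hs.2
  constructor
  · nlinarith
  · nlinarith

theorem norm_exitPt (N : NF E) {v w : E} (hv : v ≠ 0) (h : hits N v w) :
    N (exitPt N v w) = 1 := by
  have hlen := len_pos N hv h
  unfold len at hlen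
  apply le_antisymm
  · exact norm_line_le N hv h (by linarith) le_rfl
  · by_contra hlt
    have := (line_iff N hv h _).mp (not_le.mp hlt : N (w + tp N v w • v) < 1)
    exact lt_irrefl _ this.2

theorem norm_entryPt (N : NF E) {v w : E} (hv : v ≠ 0) (h : hits N v w) :
    N (entryPt N v w) = 1 := by
  have h' := norm_exitPt N (neg_ne_zero.mpr hv) (hits_neg N h)
  rwa [← entryPt_neg, neg_neg] at h'

theorem hits_of_mem_ball (N : NF E) {v w : E} (hw : w ∈ N.ball) : hits N v w :=
  ⟨0, by simpa [NF.ball] using hw⟩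

theorem tm_pos (N : NF E) {v w : E} (hv : v ≠ 0) (hw : w ∈ N.ball) : 0 < tm N v w := by
  have h := hits_of_mem_ball (v := v) N hw
  have h0 : N (w + (0 : ℝ) • v) < 1 := by simpa [NF.ball] using hw
  have := ((line_iff N hv h 0).mp h0).1
  linarith

theorem tp_pos (N : NF E) {v w : E} (hv : v ≠ 0) (hw : w ∈ N.ball) : 0 < tp N v w := by
  have h := hits_of_mem_ball (v := v) N hw
  have h0 : N (w + (0 : ℝ) • v) < 1 := by simpa [NF.ball] using hw
  exact ((line_iff N hv h 0).mp h0).2

/-- Translation along the line. -/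
theorem hits_add (N : NF E) (v w : E) (s : ℝ) : hits N v (w + s • v) ↔ hits N v w := by
  constructor
  · rintro ⟨t, ht⟩
    refine ⟨s + t, ?_⟩
    rwa [add_smul, ← add_assoc]
  · rintro ⟨t, ht⟩
    refine ⟨t - s, ?_⟩
    have e : w + s • v + (t - s) • v = w + t • v := by
      rw [sub_smul]; abel
    rwa [e]

theorem tp_add (N : NF E) {v w : E} (hv : v ≠ 0) (h : hits N v w) (s : ℝ) :
    tp N v (w + s • v) = tp N v w - s := by
  have hB := bdd_line N hv w
  have hB' := bdd_line N hv (w + s • v)
  obtain ⟨t₀, ht₀⟩ := id h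
  have hne : ({t : ℝ | N (w + t • v) < 1}).Nonempty := ⟨t₀, ht₀⟩
  have e : ∀ t : ℝ, w + s • v + t • v = w + (s + t) • v := by
    intro t
    rw [add_smul, add_assoc]
  have hne' : ({t : ℝ | N (w + s • v + t • v) < 1}).Nonempty :=
    ⟨t₀ - s, by
      show N (w + s • v + (t₀ - s) • v) < 1
      rw [e]
      simpa using ht₀⟩
  apply le_antisymm
  · refine csSup_le hne' (fun t ht => ?_)
    have ht' : N (w + s • v + t • v) < 1 := ht
    rw [e] at ht'
    have := le_csSup hB (show s + t ∈ {t : ℝ | N (w + t • v) < 1} from ht')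
    show t ≤ sSup {t : ℝ | N (w + t • v) < 1} - s
    linarith
  · have : tp N v w ≤ tp N v (w + s • v) + s := by
      refine csSup_le hne (fun t ht => ?_)
      have ht' : N (w + t • v) < 1 := ht
      have hm : t - s ∈ {t : ℝ | N (w + s • v + t • v) < 1} := by
        show N (w + s • v + (t - s) • v) < 1
        rw [e]
        simpa using ht'
      have := le_csSup hB' hm
      show t ≤ sSup {t : ℝ | N (w + s • v + t • v) < 1} + s
      linarith
    linarith

theorem tm_add (N : NF E) {v w : E} (hv : v ≠ 0) (h : hits N v w) (s : ℝ) :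
    tm N v (w + s • v) = tm N v w + s := by
  have := tp_add N (neg_ne_zero.mpr hv) (hits_neg N h) (-s)
  rw [← tm_neg, ← tm_neg, neg_neg, neg_smul, smul_neg, neg_neg] at this
  linarith

theorem entryPt_add (N : NF E) {v w : E} (hv : v ≠ 0) (h : hits N v w) (s : ℝ) :
    entryPt N v (w + s • v) = entryPt N v w := by
  unfold entryPt
  rw [tm_add N hv h, add_smul]
  abel

theorem exitPt_add (N : NF E) {v w : E} (hv : v ≠ 0) (h : hits N v w) (s : ℝ) :
    exitPt N v (w + s • v) = exitPt N v w := by
  unfold exitPt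
  rw [tp_add N hv h, sub_smul]
  abel

theorem len_add (N : NF E) {v w : E} (hv : v ≠ 0) (h : hits N v w) (s : ℝ) :
    len N v (w + s • v) = len N v w := by
  unfold len
  rw [tm_add N hv h, tp_add N hv h]
  ring

/-- At the entry point. -/
theorem tm_entryPt (N : NF E) {v w : E} (hv : v ≠ 0) (h : hits N v w) :
    tm N v (entryPt N v w) = 0 ∧ tp N v (entryPt N v w) = len N v w ∧
      exitPt N v (entryPt N v w) = exitPt N v w ∧ hits N v (entryPt N v w) := by
  have e : entryPt N v w = w + (-tm N v w) • v := by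
    unfold entryPt
    rw [neg_smul, sub_eq_add_neg]
  rw [e]
  refine ⟨?_, ?_, exitPt_add N hv h _, (hits_add N v w _).mpr h⟩
  · rw [tm_add N hv h]
    ring
  · rw [tp_add N hv h]
    unfold len
    ring

/-- If `a` is a unit vector at which `N` is differentiable with `⟪grad N a, v⟫ < 0` then `a` is
the entry point of its own line. -/
theorem entry_of_grad_neg (N : NF E) {a v : E} (ha : N a = 1)
    (hd : DifferentiableAt ℝ (N : E → ℝ) a) (hv : ⟪grad N a, v⟫ < 0) :
    hits N v a ∧ tm N v a = 0 ∧ entryPt N v a = a := by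
  have ha0 : a ≠ 0 := by
    intro h
    rw [h, N.map_zero'] at ha
    norm_num at ha
  have hv0 : v ≠ 0 := by
    intro h
    rw [h, inner_zero_right] at hv
    exact lt_irrefl _ hv
  obtain ⟨hg, hdual, hself⟩ := N.grad_spec ha0 hd
  rw [ha] at hself
  -- the derivative along the line
  have hline : HasDerivAt (fun t : ℝ => N (a + t • v)) ⟪grad N a, v⟫ 0 := by
    have h1 : HasDerivAt (fun t : ℝ => a + t • v) v 0 := by
      have := ((hasDerivAt_id (0 : ℝ)).smul_const v).const_add a
      simpa using this
    have e0 : a + (0 : ℝ) • v = a := by simp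
    have h2 : HasFDerivAt (N : E → ℝ) (InnerProductSpace.toDual ℝ E (grad N a)) (a + (0 : ℝ) • v) := by
      rw [e0]
      exact hg.hasFDerivAt
    have h3 := h2.comp_hasDerivAt (0 : ℝ) h1
    exact h3.congr_deriv (by simp [InnerProductSpace.toDual_apply_apply])
  -- points just after `a` are in the ball
  have hsmall : ∀ᶠ t in 𝓝[>] (0 : ℝ), N (a + t • v) < 1 := by
    have h3 := hline.hasDerivWithinAt (s := Ioi 0)
    have h4 := hasDerivWithinAt_iff_tendsto_slope' (by simp) |>.mp h3
    have h5 : ∀ᶠ t in 𝓝[>] (0 : ℝ), slope (fun t : ℝ => N (a + t • v)) 0 t < 0 :=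
      h4.eventually (gt_mem_nhds hv)
    filter_upwards [h5, self_mem_nhdsWithin] with t ht htpos
    have htpos' : 0 < t := htpos
    rw [slope_def_field] at ht
    simp only [zero_smul, add_zero, ha] at ht
    have := (div_lt_iff₀ (by linarith : 0 < t - 0)).mp ht
    linarith
  have hex : ∃ t : ℝ, 0 < t ∧ N (a + t • v) < 1 := by
    obtain ⟨t, ht⟩ := (hsmall.and self_mem_nhdsWithin).exists
    exact ⟨t, ht.2, ht.1⟩
  obtain ⟨t₀, ht₀, hlt₀⟩ := hex
  have hh : hits N v a := ⟨t₀, hlt₀⟩
  have hne : ∀ t : ℝ, 0 < t → 1 ≤ N (a - t • v) := by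
    intro t ht
    have h1 := N.inner_le (grad N a) (a - t • v)
    rw [hdual, one_mul, inner_sub_right, hself, inner_smul_right] at h1
    nlinarith
  have htm : tm N v a = 0 := by
    -- `-tm` is not in the ball, and the points `-tm < t < tp` are in the ball
    apply le_antisymm
    · by_contra hpos
      have hpos' : 0 < tm N v a := not_le.mp hpos
      have h1 : N (a + (-(tm N v a / 2)) • v) < 1 := by
        rw [line_iff N hv0 hh]
        have := len_pos N hv0 hh
        constructor
        · linarith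
        · have := ((line_iff N hv0 hh t₀).mp hlt₀).2
          linarith
      have h2 := hne (tm N v a / 2) (by linarith)
      rw [neg_smul, ← sub_eq_add_neg] at h1
      linarith
    · by_contra hneg
      have hneg' : tm N v a < 0 := not_le.mp hneg
      have := hsmall
      have h4 := hne
      -- a point with positive time smaller than `-tm` lies in the ball
      have h5 : ∃ t : ℝ, 0 < t ∧ t < -tm N v a ∧ N (a + t • v) < 1 := by
        have hm : Ioo (0 : ℝ) (-tm N v a) ∈ 𝓝[>] (0 : ℝ) := Ioo_mem_nhdsGT (by linarith)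
        obtain ⟨t, ht⟩ := (hsmall.and hm).exists
        exact ⟨t, ht.2.1, ht.2.2, ht.1⟩
      obtain ⟨t, ht1, ht2, ht3⟩ := h5
      have := ((line_iff N hv0 hh t).mp ht3).1
      linarith
  refine ⟨hh, htm, ?_⟩
  unfold entryPt
  rw [htm, zero_smul, sub_zero]

/-- Continuity in the pair (direction, point). -/
theorem continuousAt_tm (N : NF E) {v w : E} (hv : v ≠ 0) (h : hits N v w) :
    ContinuousAt (fun p : E × E => tm N p.1 p.2) (v, w) := by
  have hne0 : ∀ᶠ p : E × E in 𝓝 (v, w), p.1 ≠ 0 :=
    (continuous_fst.tendsto (v, w)).eventually_ne hv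
  -- a point of the line which is inside the ball, for all nearby lines
  have hcont : ∀ t : ℝ, Continuous (fun p : E × E => N (p.2 - t • p.1)) := fun t =>
    N.continuous.comp (continuous_snd.sub (continuous_const.smul continuous_fst))
  have hinside : ∀ t : ℝ, N (w - t • v) < 1 → ∀ᶠ p : E × E in 𝓝 (v, w), N (p.2 - t • p.1) < 1 :=
    fun t ht => (hcont t).continuousAt.eventually_lt continuousAt_const ht
  have hoff : ∀ t : ℝ, 1 < N (w - t • v) → ∀ᶠ p : E × E in 𝓝 (v, w), 1 < N (p.2 - t • p.1) :=
    fun t ht => continuousAt_const.eventually_lt (hcont t).continuousAt ht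
  have hsub : ∀ t : ℝ, w + t • (-v) = w - t • v := fun t => by
    rw [smul_neg, ← sub_eq_add_neg]
  have hset : ∀ (p : E × E), {t : ℝ | N (p.2 - t • p.1) < 1} = {t : ℝ | N (p.2 + t • (-p.1)) < 1} :=
    fun p => set_tm N p.1 p.2
  have hvn : -v ≠ 0 := neg_ne_zero.mpr hv
  have hh' := hits_neg N h
  have hline : ∀ t : ℝ, N (w - t • v) < 1 ↔ -tp N v w < t ∧ t < tm N v w := by
    intro t
    have := line_iff N hvn hh' t
    rwa [tm_neg, ← tm_neg N (-v) w, neg_neg, hsub] at this
  obtain ⟨t₁, ht₁⟩ : ∃ t, N (w - t • v) < 1 := by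
    obtain ⟨t, ht⟩ := hh'
    refine ⟨t, ?_⟩
    rwa [hsub] at ht
  rw [Metric.continuousAt_iff']
  intro ε hε
  have hlen := (hline t₁).mp ht₁
  set t₀ := tm N v w with ht₀
  -- lower bound
  have hlow : ∀ᶠ p : E × E in 𝓝 (v, w), t₀ - ε < tm N p.1 p.2 := by
    have hm : max t₁ (t₀ - ε / 2) ∈ {t : ℝ | N (w - t • v) < 1} := by
      show N (w - (max t₁ (t₀ - ε / 2)) • v) < 1
      rw [hline]
      constructor
      · exact lt_of_lt_of_le hlen.1 (le_max_left _ _)
      · exact max_lt hlen.2 (by linarith)
    filter_upwards [hinside _ hm, hne0] with p hp hp0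
    have hb := bdd_tm N hp0 p.2
    have := le_csSup hb (show max t₁ (t₀ - ε / 2) ∈ {t : ℝ | N (p.2 - t • p.1) < 1} from hp)
    have h2 : t₀ - ε / 2 ≤ max t₁ (t₀ - ε / 2) := le_max_right _ _
    have h3 : tm N p.1 p.2 = sSup {t : ℝ | N (p.2 - t • p.1) < 1} := rfl
    linarith
  -- upper bound
  have hup : ∀ᶠ p : E × E in 𝓝 (v, w), tm N p.1 p.2 < t₀ + ε := by
    set t₂ := t₀ + ε / 2 with ht₂
    have hgt : 1 < N (w - t₂ • v) := by
      by_contra hle
      have hle' : N (w - t₂ • v) ≤ 1 := not_lt.mp hle
      -- strict convexity along the line: the boundary point `t₀` would be inside the ball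
      have h1 : N (w - t₀ • v) = 1 := by
        have := norm_entryPt N hv h
        exact this
      have hlt₁ : t₁ < t₀ := hlen.2
      have hd : 0 < t₂ - t₁ := by rw [ht₂]; linarith
      set a := (t₂ - t₀) / (t₂ - t₁) with ha
      set b := (t₀ - t₁) / (t₂ - t₁) with hb
      have ha0 : 0 < a := div_pos (by rw [ht₂]; linarith) hd
      have hb0 : 0 ≤ b := div_nonneg (by linarith) hd.le
      have hab : a + b = 1 := by
        rw [ha, hb]; field_simp; ring
      have hr : a * t₁ + b * t₂ = t₀ := by
        rw [ha, hb]; field_simp; ring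
      have e : w - t₀ • v = a • (w - t₁ • v) + b • (w - t₂ • v) := by
        have : a • (w - t₁ • v) + b • (w - t₂ • v) = (a + b) • w - (a * t₁ + b * t₂) • v := by
          simp only [smul_sub, add_smul, mul_smul]
          abel
        rw [this, hab, hr, one_smul]
      have h3 : N (w - t₀ • v) ≤ a * N (w - t₁ • v) + b * N (w - t₂ • v) := by
        rw [e]
        calc N (a • (w - t₁ • v) + b • (w - t₂ • v))
            ≤ N (a • (w - t₁ • v)) + N (b • (w - t₂ • v)) := N.add_le _ _
          _ = _ := by rw [N.smul_eq, N.smul_eq, abs_of_pos ha0, abs_of_nonneg hb0]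
      have h4 : a * N (w - t₁ • v) < a * 1 := mul_lt_mul_of_pos_left ht₁ ha0
      have h5 : b * N (w - t₂ • v) ≤ b * 1 := mul_le_mul_of_nonneg_left hle' hb0
      linarith
    filter_upwards [hinside _ ht₁, hoff _ hgt, hne0] with p hp1 hp2 hp0
    have hle : tm N p.1 p.2 ≤ t₂ := by
      have hne : ({t : ℝ | N (p.2 - t • p.1) < 1}).Nonempty := ⟨t₁, hp1⟩
      refine csSup_le hne (fun t ht => ?_)
      by_contra hlt
      have hlt' : t₂ < t := not_le.mp hlt
      have ht' : N (p.2 - t • p.1) < 1 := ht
      have hp1' : N (p.2 + (t₁) • (-p.1)) < 1 := by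
        rwa [smul_neg, ← sub_eq_add_neg]
      have ht'' : N (p.2 + t • (-p.1)) < 1 := by
        rwa [smul_neg, ← sub_eq_add_neg]
      have hconv := line_convex N p.2 (-p.1) (s := t₁) (t := t) (r := t₂)
        (by rw [ht₂]; linarith [hlen.2]) hlt'.le hp1' ht''
      rw [smul_neg, ← sub_eq_add_neg] at hconv
      linarith
    rw [ht₂] at hle
    linarith
  filter_upwards [hlow, hup] with p hp1 hp2
  rw [Real.dist_eq, abs_lt]
  constructor <;> linarith

theorem continuousAt_tp (N : NF E) {v w : E} (hv : v ≠ 0) (h : hits N v w) :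
    ContinuousAt (fun p : E × E => tp N p.1 p.2) (v, w) := by
  have h1 := continuousAt_tm N (neg_ne_zero.mpr hv) (hits_neg N h)
  have h2 : ContinuousAt (fun p : E × E => (-p.1, p.2)) (v, w) := by fun_prop
  have h3 := ContinuousAt.comp (f := fun p : E × E => (-p.1, p.2))
    (g := fun p : E × E => tm N p.1 p.2) (x := (v, w)) h1 h2
  refine h3.congr (Filter.Eventually.of_forall fun p => ?_)
  simp only [Function.comp]
  exact tm_neg N p.1 p.2

end Vale.Agent.Lib.P084T
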