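import Vale.Agent.Lib.P084T.B1

set_option linter.unusedSectionVars false

/-! # P084T part B2. See `notes/P084_blueprint.md`, section B2. -/

open MeasureTheory Set Filter Topology
open scoped RealInnerProductSpace ENNReal NNReal

namespace Vale.Agent.Lib.P084T

variable {E : Type*} [NormedAddCommGroup E] [InnerProductSpace ℝ E] [FiniteDimensional ℝ E]
  [CompleteSpace E] [MeasurableSpace E] [BorelSpace E]
variable {N N' : NF E}

private lemma isOpen_line (N : NF E) (q : ℝ) : IsOpen {p : E × E | N (p.2 - q • p.1) < 1} :=
  isOpen_lt (N.continuous.comp (continuous_snd.sub (continuous_const.smul continuous_fst)))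
    continuous_const

private lemma bdd_line' (N : NF E) {v : E} (hv : v ≠ 0) (w : E) :
    BddAbove {t : ℝ | N (w - t • v) < 1} := by
  have hp := N.pos v hv
  refine ⟨(1 + N w) / N v, fun t ht => ?_⟩
  have h1 : N (t • v) ≤ N (w - t • v) + N w := by
    have := N.add_le (w - t • v) (-w)
    rw [N.map_neg'] at this
    have e : w - t • v + -w = -(t • v) := by abel
    rwa [e, N.map_neg'] at this
  rw [N.smul_eq] at h1
  rw [le_div_iff₀ hp]
  have h2 : t ≤ |t| := le_abs_self t
  have h3 : 0 ≤ N v := hp.le
  have ht' : N (w - t • v) < 1 := ht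
  nlinarith

/-- The section in the time variable is open. -/
private lemma isOpen_section (N : NF E) (v w : E) : IsOpen {t : ℝ | N (w - t • v) < 1} :=
  isOpen_lt (N.continuous.comp (continuous_const.sub (continuous_id.smul continuous_const)))
    continuous_const

/-- The set of rational times on the line determines the supremum. -/
private lemma lt_tm_iff (N : NF E) {v w : E} (hv : v ≠ 0) (hne : ({t : ℝ | N (w - t • v) < 1}).Nonempty)
    (c : ℝ) : c < tm N v w ↔ ∃ q : ℚ, c < q ∧ N (w - (q : ℝ) • v) < 1 := by
  constructor
  · intro h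
    obtain ⟨t, ht, hct⟩ := exists_lt_of_lt_csSup hne h
    -- rational points close to `t`
    have hop := isOpen_section N v w
    obtain ⟨ε, hε, hball⟩ := Metric.isOpen_iff.mp hop t ht
    obtain ⟨q, hq1, hq2⟩ := exists_rat_btwn (lt_add_of_pos_right t hε)
    have hq : (q : ℝ) ∈ Metric.ball t ε := by
      rw [Metric.mem_ball, Real.dist_eq, abs_of_pos (by linarith)]
      linarith
    exact ⟨q, by linarith, hball hq⟩
  · rintro ⟨q, hcq, hq⟩
    exact lt_of_lt_of_le hcq (le_csSup (bdd_line' N hv w) hq)

/-- Borel measurability of the line functions, jointly in (direction, point). -/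
theorem measurable_tm (N : NF E) : Measurable (fun p : E × E => tm N p.1 p.2) := by
  classical
  -- the open set where the section is nonempty
  have hOpen : IsOpen {p : E × E | ({t : ℝ | N (p.2 - t • p.1) < 1}).Nonempty} := by
    have : {p : E × E | ({t : ℝ | N (p.2 - t • p.1) < 1}).Nonempty}
        = ⋃ q : ℝ, {p : E × E | N (p.2 - q • p.1) < 1} := by
      ext p
      simp [Set.Nonempty]
    rw [this]
    exact isOpen_iUnion (fun q => isOpen_line N q)
  refine measurable_of_Ioi (fun c => ?_)
  -- split according to the vanishing of the direction and of the section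
  set U : Set (E × E) := {p : E × E | p.1 ≠ 0 ∧ ({t : ℝ | N (p.2 - t • p.1) < 1}).Nonempty} with hU
  have hUm : MeasurableSet U := by
    have h1 : MeasurableSet {p : E × E | p.1 ≠ 0} :=
      (isOpen_ne.preimage continuous_fst).measurableSet
    exact h1.inter hOpen.measurableSet
  have hUc : ∀ p ∉ U, tm N p.1 p.2 = 0 := by
    intro p hp
    by_cases h0 : p.1 = 0
    · -- direction zero: the section is empty or everything
      unfold tm
      rw [h0]
      simp only [smul_zero, sub_zero]
      by_cases hlt : N p.2 < 1
      · have : {t : ℝ | N p.2 < 1} = Set.univ := by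
          ext t
          simp [hlt]
        rw [this]
        exact Real.sSup_univ
      · have : {t : ℝ | N p.2 < 1} = ∅ := by
          ext t
          simp [hlt]
        rw [this]
        exact Real.sSup_empty
    · have hempty : ¬ ({t : ℝ | N (p.2 - t • p.1) < 1}).Nonempty := fun hne => hp ⟨h0, hne⟩
      unfold tm
      rw [Set.not_nonempty_iff_eq_empty.mp hempty]
      exact Real.sSup_empty
  have hset : (fun p : E × E => tm N p.1 p.2) ⁻¹' Ioi c
      = (U ∩ ⋃ q : {q : ℚ // c < q}, {p : E × E | N (p.2 - ((q : ℚ) : ℝ) • p.1) < 1})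
        ∪ (Uᶜ ∩ {_p : E × E | c < 0}) := by
    ext p
    simp only [mem_preimage, mem_Ioi, mem_union, mem_inter_iff, mem_iUnion, mem_compl_iff]
    by_cases hp : p ∈ U
    · have := lt_tm_iff N hp.1 hp.2 c
      simp only [hp, true_and, not_true, false_and, or_false]
      rw [this]
      constructor
      · rintro ⟨q, hq1, hq2⟩
        exact ⟨⟨q, hq1⟩, hq2⟩
      · rintro ⟨⟨q, hq1⟩, hq2⟩
        exact ⟨q, hq1, hq2⟩
    · rw [hUc p hp]
      simp [hp]
  rw [hset]
  refine (hUm.inter ?_).union (hUm.compl.inter ?_)
  · exact MeasurableSet.iUnion (fun q => (isOpen_line N _).measurableSet)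
  · exact MeasurableSet.const _

theorem measurable_tp (N : NF E) : Measurable (fun p : E × E => tp N p.1 p.2) := by
  have e : (fun p : E × E => tp N p.1 p.2) = (fun p : E × E => tm N p.1 p.2) ∘ (fun p => (-p.1, p.2)) := by
    funext p
    simp only [Function.comp, tm_neg]
  rw [e]
  exact (measurable_tm N).comp (by fun_prop)

theorem measurable_entryPt (N : NF E) : Measurable (fun p : E × E => entryPt N p.1 p.2) := by
  unfold entryPt
  exact measurable_snd.sub ((measurable_tm N).smul measurable_fst)

theorem measurable_exitPt (N : NF E) : Measurable (fun p : E × E => exitPt N p.1 p.2) := by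
  unfold exitPt
  exact measurable_snd.add ((measurable_tp N).smul measurable_fst)

theorem measurable_len (N : NF E) : Measurable (fun p : E × E => len N p.1 p.2) := by
  unfold len
  exact (measurable_tm N).add (measurable_tp N)

theorem measurableSet_hits (N : NF E) : MeasurableSet {p : E × E | hits N p.1 p.2} := by
  have : {p : E × E | hits N p.1 p.2} = ⋃ q : ℝ, {p : E × E | N (p.2 + q • p.1) < 1} := by
    ext p
    simp [hits]
  rw [this]
  refine (isOpen_iUnion (fun q => isOpen_lt (N.continuous.comp
    (continuous_snd.add (continuous_const.smul continuous_fst))) continuous_const)).measurableSet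

theorem measurableSet_tube (N : NF E) : MeasurableSet {p : E × E | p.2 ∈ Tube N p.1} := by
  have h1 := measurableSet_hits N
  have h2 : MeasurableSet {p : E × E | 0 < tm N p.1 p.2} :=
    measurableSet_lt measurable_const (measurable_tm N)
  have h3 : MeasurableSet {p : E × E | tm N p.1 p.2 < 1 / (Module.finrank ℝ E : ℝ)} :=
    measurableSet_lt (measurable_tm N) measurable_const
  exact h1.inter (h2.inter h3)

end Vale.Agent.Lib.P084T
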