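import Mathlib

set_option linter.unusedSectionVars false

/-!
# P084T: finite dimensional Tingley problem, shared definitions.

Everything lives in one inner product space `E` with two norm functions `N`, `N'`
(see `notes/P084_blueprint.md`).
-/

open MeasureTheory Set Filter Topology
open scoped RealInnerProductSpace ENNReal NNReal

namespace Vale.Agent.Lib.P084T

/-- A norm function on the inner product space `E`. -/
structure NF (E : Type*) [NormedAddCommGroup E] [InnerProductSpace ℝ E] where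
  toFun : E → ℝ
  add_le : ∀ x y, toFun (x + y) ≤ toFun x + toFun y
  smul_eq : ∀ (c : ℝ) (x : E), toFun (c • x) = |c| * toFun x
  pos : ∀ x, x ≠ 0 → 0 < toFun x

variable {E : Type*} [NormedAddCommGroup E] [InnerProductSpace ℝ E]

instance : CoeFun (NF E) (fun _ => E → ℝ) := ⟨NF.toFun⟩

namespace NF

variable (N : NF E)

theorem map_zero' : N 0 = 0 := by
  have := N.smul_eq 0 0
  simpa using this

theorem nonneg (x : E) : 0 ≤ N x := by
  by_cases h : x = 0
  · rw [h, map_zero']
  · exact (N.pos x h).le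

theorem map_neg' (x : E) : N (-x) = N x := by
  have := N.smul_eq (-1) x
  simpa using this

theorem sub_le (x y : E) : N x - N y ≤ N (x - y) := by
  have := N.add_le (x - y) y
  simp only [sub_add_cancel] at this
  linarith

theorem abs_sub_le (x y : E) : |N x - N y| ≤ N (x - y) := by
  rw [abs_le]
  constructor
  · have := N.sub_le y x
    have h2 : N (y - x) = N (x - y) := by rw [← map_neg', neg_sub]
    linarith
  · exact N.sub_le x y

/-- Open unit ball. -/
def ball : Set E := {x | N x < 1}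

/-- Unit sphere. -/
def sphere : Set E := {x | N x = 1}

variable [FiniteDimensional ℝ E]

/-- Every norm function is equivalent to the Euclidean norm. -/
theorem exists_bounds : ∃ C : ℝ, 0 < C ∧ ∀ x, N x ≤ C * ‖x‖ ∧ ‖x‖ ≤ C * N x := by
  classical
  -- upper bound via an orthonormal basis
  let b := stdOrthonormalBasis ℝ E
  let C₁ : ℝ := ∑ i, N (b i) + 1
  have hC₁ : 0 < C₁ := by
    have : 0 ≤ ∑ i, N (b i) := Finset.sum_nonneg fun i _ => N.nonneg _
    simp only [C₁]; linarith
  have sum_le : ∀ (s : Finset _) (c : _ → ℝ), N (∑ i ∈ s, c i • b i) ≤ ∑ i ∈ s, |c i| * N (b i) := by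
    intro s c
    induction s using Finset.induction_on with
    | empty => simp [N.map_zero']
    | insert a s ha ih =>
      rw [Finset.sum_insert ha, Finset.sum_insert ha]
      refine (N.add_le _ _).trans ?_
      rw [N.smul_eq]
      linarith
  have up : ∀ x, N x ≤ C₁ * ‖x‖ := by
    intro x
    have hx : x = ∑ i, ⟪b i, x⟫ • b i := (b.sum_repr' x).symm
    calc N x = N (∑ i, ⟪b i, x⟫ • b i) := by rw [← hx]
      _ ≤ ∑ i, |⟪b i, x⟫| * N (b i) := sum_le _ _
      _ ≤ ∑ i, ‖x‖ * N (b i) := by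
          refine Finset.sum_le_sum fun i _ => mul_le_mul_of_nonneg_right ?_ (N.nonneg _)
          calc |⟪b i, x⟫| ≤ ‖b i‖ * ‖x‖ := abs_real_inner_le_norm _ _
            _ = ‖x‖ := by simp
      _ = (∑ i, N (b i)) * ‖x‖ := by rw [Finset.sum_mul]; simp [mul_comm]
      _ ≤ C₁ * ‖x‖ := by
          refine mul_le_mul_of_nonneg_right ?_ (norm_nonneg _)
          simp [C₁]
  -- continuity
  have hcont : Continuous (N : E → ℝ) := by
    refine (LipschitzWith.of_dist_le_mul (K := ⟨C₁, hC₁.le⟩) ?_).continuous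
    intro x y
    simp only [dist_eq_norm]
    exact (N.abs_sub_le x y).trans (up _)
  -- lower bound by compactness of the unit sphere
  by_cases hE : Nontrivial E
  · have hne : (Metric.sphere (0 : E) 1).Nonempty := NormedSpace.sphere_nonempty.mpr zero_le_one
    obtain ⟨x₀, hx₀, hmin⟩ := (isCompact_sphere (0 : E) 1).exists_isMinOn hne hcont.continuousOn
    have hx₀0 : x₀ ≠ 0 := by
      intro h; simp [h] at hx₀
    have hm : 0 < N x₀ := N.pos _ hx₀0
    refine ⟨max C₁ (N x₀)⁻¹, lt_max_of_lt_left hC₁, fun x => ⟨?_, ?_⟩⟩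
    · exact (up x).trans (mul_le_mul_of_nonneg_right (le_max_left _ _) (norm_nonneg _))
    · by_cases hx : x = 0
      · simp [hx, N.map_zero']
      · have hnx : 0 < ‖x‖ := norm_pos_iff.mpr hx
        have hmem : (‖x‖⁻¹ • x) ∈ Metric.sphere (0 : E) 1 := by
          simp [norm_smul, hnx.ne']
        have h1 : N x₀ ≤ N (‖x‖⁻¹ • x) := hmin hmem
        rw [N.smul_eq, abs_of_pos (inv_pos.mpr hnx)] at h1
        have h2 : ‖x‖ * N x₀ ≤ N x := by
          have := mul_le_mul_of_nonneg_left h1 hnx.le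
          rwa [← mul_assoc, mul_inv_cancel₀ hnx.ne', one_mul] at this
        calc ‖x‖ = (N x₀)⁻¹ * (‖x‖ * N x₀) := by field_simp
          _ ≤ (N x₀)⁻¹ * N x := mul_le_mul_of_nonneg_left h2 (inv_pos.mpr hm).le
          _ ≤ max C₁ (N x₀)⁻¹ * N x :=
              mul_le_mul_of_nonneg_right (le_max_right _ _) (N.nonneg _)
  · have hall : ∀ x : E, x = 0 := by
      intro x
      by_contra hx
      exact hE ⟨⟨x, 0, hx⟩⟩
    exact ⟨C₁, hC₁, fun x => by simp [hall x, N.map_zero']⟩

theorem lipschitz : ∃ K : ℝ≥0, LipschitzWith K (N : E → ℝ) := by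
  obtain ⟨C, hC, h⟩ := N.exists_bounds
  refine ⟨⟨C, hC.le⟩, LipschitzWith.of_dist_le_mul ?_⟩
  intro x y
  simp only [dist_eq_norm]
  exact (N.abs_sub_le x y).trans (h _).1

theorem continuous : Continuous (N : E → ℝ) := by
  obtain ⟨K, hK⟩ := N.lipschitz
  exact hK.continuous

/-- The set of values of `ξ` on the closed unit ball is bounded above. -/
theorem bddAbove_inner (ξ : E) : BddAbove ((fun x => ⟪ξ, x⟫) '' {x | N x ≤ 1}) := by
  obtain ⟨C, hC, h⟩ := N.exists_bounds
  refine ⟨‖ξ‖ * C, ?_⟩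
  rintro _ ⟨x, hx, rfl⟩
  have h1 : ‖x‖ ≤ C := by
    have := (h x).2
    have h2 : C * N x ≤ C * 1 := mul_le_mul_of_nonneg_left hx hC.le
    linarith
  calc ⟪ξ, x⟫ ≤ ‖ξ‖ * ‖x‖ := real_inner_le_norm _ _
    _ ≤ ‖ξ‖ * C := mul_le_mul_of_nonneg_left h1 (norm_nonneg _)

/-- The dual norm function, with respect to the inner product. -/
noncomputable def dualFun (ξ : E) : ℝ := sSup ((fun x => ⟪ξ, x⟫) '' {x | N x ≤ 1})

theorem inner_le_dualFun_of_le {ξ x : E} (hx : N x ≤ 1) : ⟪ξ, x⟫ ≤ N.dualFun ξ :=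
  le_csSup (N.bddAbove_inner ξ) ⟨x, hx, rfl⟩

theorem inner_le_dualFun_mul (ξ x : E) : ⟪ξ, x⟫ ≤ N.dualFun ξ * N x := by
  by_cases hx : x = 0
  · simp [hx, N.map_zero']
  · have hp := N.pos x hx
    have h1 : N ((N x)⁻¹ • x) ≤ 1 := by
      rw [N.smul_eq, abs_of_pos (inv_pos.mpr hp), inv_mul_cancel₀ hp.ne']
    have h2 := N.inner_le_dualFun_of_le (ξ := ξ) h1
    rw [inner_smul_right] at h2
    have h3 := mul_le_mul_of_nonneg_right h2 hp.le
    have h4 : (N x)⁻¹ * ⟪ξ, x⟫ * N x = ⟪ξ, x⟫ := by field_simp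
    linarith

theorem dualFun_nonneg (ξ : E) : 0 ≤ N.dualFun ξ := by
  have := N.inner_le_dualFun_of_le (ξ := ξ) (x := 0) (by simp [N.map_zero'])
  simpa using this

/-- The dual norm function, as a norm function. -/
noncomputable def dual : NF E where
  toFun := N.dualFun
  add_le := by
    intro ξ η
    refine csSup_le ?_ ?_
    · exact ⟨_, 0, by simp [N.map_zero'], rfl⟩
    · rintro _ ⟨x, hx, rfl⟩
      simp only [inner_add_left]
      exact add_le_add (N.inner_le_dualFun_of_le hx) (N.inner_le_dualFun_of_le hx)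
  smul_eq := by
    intro c ξ
    have key : ∀ (c : ℝ) (ξ : E), N.dualFun (c • ξ) ≤ |c| * N.dualFun ξ := by
      intro c ξ
      refine csSup_le ⟨_, 0, by simp [N.map_zero'], rfl⟩ ?_
      rintro _ ⟨x, hx, rfl⟩
      simp only [inner_smul_left, conj_trivial]
      rcases le_total 0 c with hc | hc
      · rw [abs_of_nonneg hc]
        exact mul_le_mul_of_nonneg_left (N.inner_le_dualFun_of_le hx) hc
      · rw [abs_of_nonpos hc]
        have h1 : N (-x) ≤ 1 := by rwa [N.map_neg']
        have h2 := N.inner_le_dualFun_of_le (ξ := ξ) h1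
        rw [inner_neg_right] at h2
        nlinarith
    apply le_antisymm (key c ξ)
    by_cases hc : c = 0
    · simp [hc, N.dualFun_nonneg]
    · have h := key c⁻¹ (c • ξ)
      rw [smul_smul, inv_mul_cancel₀ hc, one_smul, abs_inv] at h
      have hpos : 0 < |c| := abs_pos.mpr hc
      calc |c| * N.dualFun ξ ≤ |c| * (|c|⁻¹ * N.dualFun (c • ξ)) :=
            mul_le_mul_of_nonneg_left h hpos.le
        _ = N.dualFun (c • ξ) := by field_simp
  pos := by
    intro ξ hξ
    obtain ⟨C, hC, h⟩ := N.exists_bounds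
    have hn : 0 < ‖ξ‖ := norm_pos_iff.mpr hξ
    have h1 := N.inner_le_dualFun_mul ξ ξ
    have h2 : ⟪ξ, ξ⟫ = ‖ξ‖ ^ 2 := real_inner_self_eq_norm_sq ξ
    have h3 := (h ξ).1
    have h4 : ‖ξ‖ ^ 2 ≤ N.dualFun ξ * (C * ‖ξ‖) := by
      rw [← h2]
      exact h1.trans (mul_le_mul_of_nonneg_left h3 (N.dualFun_nonneg ξ))
    by_contra hneg
    have h5 : N.dualFun ξ ≤ 0 := not_lt.mp hneg
    have h6 : N.dualFun ξ * (C * ‖ξ‖) ≤ 0 :=
      mul_nonpos_of_nonpos_of_nonneg h5 (by positivity)
    nlinarith [sq_pos_of_pos hn]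

end NF

/-- Strict convexity of a norm function. -/
def StrictC (N : NF E) : Prop :=
  ∀ x y, N x = 1 → N y = 1 → x ≠ y → N ((1 / 2 : ℝ) • (x + y)) < 1

variable [CompleteSpace E]

/-- The gradient of a norm function (the zero vector at points of non differentiability). -/
noncomputable def grad (N : NF E) (x : E) : E := gradient (N : E → ℝ) x

variable [FiniteDimensional ℝ E]

/-- The norming point of the functional `ξ`: the gradient of the dual norm function at `ξ`. -/
noncomputable def uhat (N : NF E) (ξ : E) : E := grad N.dual ξ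

/-- Radial projection to the unit sphere of `N`. -/
noncomputable def rad (N : NF E) (z : E) : E := (N z)⁻¹ • z

omit [CompleteSpace E] [FiniteDimensional ℝ E] in
/-- The line through `w` with direction `v` meets the open unit ball. -/
def hits (N : NF E) (v w : E) : Prop := ∃ t : ℝ, N (w + t • v) < 1

omit [CompleteSpace E] [FiniteDimensional ℝ E] in
/-- Backward time from `w` to the entry point of the line into the ball. -/
noncomputable def tm (N : NF E) (v w : E) : ℝ := sSup {t : ℝ | N (w - t • v) < 1}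

omit [CompleteSpace E] [FiniteDimensional ℝ E] in
/-- Forward time from `w` to the exit point of the line from the ball. -/
noncomputable def tp (N : NF E) (v w : E) : ℝ := sSup {t : ℝ | N (w + t • v) < 1}

omit [CompleteSpace E] [FiniteDimensional ℝ E] in
/-- Entry point. -/
noncomputable def entryPt (N : NF E) (v w : E) : E := w - tm N v w • v

omit [CompleteSpace E] [FiniteDimensional ℝ E] in
/-- Exit point. -/
noncomputable def exitPt (N : NF E) (v w : E) : E := w + tp N v w • v

omit [CompleteSpace E] [FiniteDimensional ℝ E] in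
/-- Length in the time parameter of the chord on the line through `w`. -/
noncomputable def len (N : NF E) (v w : E) : ℝ := tm N v w + tp N v w

omit [CompleteSpace E] in
/-- Tube of time height `1 / n` above the lower boundary of the ball in direction `v`. -/
def Tube (N : NF E) (v : E) : Set E :=
  {w | hits N v w ∧ 0 < tm N v w ∧ tm N v w < 1 / (Module.finrank ℝ E : ℝ)}

/-- Radial isometries: the radial extensions of a surjective isometry of unit spheres. -/
structure RadIso (N N' : NF E) where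
  F : E → E
  G : E → E
  G_F : ∀ x, G (F x) = x
  F_G : ∀ y, F (G y) = y
  norm_F : ∀ x, N' (F x) = N x
  smul_F : ∀ (c : ℝ) (x : E), 0 < c → F (c • x) = c • F x
  iso : ∀ x y, N x = 1 → N y = 1 → N' (F x - F y) = N (x - y)

variable {N N' : NF E}

/-- Upper second order Taylor bound of `N` at `x`. -/
def UT (N : NF E) (x : E) : Prop :=
  ∃ C δ : ℝ, 0 < δ ∧ ∀ h, ‖h‖ < δ → N (x + h) ≤ N x + ⟪grad N x, h⟫ + C * ‖h‖ ^ 2

/-- The full measure cone of good points. -/
def Good (R : RadIso N N') : Set E :=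
  {x | x ≠ 0 ∧ DifferentiableAt ℝ R.F x ∧ DifferentiableAt ℝ R.G (R.F x) ∧
    DifferentiableAt ℝ (N : E → ℝ) x ∧ DifferentiableAt ℝ (N' : E → ℝ) (R.F x) ∧
    UT N x ∧ UT N' (R.F x)}

/-- Second order differentiability of the dual norm at `ξ`. -/
def AlexAt (N : NF E) (ξ : E) : Prop :=
  ∃ Q : E →L[ℝ] E, HasFDerivAt (uhat N) Q ξ ∧ (∀ v w, ⟪Q v, w⟫ = ⟪v, Q w⟫) ∧ ∀ v, 0 ≤ ⟪Q v, v⟫

/-- The adjoint of the derivative of `G` at `F a` (the adjoint inverse of the derivative of `F`
at a good point `a`). -/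
noncomputable def Xi (R : RadIso N N') (a : E) : E →L[ℝ] E :=
  ContinuousLinearMap.adjoint (fderiv ℝ R.G (R.F a))

/-- The partner of the functional `ξ` at the point `a`. -/
noncomputable def Tmap (R : RadIso N N') (a ξ : E) : E :=
  entryPt N'.dual (grad N' (R.F a)) (Xi R a ξ)

/-- The Jacobian ratio attached to the chord from `a` to `b`. -/
noncomputable def ell (R : RadIso N N') (a b : E) : ℝ :=
  |(fderiv ℝ R.F a).det| * (1 - ⟪grad N' (R.F a), R.F b⟫) / (1 - ⟪grad N a, b⟫)

/-- The interpolated mean of `x` and `y`. -/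
noncomputable def Gam (x y : ℝ) : ℝ≥0∞ :=
  ∫⁻ τ in Icc (0 : ℝ) 1, ENNReal.ofReal (x ^ (1 - τ) * y ^ τ)

/-- The operator attached to the derivative `A` at an end point of a chord:
`M h = A (p h) - ⟪ζ, A (p h)⟫ • u' + ⟪ξ, h⟫ • u'`, where `p h = h - (⟪φ, h⟫ / ⟪φ, u⟫) • u`. -/
noncomputable def Mop (A : E →L[ℝ] E) (φ u u' ξ ζ : E) : E →L[ℝ] E :=
  let p : E →L[ℝ] E :=
    ContinuousLinearMap.id ℝ E - ((⟪φ, u⟫)⁻¹ • (innerSL ℝ φ)).smulRight u
  (A.comp p) - ((innerSL ℝ ζ).comp (A.comp p)).smulRight u' + (innerSL ℝ ξ).smulRight u'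

/-- Direction of the chord from `a` to `b` in the domain. -/
noncomputable def cu (N : NF E) (a b : E) : E := (N (b - a))⁻¹ • (b - a)

/-- Direction of the image chord. -/
noncomputable def cu' (R : RadIso N N') (a b : E) : E := (N (b - a))⁻¹ • (R.F b - R.F a)

/-- The first operator of a chord. -/
noncomputable def M0 (R : RadIso N N') (a b ξ ζ : E) : E →L[ℝ] E :=
  Mop (fderiv ℝ R.F a) (grad N a) (cu N a b) (cu' R a b) ξ ζ

/-- The second operator of a chord. -/
noncomputable def M1 (R : RadIso N N') (a b ξ ζ : E) : E →L[ℝ] E :=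
  Mop (fderiv ℝ R.F b) (grad N b) (cu N a b) (cu' R a b) ξ ζ

/-- A typical chord with its pair of partner functionals. -/
structure Chord (R : RadIso N N') (a b ξ ζ : E) : Prop where
  ha : N a = 1
  hb : N b = 1
  hab : a ≠ b
  ga : a ∈ Good R
  gb : b ∈ Good R
  hξ : N.dual ξ = 1
  hξu : ⟪ξ, b - a⟫ = N (b - a)
  hζ : N'.dual ζ = 1
  hζu : ⟪ζ, R.F b - R.F a⟫ = N (b - a)
  partner : ∀ h, ⟪grad N a, h⟫ = 0 → ⟪ζ, fderiv ℝ R.F a h⟫ = ⟪ξ, h⟫

/-- The chord affine map of the family of chords of direction `v`. -/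
noncomputable def Psi (R : RadIso N N') (v z : E) : E :=
  R.F (entryPt N v z) + (tm N v z / len N v z) • (R.F (exitPt N v z) - R.F (entryPt N v z))

/-- Swapping the roles of the two norm functions. -/
def RadIso.swap (R : RadIso N N') : RadIso N' N where
  F := R.G
  G := R.F
  G_F := R.F_G
  F_G := R.G_F
  norm_F := by
    intro y
    have := R.norm_F (R.G y)
    rw [R.F_G] at this
    exact this.symm
  smul_F := by
    intro c y hc
    have h1 : R.F (c • R.G y) = c • y := by rw [R.smul_F c _ hc, R.F_G]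
    calc R.G (c • y) = R.G (R.F (c • R.G y)) := by rw [h1]
      _ = c • R.G y := R.G_F _
  iso := by
    intro x y hx hy
    have hx' : N (R.G x) = 1 := by
      have := R.norm_F (R.G x)
      rw [R.F_G] at this
      rw [← this, hx]
    have hy' : N (R.G y) = 1 := by
      have := R.norm_F (R.G y)
      rw [R.F_G] at this
      rw [← this, hy]
    have := R.iso _ _ hx' hy'
    rw [R.F_G, R.F_G] at this
    exact this.symm

omit [FiniteDimensional ℝ E] [CompleteSpace E] in
@[simp] theorem RadIso.swap_F (R : RadIso N N') : R.swap.F = R.G := rfl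
omit [FiniteDimensional ℝ E] [CompleteSpace E] in
@[simp] theorem RadIso.swap_G (R : RadIso N N') : R.swap.G = R.F := rfl

end Vale.Agent.Lib.P084T
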