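import Vale.Agent.Lib.P084T.E1
import Vale.Agent.Lib.P084T.B5

set_option linter.unusedSectionVars false

/-! # P084T part E2. See `notes/P084_blueprint.md`, section E2. -/

open MeasureTheory Set Filter Topology
open scoped RealInnerProductSpace ENNReal NNReal

namespace Vale.Agent.Lib.P084T

variable {E : Type*} [NormedAddCommGroup E] [InnerProductSpace ℝ E] [FiniteDimensional ℝ E]
  [CompleteSpace E] [MeasurableSpace E] [BorelSpace E]
variable {N N' : NF E}

private theorem Xi_inner (R : RadIso N N') (a ξ y : E) :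
    ⟪Xi R a ξ, y⟫ = ⟪ξ, fderiv ℝ R.G (R.F a) y⟫ := by
  simp only [Xi]
  rw [ContinuousLinearMap.adjoint_inner_left]

private theorem F_ne_zero (R : RadIso N N') {a : E} (ha : a ≠ 0) : R.F a ≠ 0 := by
  intro h
  have h1 := R.norm_F a
  rw [h, N'.map_zero'] at h1
  exact (N.pos a ha).ne h1

private theorem G_comp_apply (R : RadIso N N') {a : E} (ha : a ∈ Good R) (h : E) :
    fderiv ℝ R.G (R.F a) (fderiv ℝ R.F a h) = h := by
  have h1 := (R.good_inverse ha).1
  have := congrArg (fun L : E →L[ℝ] E => L h) h1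
  simpa using this

private theorem F_comp_apply (R : RadIso N N') {a : E} (ha : a ∈ Good R) (y : E) :
    fderiv ℝ R.F a (fderiv ℝ R.G (R.F a) y) = y := by
  have h1 := (R.good_inverse ha).2
  have := congrArg (fun L : E →L[ℝ] E => L y) h1
  simpa using this

theorem Xi_grad (R : RadIso N N') {a : E} (ha : a ∈ Good R) :
    Xi R a (grad N a) = grad N' (R.F a) := by
  apply ext_inner_right ℝ
  intro y
  rw [Xi_inner, ← R.good_grad ha, F_comp_apply R ha]

theorem Xi_apply (R : RadIso N N') {a : E} (ha : a ∈ Good R) (ξ h : E) :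
    ⟪Xi R a ξ, fderiv ℝ R.F a h⟫ = ⟪ξ, h⟫ := by
  rw [Xi_inner, G_comp_apply R ha]

/-- Inner product characterisation of the dual norm function. -/
private theorem dual_le_of_forall (N : NF E) {ξ : E} {c : ℝ} (hc : 0 ≤ c)
    (h : ∀ x, ⟪ξ, x⟫ ≤ c * N x) : N.dual ξ ≤ c := by
  show N.dualFun ξ ≤ c
  refine csSup_le ⟨_, 0, by simp [N.map_zero'], rfl⟩ ?_
  rintro _ ⟨x, hx, rfl⟩
  calc ⟪ξ, x⟫ ≤ c * N x := h x
    _ ≤ c * 1 := mul_le_mul_of_nonneg_left hx hc
    _ = c := mul_one c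

private theorem exists_lt_of_hasDerivAt_neg {g : ℝ → ℝ} {d : ℝ} (hg : HasDerivAt g d 0)
    (hd : d < 0) : ∃ ε : ℝ, 0 < ε ∧ g ε < g 0 := by
  have h1 := hasDerivAt_iff_tendsto_slope.mp hg
  have h2 : ∀ᶠ x in 𝓝[≠] (0 : ℝ), slope g 0 x < 0 := h1.eventually (Iio_mem_nhds hd)
  have h3 : ∀ᶠ x in 𝓝[>] (0 : ℝ), slope g 0 x < 0 :=
    h2.filter_mono (nhdsWithin_mono _ (fun x (hx : 0 < x) => ne_of_gt hx))
  obtain ⟨x, hx1, hx2⟩ := (h3.and self_mem_nhdsWithin).exists
  have hx0 : (0 : ℝ) < x := hx2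
  refine ⟨x, hx0, ?_⟩
  have h4 : slope g 0 x = (g x - g 0) / x := by
    simp [slope_def_field]
  rw [h4] at hx1
  have := (div_lt_iff₀ hx0).1 hx1
  linarith

/-- A vector orthogonal to the kernel of `⟪φ, ·⟫` is a multiple of `φ`. -/
private theorem exists_smul_of_ker (φ : E) (hφ : φ ≠ 0) (ψ : E)
    (h : ∀ y, ⟪φ, y⟫ = 0 → ⟪ψ, y⟫ = 0) : ∃ s : ℝ, ψ = s • φ := by
  have hφ2 : ⟪φ, φ⟫ ≠ 0 := by
    simpa using hφ
  refine ⟨⟪ψ, φ⟫ / ⟪φ, φ⟫, ?_⟩
  have key : ⟪ψ - (⟪ψ, φ⟫ / ⟪φ, φ⟫) • φ, ψ - (⟪ψ, φ⟫ / ⟪φ, φ⟫) • φ⟫ = 0 := by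
    set y := ψ - (⟪ψ, φ⟫ / ⟪φ, φ⟫) • φ with hy
    have h1 : ⟪φ, y⟫ = 0 := by
      rw [hy, inner_sub_right, inner_smul_right, real_inner_comm ψ φ]
      field_simp
      ring
    have h2 : ⟪ψ, y⟫ = 0 := h y h1
    rw [hy, inner_sub_left, inner_smul_left]
    rw [← hy]
    simp only [conj_trivial]
    rw [h1, h2]
    ring
  have := inner_self_eq_zero.mp key
  exact sub_eq_zero.mp this

/-- Hahn-Banach step of `hits_Xi`. -/
private theorem hits_Xi_aux (R : RadIso N N') {a ξ : E} (ha : a ∈ Good R)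
    (h : hits N.dual (grad N a) ξ) : hits N'.dual (grad N' (R.F a)) (Xi R a ξ) := by
  classical
  obtain ⟨t, ht⟩ := h
  set φ := grad N a with hφdef
  set φ' := grad N' (R.F a) with hφ'def
  obtain ⟨c, hc1, hc2, hc0⟩ : ∃ c : ℝ, N.dual (ξ + t • φ) < c ∧ c < 1 ∧ 0 < c := by
    refine ⟨(N.dual (ξ + t • φ) + 1) / 2, by linarith, by linarith, ?_⟩
    have := N.dual.nonneg (ξ + t • φ)
    linarith
  -- the functional on the kernel
  let S : Submodule ℝ E := LinearMap.ker (innerSL ℝ φ' : E →L[ℝ] ℝ).toLinearMap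
  let f0 : S →ₗ[ℝ] ℝ := (innerSL ℝ (Xi R a ξ) : E →L[ℝ] ℝ).toLinearMap.comp S.subtype
  let f : E →ₗ.[ℝ] ℝ := ⟨S, f0⟩
  have hle : ∀ x : f.domain, f x ≤ (fun y => c * N' y) x := by
    rintro ⟨y, hy⟩
    have hy0 : ⟪φ', y⟫ = 0 := by
      have hyS : y ∈ S := hy
      simpa [S] using hyS
    show ⟪Xi R a ξ, y⟫ ≤ c * N' y
    set h := fderiv ℝ R.G (R.F a) y with hh
    have hFh : fderiv ℝ R.F a h = y := F_comp_apply R ha y
    have hφh : ⟪φ, h⟫ = 0 := by
      rw [hφdef, ← R.good_grad ha, hFh]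
      exact hy0
    have h1 : ⟪Xi R a ξ, y⟫ = ⟪ξ + t • φ, h⟫ := by
      rw [Xi_inner, inner_add_left, inner_smul_left, hφh]
      simp [hh]
    rw [h1]
    have h2 := N.inner_le (ξ + t • φ) h
    have h3 : N' y = N h := by
      rw [← hFh]
      exact R.good_iso ha hφh
    rw [h3]
    exact h2.trans (mul_le_mul_of_nonneg_right hc1.le (N.nonneg _))
  obtain ⟨g, hg1, hg2⟩ := exists_extension_of_le_sublinear f (fun y => c * N' y)
    (by
      intro r hr x
      show c * N' (r • x) = r * (c * N' x)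
      rw [N'.smul_eq, abs_of_pos hr]
      ring)
    (by
      intro x y
      show c * N' (x + y) ≤ c * N' x + c * N' y
      have := N'.add_le x y
      nlinarith)
    hle
  -- Riesz
  let gC : E →L[ℝ] ℝ := LinearMap.toContinuousLinearMap g
  let ζ : E := (InnerProductSpace.toDual ℝ E).symm gC
  have hζ : ∀ y, ⟪ζ, y⟫ = g y := by
    intro y
    have := InnerProductSpace.toDual_symm_apply (𝕜 := ℝ) (E := E) (x := y) (y := gC)
    simpa [ζ, gC] using this
  have hdual : N'.dual ζ ≤ c := by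
    apply dual_le_of_forall N' hc0.le
    intro y
    rw [hζ]
    exact hg2 y
  have hφ'0 : φ' ≠ 0 := by
    have hx : R.F a ≠ 0 := F_ne_zero R ha.1
    have := (N'.grad_spec hx ha.2.2.2.2.1).2.1
    intro h0
    rw [← hφ'def, h0, N'.dual.map_zero'] at this
    exact zero_ne_one this
  obtain ⟨s, hs⟩ := exists_smul_of_ker φ' hφ'0 (ζ - Xi R a ξ) (by
    intro y hy
    rw [inner_sub_left, hζ]
    have hmem : y ∈ S := by
      simpa [S] using hy
    have := hg1 ⟨y, hmem⟩
    have h3 : g y = ⟪Xi R a ξ, y⟫ := this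
    rw [h3]
    ring)
  refine ⟨s, ?_⟩
  have h5 : Xi R a ξ + s • φ' = ζ := by
    rw [← hs]
    abel
  rw [h5]
  exact lt_of_le_of_lt hdual hc2

/-- The lines in the dual space correspond (Hahn-Banach). -/
theorem hits_Xi (R : RadIso N N') {a ξ : E} (ha : a ∈ Good R) :
    hits N'.dual (grad N' (R.F a)) (Xi R a ξ) ↔ hits N.dual (grad N a) ξ := by
  constructor
  · intro h
    have ha' : R.F a ∈ Good R.swap := R.good_swap ha
    have h2 := hits_Xi_aux R.swap ha' (ξ := Xi R a ξ) (by simpa using h)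
    have h3 : Xi R.swap (R.F a) (Xi R a ξ) = ξ := by
      apply ext_inner_right ℝ
      intro y
      rw [Xi_inner, Xi_inner]
      simp only [RadIso.swap_F, RadIso.swap_G]
      rw [R.G_F, G_comp_apply R ha]
    rw [h3] at h2
    simpa [R.G_F] using h2
  · exact hits_Xi_aux R ha

/-- Chord correspondence. -/
theorem chord_corr (R : RadIso N N') (hSC : StrictC N) {a ξ : E} (ha : a ∈ Good R) (ha1 : N a = 1)
    (hξ : N.dual ξ = 1) (hφ : ⟪grad N a, uhat N ξ⟫ < 0) :
    N'.dual (Tmap R a ξ) = 1 ∧ ⟪grad N' (R.F a), uhat N' (Tmap R a ξ)⟫ < 0 ∧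
      (∀ h, ⟪grad N a, h⟫ = 0 → ⟪Tmap R a ξ, fderiv ℝ R.F a h⟫ = ⟪ξ, h⟫) ∧
      R.F (exitPt N (uhat N ξ) a) = exitPt N' (uhat N' (Tmap R a ξ)) (R.F a) ∧
      tp N' (uhat N' (Tmap R a ξ)) (R.F a) = tp N (uhat N ξ) a := by
  classical
  have hξ0 : ξ ≠ 0 := by
    intro h0
    rw [h0, N.dual.map_zero'] at hξ
    exact zero_ne_one hξ
  have hSC' : StrictC N' := R.strictC hSC
  obtain ⟨hgrad, hu1, hξu⟩ := hSC.uhat_spec hξ0
  set u := uhat N ξ with hu
  set φ := grad N a with hφdef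
  set φ' := grad N' (R.F a) with hφ'def
  have hFa0 : R.F a ≠ 0 := F_ne_zero R ha.1
  obtain ⟨-, hφ'1, hφ'Fa⟩ := N'.grad_spec hFa0 ha.2.2.2.2.1
  have hFa1 : N' (R.F a) = 1 := by rw [R.norm_F, ha1]
  have hu0 : u ≠ 0 := by
    intro h0
    rw [h0, N.map_zero'] at hu1
    exact zero_ne_one hu1
  -- `ξ` hits: the gradient of the dual norm is `u`
  have hhit : hits N.dual φ ξ := by
    have hd : HasDerivAt (fun ε : ℝ => N.dual (ξ + ε • φ)) ⟪u, φ⟫ 0 := by
      have h1 : HasFDerivAt (N.dual : E → ℝ) (InnerProductSpace.toDual ℝ E u) (ξ + (0 : ℝ) • φ) := by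
        have h10 : ξ + (0 : ℝ) • φ = ξ := by simp
        rw [h10]
        exact hgrad.hasFDerivAt
      have h2 : HasDerivAt (fun ε : ℝ => ξ + ε • φ) φ 0 := by
        simpa using ((hasDerivAt_id (0 : ℝ)).smul_const φ).const_add ξ
      have h3 := h1.comp_hasDerivAt (0 : ℝ) h2
      have h4 : (InnerProductSpace.toDual ℝ E u) φ = ⟪u, φ⟫ := by simp
      rw [h4] at h3
      exact h3
    have hneg : ⟪u, φ⟫ < 0 := by rwa [real_inner_comm]
    obtain ⟨ε, hε0, hε⟩ := exists_lt_of_hasDerivAt_neg hd hneg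
    refine ⟨ε, ?_⟩
    have h00 : ξ + (0 : ℝ) • φ = ξ := by simp
    rw [h00] at hε
    show N.dual (ξ + ε • φ) < 1
    linarith [hξ]
  -- the exit point
  obtain ⟨hh1, htm0, hent⟩ := entry_of_grad_neg N ha1 ha.2.2.2.1 hφ
  have hlen : 0 < tp N u a := by
    have := len_pos N hu0 hh1
    simpa [len, htm0] using this
  set L := tp N u a with hL
  set b := exitPt N u a with hb
  have hbdef : b = a + L • u := rfl
  have hb1 : N b = 1 := norm_exitPt N hu0 hh1
  have hNba : N (b - a) = L := by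
    rw [hbdef, add_sub_cancel_left, N.smul_eq, abs_of_pos hlen, hu1, mul_one]
  have hNab : N (a - b) = L := by
    have : a - b = -(b - a) := by abel
    rw [this, N.map_neg', hNba]
  have hab : a ≠ b := by
    intro h0
    have : N (b - a) = 0 := by
      rw [← h0, sub_self, N.map_zero']
    rw [hNba] at this
    exact hlen.ne' this
  -- the partner
  have hdualneg : N.dual (-ξ) ≤ 1 := by
    rw [N.dual.map_neg']
    exact hξ.le
  have hinner : ⟪-ξ, a - b⟫ = N (a - b) := by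
    rw [hNab, hbdef]
    have : a - (a + L • u) = -(L • u) := by abel
    rw [this, inner_neg_neg, inner_smul_right, hξu, hξ, mul_one]
  obtain ⟨η', hη'1, hη'2, hη'3⟩ := corr_partner R hSC ha ha1 hb1 hab hdualneg hinner
  set ζ := -η' with hζdef
  have hζ1 : N'.dual ζ ≤ 1 := by
    rw [hζdef, N'.dual.map_neg']
    exact hη'1
  have hFb1 : N' (R.F b) = 1 := by rw [R.norm_F, hb1]
  have hFab : R.F a ≠ R.F b := by
    intro h0
    apply hab
    have := congrArg R.G h0
    rwa [R.G_F, R.G_F] at this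
  have hNF : N' (R.F b - R.F a) = L := by
    rw [R.iso b a hb1 ha1, hNba]
  have hζ2 : ⟪ζ, R.F b - R.F a⟫ = L := by
    have : R.F b - R.F a = -(R.F a - R.F b) := by abel
    rw [hζdef, this, inner_neg_neg, hη'2, hNab]
  have hζ3 : ∀ h, ⟪φ, h⟫ = 0 → ⟪ζ, fderiv ℝ R.F a h⟫ = ⟪ξ, h⟫ := by
    intro h hh
    rw [hζdef, inner_neg_left, hη'3 h hh, inner_neg_left, neg_neg]
  have hζnorm : N'.dual ζ = 1 := by
    apply le_antisymm hζ1
    have h1 := N'.inner_le ζ (R.F b - R.F a)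
    rw [hζ2, hNF] at h1
    by_contra hlt
    push_neg at hlt
    nlinarith
  have hζ0 : ζ ≠ 0 := by
    intro h0
    rw [h0, N'.dual.map_zero'] at hζnorm
    exact zero_ne_one hζnorm
  -- the image direction
  set u' := L⁻¹ • (R.F b - R.F a) with hu'def
  have hu'1 : N' u' = 1 := by
    rw [hu'def, N'.smul_eq, abs_of_pos (inv_pos.mpr hlen), hNF, inv_mul_cancel₀ hlen.ne']
  have hζu' : ⟪ζ, u'⟫ = N'.dual ζ := by
    rw [hu'def, inner_smul_right, hζ2, hζnorm, inv_mul_cancel₀ hlen.ne']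
  have hu'eq : u' = uhat N' ζ := hSC'.uhat_unique hζ0 hu'1 hζu'
  have hφ'Fa1 : ⟪φ', R.F a⟫ = 1 := by rw [hφ'Fa, hFa1]
  have hφ'Fb : ⟪φ', R.F b⟫ < 1 := hSC'.inner_lt hFa1 hFb1 hFab hφ'1.le hφ'Fa1
  have hφ'u' : ⟪φ', u'⟫ < 0 := by
    rw [hu'def, inner_smul_right, inner_sub_right, hφ'Fa1]
    have h0 : ⟪φ', R.F b⟫ - 1 < 0 := by linarith
    exact mul_neg_of_pos_of_neg (inv_pos.mpr hlen) h0
  -- `ζ` lies on the line of `Ξ ξ`
  have hφ'0 : φ' ≠ 0 := by
    intro h0
    have h5 : N'.dual φ' = 1 := hφ'1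
    rw [h0, N'.dual.map_zero'] at h5
    exact zero_ne_one h5
  obtain ⟨s, hs⟩ := exists_smul_of_ker φ' hφ'0 (ζ - Xi R a ξ) (by
    intro y hy
    have hFh : fderiv ℝ R.F a (fderiv ℝ R.G (R.F a) y) = y := F_comp_apply R ha y
    have hφh : ⟪φ, fderiv ℝ R.G (R.F a) y⟫ = 0 := by
      rw [hφdef, ← R.good_grad ha, hFh]
      exact hy
    have h1 := hζ3 _ hφh
    rw [hFh] at h1
    rw [inner_sub_left, h1, Xi_inner]
    ring)
  have hζline : ζ = Xi R a ξ + s • φ' := by
    rw [← hs]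
    abel
  have hhit' : hits N'.dual φ' (Xi R a ξ) := (hits_Xi R ha).2 hhit
  have hgradζ : ⟪grad N'.dual ζ, φ'⟫ < 0 := by
    have : grad N'.dual ζ = u' := hu'eq.symm
    rw [this, real_inner_comm]
    exact hφ'u'
  have hdiffζ : DifferentiableAt ℝ (N'.dual : E → ℝ) ζ :=
    (hSC'.uhat_spec hζ0).1.hasFDerivAt.differentiableAt
  obtain ⟨-, -, hentζ⟩ := entry_of_grad_neg N'.dual hζnorm hdiffζ hgradζ
  have hT : Tmap R a ξ = ζ := by
    simp only [Tmap]
    rw [← hφ'def, ← hentζ, hζline]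
    exact (entryPt_add N'.dual hφ'0 hhit' s).symm
  rw [hT, ← hu'eq]
  -- the exit time of the image chord
  obtain ⟨hh1', htm0', -⟩ := entry_of_grad_neg N' hFa1 ha.2.2.2.2.1 hφ'u'
  have hu'0 : u' ≠ 0 := by
    intro h0
    rw [h0, N'.map_zero'] at hu'1
    exact zero_ne_one hu'1
  have hlen' : 0 < tp N' u' (R.F a) := by
    have := len_pos N' hu'0 hh1'
    simpa [len, htm0'] using this
  have hFbline : R.F a + L • u' = R.F b := by
    rw [hu'def, smul_smul, mul_inv_cancel₀ hlen.ne', one_smul]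
    abel
  have htp : tp N' u' (R.F a) = L := by
    apply le_antisymm
    · by_contra hlt
      push_neg at hlt
      have := (line_iff N' hu'0 hh1' L).2 ⟨by rw [htm0']; linarith, hlt⟩
      rw [hFbline, hFb1] at this
      exact lt_irrefl _ this
    · by_contra hlt
      push_neg at hlt
      -- the exit point `x` of the image line lies strictly between `F a` and `F b`
      set t := tp N' u' (R.F a) with ht
      have hx1 : N' (R.F a + t • u') = 1 := norm_exitPt N' hu'0 hh1'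
      set x := R.F a + t • u' with hxdef
      have hx0 : x ≠ 0 := by
        intro h0
        rw [h0, N'.map_zero'] at hx1
        exact zero_ne_one hx1
      obtain ⟨ψ, hψ1, hψ2⟩ := N'.exists_norming_fun hx0
      rw [hx1] at hψ2
      have hxa : x ≠ R.F a := by
        intro h0
        have h1 : t • u' = 0 := by
          have : R.F a + t • u' = R.F a + 0 := by rw [add_zero]; exact h0
          exact add_left_cancel this
        rcases smul_eq_zero.mp h1 with h2 | h2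
        · exact hlen'.ne' h2
        · exact hu'0 h2
      have hxb : x ≠ R.F b := by
        intro h0
        have h1 : (t - L) • u' = 0 := by
          have h2 : R.F a + t • u' = R.F a + L • u' := by rw [hFbline]; exact h0
          have h3 : t • u' = L • u' := add_left_cancel h2
          rw [sub_smul, h3, sub_self]
        rcases smul_eq_zero.mp h1 with h2 | h2
        · have : t = L := by linarith
          linarith
        · exact hu'0 h2
      have hψa : ⟪ψ, R.F a⟫ < 1 := hSC'.inner_lt hx1 hFa1 hxa hψ1.le hψ2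
      have hψb : ⟪ψ, R.F b⟫ < 1 := hSC'.inner_lt hx1 hFb1 hxb hψ1.le hψ2
      -- `x` is a convex combination
      have hcomb : x = (1 - t / L) • R.F a + (t / L) • R.F b := by
        rw [hxdef, hu'def, smul_smul]
        have h5 : t * L⁻¹ = t / L := by rw [div_eq_mul_inv]
        rw [h5, smul_sub, sub_smul, one_smul]
        abel
      have hτ : 0 < t / L := div_pos hlen' hlen
      have hτ1 : t / L < 1 := (div_lt_one hlen).2 hlt
      have : ⟪ψ, x⟫ < 1 := by
        rw [hcomb, inner_add_right, inner_smul_right, inner_smul_right]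
        nlinarith
      rw [hψ2] at this
      exact lt_irrefl _ this
  refine ⟨hζnorm, ?_, hζ3, ?_, htp⟩
  · exact hφ'u'
  · show R.F b = R.F a + tp N' u' (R.F a) • u'
    rw [htp, hFbline]

/-- `Tmap` only depends on the line through `ξ`. -/
theorem Tmap_entry (R : RadIso N N') {a ξ : E} (ha : a ∈ Good R)
    (h : hits N.dual (grad N a) ξ) :
    Tmap R a (entryPt N.dual (grad N a) ξ) = entryPt N'.dual (grad N' (R.F a)) (Xi R a ξ) := by
  have hFa0 : R.F a ≠ 0 := F_ne_zero R ha.1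
  obtain ⟨-, hφ'1, -⟩ := N'.grad_spec hFa0 ha.2.2.2.2.1
  have hφ'0 : grad N' (R.F a) ≠ 0 := by
    intro h0
    rw [h0, N'.dual.map_zero'] at hφ'1
    exact zero_ne_one hφ'1
  have hl : Xi R a (entryPt N.dual (grad N a) ξ)
      = Xi R a ξ + (-tm N.dual (grad N a) ξ) • grad N' (R.F a) := by
    simp only [entryPt]
    rw [map_sub, map_smul, Xi_grad R ha, neg_smul, sub_eq_add_neg]
  simp only [Tmap]
  rw [hl]
  exact entryPt_add N'.dual hφ'0 ((hits_Xi R ha).2 h) _

end Vale.Agent.Lib.P084T
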