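import Vale.Agent.Lib.P084T.D1
import Vale.Agent.Lib.P084T.B1

set_option linter.unusedSectionVars false

/-! # P084T part I1. See `notes/P084_blueprint.md`, section I1. -/

open MeasureTheory Set Filter Topology
open scoped RealInnerProductSpace ENNReal NNReal

namespace Vale.Agent.Lib.P084T

variable {E : Type*} [NormedAddCommGroup E] [InnerProductSpace ℝ E] [FiniteDimensional ℝ E]
  [CompleteSpace E] [MeasurableSpace E] [BorelSpace E]
variable {N N' : NF E}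

private lemma nf_comb (N : NF E) {α β : ℝ} (hα : 0 ≤ α) (hβ : 0 ≤ β) (x y : E) :
    N (α • x + β • y) ≤ α * N x + β * N y := by
  refine (N.add_le _ _).trans ?_
  rw [N.smul_eq, N.smul_eq, abs_of_nonneg hα, abs_of_nonneg hβ]

private lemma strict_between (hSC : StrictC N) {x y : E} (hx : N x = 1) (hy : N y = 1) (hxy : x ≠ y)
    {τ : ℝ} (h0 : 0 < τ) (h1 : τ < 1) : N ((1 - τ) • x + τ • y) < 1 := by
  have hm := hSC x y hx hy hxy
  set m := (1 / 2 : ℝ) • (x + y) with hmdef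
  by_cases hτ : τ ≤ 1 / 2
  · have e : (1 - τ) • x + τ • y = (1 - 2 * τ) • x + (2 * τ) • m := by
      rw [hmdef]
      module
    rw [e]
    have := nf_comb N (by linarith : 0 ≤ 1 - 2 * τ) (by linarith : 0 ≤ 2 * τ) x m
    rw [hx] at this
    nlinarith
  · push Not at hτ
    have e : (1 - τ) • x + τ • y = (2 * τ - 1) • y + (2 - 2 * τ) • m := by
      rw [hmdef]
      module
    rw [e]
    have := nf_comb N (by linarith : 0 ≤ 2 * τ - 1) (by linarith : 0 ≤ 2 - 2 * τ) y m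
    rw [hy] at this
    nlinarith

/-- The facts on the chord through a point of the ball. -/
private structure ChordAt (N : NF E) (v z : E) : Prop where
  hit : hits N v z
  pm : 0 < tm N v z
  pp : 0 < tp N v z
  na : N (entryPt N v z) = 1
  nb : N (exitPt N v z) = 1
  lenp : 0 < len N v z
  sub : exitPt N v z - entryPt N v z = len N v z • v

private lemma chordAt (N : NF E) {v z : E} (hv : v ≠ 0) (hz : z ∈ N.ball) : ChordAt N v z := by
  have hit : hits N v z := hits_of_mem_ball N hz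
  refine ⟨hit, tm_pos N hv hz, tp_pos N hv hz, norm_entryPt N hv hit, norm_exitPt N hv hit,
    len_pos N hv hit, ?_⟩
  unfold exitPt entryPt len
  rw [add_smul]
  abel

/-- The chord affine map is injective on the ball. -/
theorem psi_injOn (R : RadIso N N') (hSC : StrictC N) {ξ : E} (hξ : N.dual ξ = 1) :
    InjOn (Psi R (uhat N ξ)) N.ball := by
  have hξ0 : ξ ≠ 0 := by
    intro h0
    rw [h0, NF.map_zero'] at hξ
    exact zero_ne_one hξ
  obtain ⟨-, hvn, hvξ⟩ := hSC.uhat_spec hξ0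
  rw [hξ] at hvξ
  set v := uhat N ξ with hvdef
  have hv : v ≠ 0 := by
    intro h0
    rw [h0, NF.map_zero'] at hvn
    exact zero_ne_one hvn
  intro z₁ h₁ z₂ h₂ hΨ
  obtain ⟨hit₁, pm₁, pp₁, na₁, nb₁, lp₁, sub₁⟩ := chordAt N hv h₁
  obtain ⟨hit₂, pm₂, pp₂, na₂, nb₂, lp₂, sub₂⟩ := chordAt N hv h₂
  set a₁ := entryPt N v z₁ with ha₁
  set b₁ := exitPt N v z₁ with hb₁
  set a₂ := entryPt N v z₂ with ha₂
  set b₂ := exitPt N v z₂ with hb₂
  set L₁ := len N v z₁ with hL₁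
  set L₂ := len N v z₂ with hL₂
  set τ₁ := tm N v z₁ / L₁ with hτ₁
  set τ₂ := tm N v z₂ / L₂ with hτ₂
  have hτ₁0 : 0 < τ₁ := div_pos pm₁ lp₁
  have hτ₂0 : 0 < τ₂ := div_pos pm₂ lp₂
  have hτ₁1 : τ₁ < 1 := by
    rw [hτ₁, div_lt_one lp₁, hL₁]
    unfold len
    linarith
  have hτ₂1 : τ₂ < 1 := by
    rw [hτ₂, div_lt_one lp₂, hL₂]
    unfold len
    linarith
  have hNL₁ : N (b₁ - a₁) = L₁ := by
    rw [sub₁, N.smul_eq, hvn, mul_one, abs_of_pos lp₁]
  have hNL₂ : N (b₂ - a₂) = L₂ := by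
    rw [sub₂, N.smul_eq, hvn, mul_one, abs_of_pos lp₂]
  have hF₁ : N' (R.F b₁ - R.F a₁) = L₁ := by
    rw [R.iso _ _ nb₁ na₁, hNL₁]
  have hF₂ : N' (R.F b₂ - R.F a₂) = L₂ := by
    rw [R.iso _ _ nb₂ na₂, hNL₂]
  have hΨ' : R.F a₁ + τ₁ • (R.F b₁ - R.F a₁) = R.F a₂ + τ₂ • (R.F b₂ - R.F a₂) := hΨ
  -- the two triangle inequalities
  have t₁ : N' (R.F a₁ - R.F b₂) ≤ τ₁ * L₁ + (1 - τ₂) * L₂ := by
    have e : R.F a₁ - R.F b₂ = (-τ₁) • (R.F b₁ - R.F a₁) + (-(1 - τ₂)) • (R.F b₂ - R.F a₂) := by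
      linear_combination (norm := module) hΨ'
    rw [e]
    refine (N'.add_le _ _).trans ?_
    rw [N'.smul_eq, N'.smul_eq, hF₁, hF₂, abs_neg, abs_neg, abs_of_pos hτ₁0,
      abs_of_pos (by linarith : 0 < 1 - τ₂)]
  have t₂ : N' (R.F a₂ - R.F b₁) ≤ τ₂ * L₂ + (1 - τ₁) * L₁ := by
    have e : R.F a₂ - R.F b₁ = (-τ₂) • (R.F b₂ - R.F a₂) + (-(1 - τ₁)) • (R.F b₁ - R.F a₁) := by
      linear_combination (norm := module) -hΨ'
    rw [e]
    refine (N'.add_le _ _).trans ?_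
    rw [N'.smul_eq, N'.smul_eq, hF₁, hF₂, abs_neg, abs_neg, abs_of_pos hτ₂0,
      abs_of_pos (by linarith : 0 < 1 - τ₁)]
  rw [R.iso _ _ na₁ nb₂] at t₁
  rw [R.iso _ _ na₂ nb₁] at t₂
  have hsym₁ : N (a₁ - b₂) = N (b₂ - a₁) := by rw [← N.map_neg', neg_sub]
  have hsym₂ : N (a₂ - b₁) = N (b₁ - a₂) := by rw [← N.map_neg', neg_sub]
  rw [hsym₁] at t₁
  rw [hsym₂] at t₂
  -- duality
  have hin : ∀ x, ⟪ξ, x⟫ ≤ N x := fun x => by
    have := N.inner_le_dualFun_mul ξ x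
    have h3 : N.dualFun ξ = 1 := hξ
    rwa [h3, one_mul] at this
  have hin₁ : ⟪ξ, b₁ - a₁⟫ = L₁ := by
    rw [sub₁, inner_smul_right, hvξ, mul_one]
  have hin₂ : ⟪ξ, b₂ - a₂⟫ = L₂ := by
    rw [sub₂, inner_smul_right, hvξ, mul_one]
  have hsum : ⟪ξ, b₂ - a₁⟫ + ⟪ξ, b₁ - a₂⟫ = L₁ + L₂ := by
    rw [← hin₁, ← hin₂]
    simp only [inner_sub_right]
    ring
  have heq : N (b₂ - a₁) = ⟪ξ, b₂ - a₁⟫ := by
    have h1 := hin (b₂ - a₁)
    have h2 := hin (b₁ - a₂)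
    nlinarith
  -- the lines coincide
  obtain ⟨c, hc⟩ : ∃ c : ℝ, b₂ - a₁ = c • v := by
    by_cases hb : b₂ - a₁ = 0
    · exact ⟨0, by rw [hb, zero_smul]⟩
    · have hp := N.pos _ hb
      have hu : N ((N (b₂ - a₁))⁻¹ • (b₂ - a₁)) = 1 := by
        rw [N.smul_eq, abs_of_pos (inv_pos.mpr hp), inv_mul_cancel₀ hp.ne']
      have hn : ⟪ξ, (N (b₂ - a₁))⁻¹ • (b₂ - a₁)⟫ = N.dual ξ := by
        rw [inner_smul_right, hξ, ← heq, inv_mul_cancel₀ hp.ne']
      have := hSC.uhat_unique hξ0 hu hn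
      refine ⟨N (b₂ - a₁), ?_⟩
      rw [← hvdef] at this
      rw [← this, smul_smul, mul_inv_cancel₀ hp.ne', one_smul]
  -- `z₁` lies on the line of `z₂`
  have hline : z₁ = z₂ + (tp N v z₂ - c + tm N v z₁) • v := by
    have e1 : a₁ = z₁ - tm N v z₁ • v := rfl
    have e2 : b₂ = z₂ + tp N v z₂ • v := rfl
    have e3 : z₁ = a₁ + tm N v z₁ • v := by rw [e1]; abel
    have e4 : a₁ = b₂ - c • v := by rw [← hc]; abel
    calc z₁ = a₁ + tm N v z₁ • v := e3
      _ = (b₂ - c • v) + tm N v z₁ • v := by rw [← e4]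
      _ = (z₂ + tp N v z₂ • v - c • v) + tm N v z₁ • v := by rw [← e2]
      _ = z₂ + (tp N v z₂ - c + tm N v z₁) • v := by module
  set s := tp N v z₂ - c + tm N v z₁ with hs
  have ea : a₁ = a₂ := by
    rw [ha₁, ha₂, hline]
    exact entryPt_add N hv hit₂ s
  have eb : b₁ = b₂ := by
    rw [hb₁, hb₂, hline]
    exact exitPt_add N hv hit₂ s
  have eL : L₁ = L₂ := by
    rw [hL₁, hL₂, hline]
    exact len_add N hv hit₂ s
  rw [ea, eb] at hΨ'
  have hdiff : (τ₁ - τ₂) • (R.F b₂ - R.F a₂) = 0 := by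
    rw [sub_smul]
    have := add_left_cancel hΨ'
    rw [this, sub_self]
  have hne : R.F b₂ - R.F a₂ ≠ 0 := by
    intro h0
    rw [h0, NF.map_zero'] at hF₂
    exact lp₂.ne hF₂
  have hτ : τ₁ = τ₂ := by
    rcases smul_eq_zero.mp hdiff with h | h
    · linarith
    · exact absurd h hne
  have htm : tm N v z₁ = tm N v z₂ := by
    rw [hτ₁, hτ₂, eL] at hτ
    exact (div_left_inj' lp₂.ne').mp hτ
  have e1 : z₁ = a₁ + tm N v z₁ • v := by
    rw [ha₁]
    unfold entryPt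
    abel
  have e2 : z₂ = a₂ + tm N v z₂ • v := by
    rw [ha₂]
    unfold entryPt
    abel
  rw [e1, e2, ea, htm]

/-- The chord affine map sends the ball to the ball. -/
theorem psi_mapsTo (R : RadIso N N') (hSC : StrictC N) {ξ : E} (hξ : N.dual ξ = 1) :
    MapsTo (Psi R (uhat N ξ)) N.ball N'.ball := by
  have hξ0 : ξ ≠ 0 := by
    intro h0
    rw [h0, NF.map_zero'] at hξ
    exact zero_ne_one hξ
  obtain ⟨-, hvn, hvξ⟩ := hSC.uhat_spec hξ0
  set v := uhat N ξ with hvdef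
  have hv : v ≠ 0 := by
    intro h0
    rw [h0, NF.map_zero'] at hvn
    exact zero_ne_one hvn
  intro z hz
  obtain ⟨hit, pm, pp, na, nb, lp, hsub⟩ := chordAt N hv hz
  have hSC' := R.strictC hSC
  have hτ0 : 0 < tm N v z / len N v z := div_pos pm lp
  have hτ1 : tm N v z / len N v z < 1 := by
    rw [div_lt_one lp]
    unfold len
    linarith
  have hne : R.F (entryPt N v z) ≠ R.F (exitPt N v z) := by
    intro h
    have h0 : N' (R.F (exitPt N v z) - R.F (entryPt N v z)) = 0 := by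
      rw [← h, sub_self, NF.map_zero']
    rw [R.iso _ _ nb na, hsub, N.smul_eq, hvn, mul_one, abs_of_pos lp] at h0
    exact lp.ne' h0
  have hna' : N' (R.F (entryPt N v z)) = 1 := by rw [R.norm_F, na]
  have hnb' : N' (R.F (exitPt N v z)) = 1 := by rw [R.norm_F, nb]
  have := strict_between hSC' hna' hnb' hne hτ0 hτ1
  have e : Psi R v z = (1 - tm N v z / len N v z) • R.F (entryPt N v z) +
      (tm N v z / len N v z) • R.F (exitPt N v z) := by
    unfold Psi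
    rw [smul_sub, sub_smul, one_smul]
    abel
  show N' (Psi R v z) < 1
  rw [e]
  exact this

end Vale.Agent.Lib.P084T
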