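import Vale.Agent.Lib.P084T.E2
import Vale.Agent.Lib.P084T.C1

set_option linter.unusedSectionVars false

/-! # P084T part I2. See `notes/P084_blueprint.md`, section I2. -/

open MeasureTheory Set Filter Topology
open scoped RealInnerProductSpace ENNReal NNReal

namespace Vale.Agent.Lib.P084T

variable {E : Type*} [NormedAddCommGroup E] [InnerProductSpace ℝ E] [FiniteDimensional ℝ E]
  [CompleteSpace E] [MeasurableSpace E] [BorelSpace E]
variable {N N' : NF E}

private lemma i2_det_comp (A B : E →L[ℝ] E) : (A.comp B).det = A.det * B.det := by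
  simp only [ContinuousLinearMap.det, ContinuousLinearMap.coe_comp]
  exact LinearMap.det_comp _ _

private lemma i2_Mop_apply (A : E →L[ℝ] E) (φ u u' ξ ζ h : E) :
    Mop A φ u u' ξ ζ h =
      A (h - ((⟪φ, u⟫)⁻¹ * ⟪φ, h⟫) • u)
        - ⟪ζ, A (h - ((⟪φ, u⟫)⁻¹ * ⟪φ, h⟫) • u)⟫ • u' + ⟪ξ, h⟫ • u' := by
  simp [Mop, inner_sub_right, inner_smul_right]

/-- A typical point gives a `Chord`. -/
theorem chord_of_typical (R : RadIso N N') (hSC : StrictC N) {ξ z : E} (hξ : N.dual ξ = 1)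
    (hz : z ∈ N.ball) (ha : entryPt N (uhat N ξ) z ∈ Good R) (hb : exitPt N (uhat N ξ) z ∈ Good R) :
    Chord R (entryPt N (uhat N ξ) z) (exitPt N (uhat N ξ) z) ξ
      (Tmap R (entryPt N (uhat N ξ) z) ξ) := by
  have hξ0 : ξ ≠ 0 := by
    intro h0
    rw [h0, N.dual.map_zero'] at hξ
    exact zero_ne_one hξ
  obtain ⟨-, hv1, hξv⟩ := hSC.uhat_spec hξ0
  set v := uhat N ξ with hvdef
  have hv0 : v ≠ 0 := by
    intro h0
    rw [h0, N.map_zero'] at hv1
    exact zero_ne_one hv1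
  have hh : hits N v z := hits_of_mem_ball N hz
  obtain ⟨htm0, htpa, hexit, hhita⟩ := tm_entryPt N hv0 hh
  have hφ : ⟪grad N (entryPt N v z), v⟫ < 0 := (hasFDerivAt_tm N hv0 hh ha.2.2.2.1).1
  have hN1 : N (entryPt N v z) = 1 := norm_entryPt N hv0 hh
  have hNb : N (exitPt N v z) = 1 := norm_exitPt N hv0 hh
  obtain ⟨h1, h2, h3, h4, h5⟩ := chord_corr R hSC ha hN1 hξ hφ
  have hL : 0 < len N v z := len_pos N hv0 hh
  have hdiff : exitPt N v z - entryPt N v z = len N v z • v := by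
    simp only [exitPt, entryPt, len, add_smul]
    abel
  have hNL : N (exitPt N v z - entryPt N v z) = len N v z := by
    rw [hdiff, N.smul_eq, abs_of_pos hL, hv1, mul_one]
  have hab : entryPt N v z ≠ exitPt N v z := by
    intro h0
    rw [← h0, sub_self, N.map_zero'] at hNL
    exact hL.ne hNL
  have hSC' : StrictC N' := R.strictC hSC
  set ζ := Tmap R (entryPt N v z) ξ with hζdef
  have hζ0 : ζ ≠ 0 := by
    intro h0
    rw [h0, N'.dual.map_zero'] at h1
    exact zero_ne_one h1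
  obtain ⟨-, -, hζu⟩ := hSC'.uhat_spec hζ0
  refine
    { ha := hN1
      hb := hNb
      hab := hab
      ga := ha
      gb := hb
      hξ := hξ
      hξu := ?_
      hζ := h1
      hζu := ?_
      partner := h3 }
  · rw [hNL, hdiff, inner_smul_right, hξv, hξ, mul_one]
  · rw [hNL]
    rw [hexit] at h4
    have h6 : R.F (exitPt N v z) - R.F (entryPt N v z) =
        tp N' (uhat N' ζ) (R.F (entryPt N v z)) • uhat N' ζ := by
      rw [h4]
      simp only [exitPt]
      abel
    rw [h6, inner_smul_right, hζu, h1, mul_one, h5, htpa]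

/-- The derivative of the chord affine map, for a typical point. -/
theorem psi_deriv (R : RadIso N N') (hSC : StrictC N) {ξ ζ z : E} (hξ : N.dual ξ = 1)
    (hz : z ∈ N.ball)
    (c : Chord R (entryPt N (uhat N ξ) z) (exitPt N (uhat N ξ) z) ξ ζ) :
    ∃ D : E →L[ℝ] E, HasFDerivAt (Psi R (uhat N ξ)) D z ∧
      |D.det| = |((1 - tm N (uhat N ξ) z / len N (uhat N ξ) z) •
            M0 R (entryPt N (uhat N ξ) z) (exitPt N (uhat N ξ) z) ξ ζ +
          (tm N (uhat N ξ) z / len N (uhat N ξ) z) •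
            M1 R (entryPt N (uhat N ξ) z) (exitPt N (uhat N ξ) z) ξ ζ).det| := by
  classical
  have hξ0 : ξ ≠ 0 := by
    intro h0
    rw [h0, N.dual.map_zero'] at hξ
    exact zero_ne_one hξ
  obtain ⟨-, hv1, hξv⟩ := hSC.uhat_spec hξ0
  set v := uhat N ξ with hvdef
  have hv0 : v ≠ 0 := by
    intro h0
    rw [h0, N.map_zero'] at hv1
    exact zero_ne_one hv1
  have hh : hits N v z := hits_of_mem_ball N hz
  set a := entryPt N v z with hadef
  set b := exitPt N v z with hbdef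
  have hda : DifferentiableAt ℝ (N : E → ℝ) a := c.ga.2.2.2.1
  have hdb : DifferentiableAt ℝ (N : E → ℝ) b := c.gb.2.2.2.1
  obtain ⟨sa, Htm⟩ := hasFDerivAt_tm N hv0 hh hda
  obtain ⟨sb, Htp⟩ := hasFDerivAt_tp N hv0 hh hdb
  rw [← hadef] at sa Htm
  rw [← hbdef] at sb Htp
  set Tm' : E →L[ℝ] ℝ := (⟪grad N a, v⟫)⁻¹ • innerSL ℝ (grad N a) with hTm'
  set Tp' : E →L[ℝ] ℝ := -(⟪grad N b, v⟫)⁻¹ • innerSL ℝ (grad N b) with hTp'
  have hTmv : Tm' v = 1 := by
    simp only [hTm', ContinuousLinearMap.smul_apply, innerSL_apply_apply, smul_eq_mul]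
    exact inv_mul_cancel₀ sa.ne
  have hTpv : Tp' v = -1 := by
    simp only [hTp', ContinuousLinearMap.smul_apply, innerSL_apply_apply, smul_eq_mul]
    rw [neg_mul, inv_mul_cancel₀ sb.ne']
  set L := len N v z with hLdef
  have hL : 0 < L := len_pos N hv0 hh
  set t := tm N v z with htdef
  set τ := t / L with hτdef
  set PA : E →L[ℝ] E := ContinuousLinearMap.id ℝ E - Tm'.smulRight v with hPA
  set PB : E →L[ℝ] E := ContinuousLinearMap.id ℝ E + Tp'.smulRight v with hPB
  have Hentry : HasFDerivAt (entryPt N v) PA z :=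
    (hasFDerivAt_id z).sub (Htm.smul_const v)
  have Hexit : HasFDerivAt (exitPt N v) PB z :=
    (hasFDerivAt_id z).add (Htp.smul_const v)
  set Aa := fderiv ℝ R.F a with hAa
  set Ab := fderiv ℝ R.F b with hAb
  have HFa : HasFDerivAt R.F Aa (entryPt N v z) := c.ga.2.1.hasFDerivAt
  have HFb : HasFDerivAt R.F Ab (exitPt N v z) := c.gb.2.1.hasFDerivAt
  have HFe : HasFDerivAt (fun w => R.F (entryPt N v w)) (Aa.comp PA) z := HFa.comp z Hentry
  have HFx : HasFDerivAt (fun w => R.F (exitPt N v w)) (Ab.comp PB) z := HFb.comp z Hexit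
  have Hlen : HasFDerivAt (fun w => len N v w) (Tm' + Tp') z := Htm.add Htp
  have Hinv : HasFDerivAt (fun w => (len N v w)⁻¹) ((-(L ^ 2)⁻¹) • (Tm' + Tp')) z :=
    (hasDerivAt_inv hL.ne').comp_hasFDerivAt z Hlen
  set Dτ : E →L[ℝ] ℝ := t • ((-(L ^ 2)⁻¹) • (Tm' + Tp')) + L⁻¹ • Tm' with hDτ
  have Hτ : HasFDerivAt (fun w => tm N v w / len N v w) Dτ z := by
    have h1 : HasFDerivAt (fun w => tm N v w * (len N v w)⁻¹) Dτ z := Htm.mul Hinv
    have h2 : (fun w => tm N v w / len N v w) = fun w => tm N v w * (len N v w)⁻¹ := by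
      funext w
      exact div_eq_mul_inv _ _
    rw [h2]
    exact h1
  have hDτv : Dτ v = L⁻¹ := by
    simp only [hDτ, ContinuousLinearMap.add_apply, ContinuousLinearMap.smul_apply, smul_eq_mul,
      hTmv, hTpv]
    ring
  set D : E →L[ℝ] E := Aa.comp PA + (τ • (Ab.comp PB - Aa.comp PA)
    + Dτ.smulRight (R.F b - R.F a)) with hD
  have HPsi : HasFDerivAt (Psi R v) D z := by
    have h3 := Hτ.smul (HFx.sub HFe)
    exact HFe.add h3
  refine ⟨D, HPsi, ?_⟩
  -- algebra
  have hdiff : b - a = L • v := by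
    simp only [hbdef, hadef, exitPt, entryPt, hLdef, len, add_smul, htdef]
    abel
  have hNL : N (b - a) = L := by
    rw [hdiff, N.smul_eq, abs_of_pos hL, hv1, mul_one]
  have hcu : cu N a b = v := by
    simp only [cu]
    rw [hNL, hdiff, smul_smul, inv_mul_cancel₀ hL.ne', one_smul]
  set u' := cu' R a b with hu'def
  have hu'2 : R.F b - R.F a = L • u' := by
    rw [hu'def]
    simp only [cu']
    rw [hNL, smul_smul, mul_inv_cancel₀ hL.ne', one_smul]
  have hPAv : PA v = 0 := by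
    simp [hPA, hTmv]
  have hPBv : PB v = 0 := by
    simp [hPB, hTpv]
  -- the rank one update
  set ωC : E →L[ℝ] ℝ := L • Dτ + (1 - τ) • (innerSL ℝ ζ).comp (Aa.comp PA)
    + τ • (innerSL ℝ ζ).comp (Ab.comp PB) - innerSL ℝ ξ with hωC
  set ω₀ : E := (InnerProductSpace.toDual ℝ E).symm ωC with hω₀
  have hω : ∀ h, ⟪ω₀, h⟫ = ωC h := by
    intro h
    have := InnerProductSpace.toDual_symm_apply (𝕜 := ℝ) (E := E) (x := h) (y := ωC)
    simpa [hω₀] using this
  have hωv : ⟪ω₀, v⟫ = 0 := by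
    rw [hω]
    simp only [hωC, ContinuousLinearMap.sub_apply, ContinuousLinearMap.add_apply,
      ContinuousLinearMap.smul_apply, ContinuousLinearMap.comp_apply, innerSL_apply_apply,
      smul_eq_mul, hDτv, hPAv, hPBv, map_zero, inner_zero_right, hξv, hξ]
    rw [mul_inv_cancel₀ hL.ne']
    ring
  -- the operators
  have hM0 : ∀ h, M0 R a b ξ ζ h =
      Aa (PA h) - ⟪ζ, Aa (PA h)⟫ • u' + ⟪ξ, h⟫ • u' := by
    intro h
    simp only [M0, hcu]
    rw [i2_Mop_apply]
    have : PA h = h - ((⟪grad N a, v⟫)⁻¹ * ⟪grad N a, h⟫) • v := by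
      simp [hPA, hTm']
    rw [this]
  have hM1 : ∀ h, M1 R a b ξ ζ h =
      Ab (PB h) - ⟪ζ, Ab (PB h)⟫ • u' + ⟪ξ, h⟫ • u' := by
    intro h
    simp only [M1, hcu]
    rw [i2_Mop_apply]
    have : PB h = h - ((⟪grad N b, v⟫)⁻¹ * ⟪grad N b, h⟫) • v := by
      simp [hPB, hTp', sub_eq_add_neg]
    rw [this]
  set Mτ : E →L[ℝ] E := (1 - τ) • M0 R a b ξ ζ + τ • M1 R a b ξ ζ with hMτ
  have hMτv : Mτ v = u' := by
    simp only [hMτ, ContinuousLinearMap.add_apply, ContinuousLinearMap.smul_apply, hM0, hM1, hPAv,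
      hPBv, map_zero, inner_zero_right, zero_smul, sub_zero, zero_add, hξv, hξ, one_smul]
    rw [← add_smul]
    simp
  have hDeq : D = Mτ.comp (ContinuousLinearMap.id ℝ E + (innerSL ℝ ω₀).smulRight v) := by
    ext h
    have h5 : Mτ ((ContinuousLinearMap.id ℝ E + (innerSL ℝ ω₀).smulRight v) h)
        = Mτ h + ⟪ω₀, h⟫ • u' := by
      simp only [ContinuousLinearMap.add_apply, ContinuousLinearMap.id_apply,
        ContinuousLinearMap.smulRight_apply, innerSL_apply_apply, map_add, map_smul, hMτv]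
    rw [ContinuousLinearMap.comp_apply, h5, hω]
    simp only [hD, hMτ, hωC, ContinuousLinearMap.add_apply, ContinuousLinearMap.sub_apply,
      ContinuousLinearMap.smul_apply, ContinuousLinearMap.comp_apply,
      ContinuousLinearMap.smulRight_apply, innerSL_apply_apply, smul_eq_mul, hM0, hM1, hu'2]
    module
  rw [hDeq, i2_det_comp, det_id_add_rankOne, hωv]
  simp

end Vale.Agent.Lib.P084T
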