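import Vale.Agent.Lib.P084T.J2

set_option linter.unusedSectionVars false

/-! # P084T part J3. See `notes/P084_blueprint.md`, section J3. -/

open MeasureTheory Set Filter Topology
open scoped RealInnerProductSpace ENNReal NNReal

namespace Vale.Agent.Lib.P084T

variable {E : Type*} [NormedAddCommGroup E] [InnerProductSpace ℝ E] [FiniteDimensional ℝ E]
  [CompleteSpace E] [MeasurableSpace E] [BorelSpace E]
variable {N N' : NF E}

/-- The bad set indicator. -/
noncomputable def j3B (R : RadIso N N') (r : ℝ) (p : E × E) : ℝ≥0∞ :=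
  {p : E × E | ell R p.1 p.2 ≠ r}.indicator (fun _ => 1) p

lemma j3_meas_B (R : RadIso N N') (r : ℝ) : Measurable (j3B R r) := by
  refine Measurable.indicator measurable_const ?_
  exact (R.measurable_ell (measurableSet_singleton r)).compl

/-- The integrand of the chord formula for the bad set. -/
noncomputable def j3I (R : RadIso N N') (r : ℝ) (q : E × E) : ℝ≥0∞ :=
  j3B R r (rad N q.2, exitPt N (uhat N q.1) (rad N q.2)) *
    ENNReal.ofReal (len N (uhat N q.1) (rad N q.2)) * ENNReal.ofReal (-⟪grad N q.2, uhat N q.1⟫)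

lemma j3_meas_I (R : RadIso N N') (r : ℝ) : Measurable (j3I R r) := by
  have hu : Measurable (fun q : E × E => uhat N q.1) := N.dual.measurable_grad.comp measurable_fst
  have hr : Measurable (fun q : E × E => rad N q.2) := N.measurable_rad.comp measurable_snd
  have hg : Measurable (fun q : E × E => grad N q.2) := N.measurable_grad.comp measurable_snd
  have hp : Measurable (fun q : E × E => (uhat N q.1, rad N q.2)) := hu.prodMk hr
  have h1 : Measurable (fun q : E × E => exitPt N (uhat N q.1) (rad N q.2)) :=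
    (measurable_exitPt N).comp hp
  have h2 : Measurable (fun q : E × E => len N (uhat N q.1) (rad N q.2)) :=
    (measurable_len N).comp hp
  have h3 : Measurable (fun q : E × E => -⟪grad N q.2, uhat N q.1⟫) := (hg.inner hu).neg
  exact (((j3_meas_B R r).comp (hr.prodMk h1)).mul (ENNReal.measurable_ofReal.comp h2)).mul
    (ENNReal.measurable_ofReal.comp h3)

/-- For almost every `ξ`, the bad integrand vanishes almost everywhere. -/
lemma j3_inner_zero [Nontrivial E] (R : RadIso N N') (hSC : StrictC N) {r : ℝ}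
    (hr : ∀ᵐ ξ ∂(volume : Measure E), ξ ∈ N.dual.ball →
      ∀ᵐ z ∂(volume : Measure E), z ∈ N.ball →
        ell R (entryPt N (uhat N ξ) z) (exitPt N (uhat N ξ) z) = r ∧
        ell R (exitPt N (uhat N ξ) z) (entryPt N (uhat N ξ) z) = r) :
    ∀ᵐ ξ ∂((volume : Measure E).restrict N.dual.ball),
      ∫⁻ z in N.ball, j3I R r (ξ, z) = 0 := by
  have h0 : ∀ᵐ ξ ∂(volume : Measure E), ξ ≠ 0 := by
    have : volume ({0} : Set E) = 0 := measure_singleton _
    exact measure_eq_zero_iff_ae_notMem.mp this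
  rw [ae_restrict_iff' (j2_ball_meas _)]
  filter_upwards [hr, h0] with ξ hξ hξ0 hξB
  have hv : uhat N ξ ≠ 0 := by
    intro h
    have h1 := (hSC.uhat_spec hξ0).2.1
    rw [h, N.map_zero'] at h1
    exact zero_ne_one h1
  set v := uhat N ξ with hvdef
  have hG : Measurable (fun a => j3B R r (a, exitPt N v a)) := by
    refine (j3_meas_B R r).comp (measurable_id.prodMk ?_)
    exact (measurable_exitPt N).comp (measurable_const.prodMk measurable_id)
  have hcf := chord_formula N hv hG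
  have hL : ∫⁻ z in N.ball, j3B R r (entryPt N v z, exitPt N v (entryPt N v z)) = 0 := by
    rw [lintegral_eq_zero_iff]
    · rw [Filter.EventuallyEq, ae_restrict_iff' (j2_ball_meas _)]
      filter_upwards [hξ hξB] with z hz hzB
      have h1 := (hz hzB).1
      rw [(tm_entryPt N hv (hits_of_mem_ball N hzB)).2.2.1]
      simp only [j3B, Set.indicator, Pi.zero_apply]
      rw [if_neg]
      simpa using h1
    · exact hG.comp ((measurable_entryPt N).comp (measurable_const.prodMk measurable_id))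
  rw [hL] at hcf
  have hn : (Module.finrank ℝ E : ℝ≥0∞) ≠ 0 := by
    have := Module.finrank_pos (R := ℝ) (M := E)
    exact_mod_cast this.ne'
  have := (mul_eq_zero.mp hcf.symm).resolve_left hn
  exact this

/-- Swapping the order of integration. -/
lemma j3_swap [Nontrivial E] (R : RadIso N N') (hSC : StrictC N) {r : ℝ}
    (hr : ∀ᵐ ξ ∂(volume : Measure E), ξ ∈ N.dual.ball →
      ∀ᵐ z ∂(volume : Measure E), z ∈ N.ball →
        ell R (entryPt N (uhat N ξ) z) (exitPt N (uhat N ξ) z) = r ∧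
        ell R (exitPt N (uhat N ξ) z) (entryPt N (uhat N ξ) z) = r) :
    ∀ᵐ z ∂(volume : Measure E), z ∈ N.ball → ∀ᵐ ξ ∂(volume : Measure E), ξ ∈ N.dual.ball →
      j3I R r (ξ, z) = 0 := by
  have mI := j3_meas_I (N := N) R r
  have h1 : ∫⁻ ξ in N.dual.ball, ∫⁻ z in N.ball, j3I R r (ξ, z) = 0 := by
    rw [lintegral_eq_zero_iff' ?_]
    · exact j3_inner_zero R hSC hr
    · exact mI.lintegral_prod_right'.aemeasurable
  have hsw := lintegral_lintegral_swap (f := fun ξ z => j3I R r (ξ, z))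
    (μ := (volume : Measure E).restrict N.dual.ball) (ν := (volume : Measure E).restrict N.ball)
    mI.aemeasurable
  rw [hsw] at h1
  have mI2 : Measurable (fun z => ∫⁻ ξ in N.dual.ball, j3I R r (ξ, z)) :=
    (mI.comp measurable_swap).lintegral_prod_right'
  rw [lintegral_eq_zero_iff mI2] at h1
  have h2 := (ae_restrict_iff' (j2_ball_meas _)).mp h1
  filter_upwards [h2] with z hz hzB
  have h3 := hz hzB
  have h4 := (lintegral_eq_zero_iff (f := fun ξ => j3I R r (ξ, z))
    (mI.comp measurable_prodMk_right)).mp h3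
  exact (ae_restrict_iff' (j2_ball_meas _)).mp h4

/-- From a vanishing integrand to the value of `ell`. -/
lemma j3_value (R : RadIso N N') {r : ℝ} {a ξ z : E} (hza : grad N z = grad N a)
    (hzr : rad N z = a) (ha1 : N a = 1) (hda : DifferentiableAt ℝ (N : E → ℝ) a)
    (hneg : ⟪grad N a, uhat N ξ⟫ < 0) (hI : j3I R r (ξ, z) = 0) :
    ell R a (exitPt N (uhat N ξ) a) = r := by
  have hv : uhat N ξ ≠ 0 := by
    intro h
    rw [h, inner_zero_right] at hneg
    exact lt_irrefl _ hneg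
  obtain ⟨h1, _, _⟩ := entry_of_grad_neg N ha1 hda hneg
  have hl := len_pos N hv h1
  simp only [j3I, hzr, hza, mul_eq_zero, ENNReal.ofReal_eq_zero, not_le.mpr hl, or_false] at hI
  rcases hI with hI | hI
  · simp only [j3B, Set.indicator] at hI
    by_contra hne
    have hmem : (a, exitPt N (uhat N ξ) a) ∈ {p : E × E | ell R p.1 p.2 ≠ r} := hne
    rw [if_pos hmem] at hI
    exact one_ne_zero hI
  · linarith

/-- The limit relation at a fixed good point. -/
lemma j3_limit (R : RadIso N N') (hSC : StrictC N) {r : ℝ} {a z b₀ : E} (ha : a ∈ Good R)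
    (ha1 : N a = 1) (hza : grad N z = grad N a) (hzr : rad N z = a)
    (hae : ∀ᵐ ξ ∂(volume : Measure E), ξ ∈ N.dual.ball → j3I R r (ξ, z) = 0)
    (hb1 : N b₀ = 1) (hab : a ≠ b₀) :
    |(fderiv ℝ R.F a).det| * (1 - ⟪grad N' (R.F a), R.F b₀⟫) = r * (1 - ⟪grad N a, b₀⟫) := by
  have hda : DifferentiableAt ℝ (N : E → ℝ) a := ha.2.2.2.1
  obtain ⟨_, hφ1, hφa⟩ := N.grad_spec ha.1 hda
  rw [ha1] at hφa
  -- the chord towards `b₀`
  have hba : b₀ - a ≠ 0 := sub_ne_zero.mpr hab.symm
  set L := N (b₀ - a) with hL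
  have hLpos : 0 < L := N.pos _ hba
  set u₀ := L⁻¹ • (b₀ - a) with hu₀
  have hu₀1 : N u₀ = 1 := by
    rw [hu₀, N.smul_eq, abs_of_pos (inv_pos.mpr hLpos), inv_mul_cancel₀ hLpos.ne']
  have hu₀0 : u₀ ≠ 0 := by
    intro h
    rw [h, N.map_zero'] at hu₀1
    exact zero_ne_one hu₀1
  have hb₀eq : b₀ = a + L • u₀ := by
    rw [hu₀, smul_smul, mul_inv_cancel₀ hLpos.ne', one_smul]
    abel
  obtain ⟨ξ₀, hξ₀1, hξ₀u⟩ := N.exists_norming_fun hu₀0
  have hξ₀0 : ξ₀ ≠ 0 := by
    intro h
    rw [h, NF.map_zero'] at hξ₀1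
    exact zero_ne_one hξ₀1
  rw [hu₀1] at hξ₀u
  have huhat₀ : uhat N ξ₀ = u₀ := by
    refine (hSC.uhat_unique hξ₀0 hu₀1 ?_).symm
    rw [hξ₀u, hξ₀1]
  have hφu₀ : ⟪grad N a, u₀⟫ < 0 := by
    have h1 := hSC.inner_lt ha1 hb1 hab hφ1.le hφa
    rw [hu₀, inner_smul_right, inner_sub_right, hφa]
    have : ⟪grad N a, b₀⟫ - 1 < 0 := by linarith
    exact mul_neg_of_pos_of_neg (inv_pos.mpr hLpos) this
  -- the exit point of this chord is `b₀`
  obtain ⟨hhits, htm, _⟩ := entry_of_grad_neg N ha1 hda hφu₀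
  have htpL : tp N u₀ a = L := by
    apply le_antisymm
    · by_contra hlt
      push Not at hlt
      have h2 := (line_iff N hu₀0 hhits L).mpr ⟨by rw [htm]; simpa using hLpos, hlt⟩
      rw [← hb₀eq, hb1] at h2
      exact lt_irrefl _ h2
    · by_contra hlt
      push Not at hlt
      set T := tp N u₀ a with hT
      have hTpos : 0 < T := by
        have := len_pos N hu₀0 hhits
        simpa [len, htm] using this
      set p := a + T • u₀ with hp
      have hp1 : N p = 1 := by
        have := norm_exitPt N hu₀0 hhits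
        exact this
      obtain ⟨ψ, hψ1, hψp⟩ := N.exists_norming_fun (x := p) (by
        intro h
        rw [h, N.map_zero'] at hp1
        exact zero_ne_one hp1)
      rw [hp1] at hψp
      have hpa : p ≠ a := by
        intro h
        have : T • u₀ = 0 := by
          have h3 : a + T • u₀ = a := h
          simpa using h3
        rcases smul_eq_zero.mp this with h4 | h4
        · exact hTpos.ne' h4
        · exact hu₀0 h4
      have hpb : p ≠ b₀ := by
        intro h
        rw [hb₀eq] at h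
        have h3 : T • u₀ = L • u₀ := add_left_cancel h
        have h4 : (T - L) • u₀ = 0 := by rw [sub_smul, h3, sub_self]
        rcases smul_eq_zero.mp h4 with h5 | h5
        · linarith
        · exact hu₀0 h5
      have h1 := hSC.inner_lt hp1 ha1 hpa hψ1.le hψp
      have h2 := hSC.inner_lt hp1 hb1 hpb hψ1.le hψp
      have hcomb : p = (1 - T / L) • a + (T / L) • b₀ := by
        have h7 : (T / L) • b₀ = (T / L) • a + T • u₀ := by
          calc (T / L) • b₀ = (T / L) • (a + L • u₀) := by rw [← hb₀eq]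
            _ = (T / L) • a + ((T / L) * L) • u₀ := by rw [smul_add, smul_smul]
            _ = _ := by rw [div_mul_cancel₀ _ hLpos.ne']
        rw [h7, sub_smul, one_smul]
        simp only [hp]
        abel
      have hval : ⟪ψ, p⟫ = (1 - T / L) * ⟪ψ, a⟫ + (T / L) * ⟪ψ, b₀⟫ := by
        rw [hcomb, inner_add_right, inner_smul_right, inner_smul_right]
      have hs0 : 0 < T / L := div_pos hTpos hLpos
      have hs1 : 0 < 1 - T / L := by
        have : T / L < 1 := (div_lt_one hLpos).mpr hlt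
        linarith
      rw [hψp] at hval
      nlinarith
  have hΦ₀ : exitPt N u₀ a = b₀ := by
    simp only [exitPt]
    rw [htpL, ← hb₀eq]
  -- the base point in the open dual ball
  set ξ₁ := (1 / 2 : ℝ) • ξ₀ with hξ₁
  have hξ₁0 : ξ₁ ≠ 0 := smul_ne_zero (by norm_num) hξ₀0
  have huhat₁ : uhat N ξ₁ = u₀ := by
    rw [hξ₁, uhat_smul N (by norm_num), huhat₀]
  have hξ₁B : ξ₁ ∈ N.dual.ball := by
    show N.dual ξ₁ < 1
    rw [hξ₁, NF.smul_eq, hξ₀1]
    norm_num
  -- continuity
  have huc : ContinuousAt (uhat N) ξ₁ :=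
    hSC.continuousOn_uhat.continuousAt (isOpen_ne.mem_nhds hξ₁0)
  have htpc : ContinuousAt (fun ξ => tp N (uhat N ξ) a) ξ₁ := by
    have h1 := continuousAt_tp N hu₀0 hhits
    rw [← huhat₁] at h1
    exact ContinuousAt.comp (f := fun ξ => (uhat N ξ, a)) h1 (huc.prodMk continuousAt_const)
  have hΦc : Tendsto (fun ξ => exitPt N (uhat N ξ) a) (𝓝 ξ₁) (𝓝 b₀) := by
    have h1 : ContinuousAt (fun ξ => exitPt N (uhat N ξ) a) ξ₁ :=
      continuousAt_const.add (htpc.smul huc)
    have h2 := h1.tendsto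
    rw [huhat₁, hΦ₀] at h2
    exact h2
  have hFc : Continuous R.F := R.continuous_F
  have hlim1 : Tendsto (fun ξ => |(fderiv ℝ R.F a).det| *
      (1 - ⟪grad N' (R.F a), R.F (exitPt N (uhat N ξ) a)⟫)) (𝓝 ξ₁)
      (𝓝 (|(fderiv ℝ R.F a).det| * (1 - ⟪grad N' (R.F a), R.F b₀⟫))) := by
    refine Tendsto.const_mul _ (tendsto_const_nhds.sub ?_)
    exact Tendsto.inner tendsto_const_nhds ((hFc.tendsto _).comp hΦc)
  have hlim2 : Tendsto (fun ξ => r * (1 - ⟪grad N a, exitPt N (uhat N ξ) a⟫)) (𝓝 ξ₁)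
      (𝓝 (r * (1 - ⟪grad N a, b₀⟫))) := by
    refine Tendsto.const_mul _ (tendsto_const_nhds.sub ?_)
    exact Tendsto.inner tendsto_const_nhds hΦc
  -- frequently the relation holds
  have hfreq : ∃ᶠ ξ in 𝓝 ξ₁, ξ ∈ N.dual.ball → j3I R r (ξ, z) = 0 := by
    have hd := Measure.dense_of_ae hae
    exact mem_closure_iff_frequently.mp (hd ξ₁)
  have hev : ∀ᶠ ξ in 𝓝 ξ₁, ξ ∈ N.dual.ball ∧ ξ ≠ 0 ∧ ⟪grad N a, uhat N ξ⟫ < 0 := by
    have e1 : ∀ᶠ ξ in 𝓝 ξ₁, ξ ∈ N.dual.ball := (j2_ball_isOpen N.dual).mem_nhds hξ₁B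
    have e2 : ∀ᶠ ξ in 𝓝 ξ₁, ξ ≠ 0 := isOpen_ne.mem_nhds hξ₁0
    have h1 : ContinuousAt (fun ξ => ⟪grad N a, uhat N ξ⟫) ξ₁ := continuousAt_const.inner huc
    have e3 : ∀ᶠ ξ in 𝓝 ξ₁, ⟪grad N a, uhat N ξ⟫ < 0 := by
      refine h1.eventually_lt continuousAt_const ?_
      rw [huhat₁]
      exact hφu₀
    exact e1.and (e2.and e3)
  refine tendsto_nhds_unique_of_frequently_eq hlim1 hlim2 ?_
  refine (hfreq.and_eventually hev).mono ?_
  rintro ξ ⟨hI, hξB, hξ0, hneg⟩
  have hv := j3_value R hza hzr ha1 hda hneg (hI hξB)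
  -- clearing the denominator
  have hv0 : uhat N ξ ≠ 0 := by
    intro h
    rw [h, inner_zero_right] at hneg
    exact lt_irrefl _ hneg
  obtain ⟨h1, htm1, _⟩ := entry_of_grad_neg N ha1 hda hneg
  have htp1 : 0 < tp N (uhat N ξ) a := by
    have := len_pos N hv0 h1
    simpa [len, htm1] using this
  set b := exitPt N (uhat N ξ) a with hb
  have hbne : a ≠ b := by
    intro h
    have h3 : tp N (uhat N ξ) a • uhat N ξ = 0 := by
      have h4 : a + tp N (uhat N ξ) a • uhat N ξ = a := h.symm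
      simpa using h4
    rcases smul_eq_zero.mp h3 with h5 | h5
    · exact htp1.ne' h5
    · exact hv0 h5
  have hb1' : N b = 1 := norm_exitPt N hv0 h1
  have hden : 0 < 1 - ⟪grad N a, b⟫ := by
    have := hSC.inner_lt ha1 hb1' hbne hφ1.le hφa
    linarith
  unfold ell at hv
  rw [div_eq_iff hden.ne'] at hv
  exact hv

/-- From chords to points. -/
theorem ae_point_relation [Nontrivial E] (R : RadIso N N') (hSC : StrictC N) :
    ∀ᵐ z ∂(volume : Measure E), z ∈ N.ball → rad N z ∈ Good R ∧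
      ∀ x, ⟪grad N' (R.F (rad N z)), R.F x⟫ = ⟪grad N (rad N z), x⟫ := by
  obtain ⟨r, hrpos, hr⟩ := ae_ell_eq R hSC
  filter_upwards [j3_swap R hSC hr, R.ae_good] with z hz hzg hzB
  have hz0 : z ≠ 0 := hzg.1
  have hNz : 0 < N z := N.pos z hz0
  have hradc : rad N z = (N z)⁻¹ • z := rfl
  have hag : rad N z ∈ Good R := by
    rw [hradc]
    exact R.good_smul hzg (inv_pos.mpr hNz)
  refine ⟨hag, ?_⟩
  set a := rad N z with ha
  have ha1 : N a = 1 := N.norm_rad hz0
  have hza : grad N z = grad N a := by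
    rw [hradc, N.grad_smul (inv_pos.mpr hNz)]
  have hae := hz hzB
  have hlim : ∀ b₀, N b₀ = 1 → a ≠ b₀ →
      |(fderiv ℝ R.F a).det| * (1 - ⟪grad N' (R.F a), R.F b₀⟫) = r * (1 - ⟪grad N a, b₀⟫) :=
    fun b₀ hb1 hab => j3_limit R hSC hag ha1 hza rfl hae hb1 hab
  -- the facts at `a`
  have ha0 : a ≠ 0 := hag.1
  have hφa : ⟪grad N a, a⟫ = 1 := by
    have := (N.grad_spec ha0 hag.2.2.2.1).2.2
    rwa [ha1] at this
  have hFa1 : N' (R.F a) = 1 := by rw [R.norm_F, ha1]
  have hFa0 : R.F a ≠ 0 := by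
    intro h
    rw [h, N'.map_zero'] at hFa1
    exact zero_ne_one hFa1
  have hφ'a : ⟪grad N' (R.F a), R.F a⟫ = 1 := by
    have := (N'.grad_spec hFa0 hag.2.2.2.2.1).2.2
    rwa [hFa1] at this
  -- the antipode gives the value of the Jacobian
  have hna1 : N (-a) = 1 := by rw [N.map_neg', ha1]
  have hane : a ≠ -a := by
    intro h
    apply ha0
    have : (2 : ℝ) • a = 0 := by
      rw [two_smul]
      nth_rewrite 1 [h]
      simp
    simpa using this
  have h2 := hlim (-a) hna1 hane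
  rw [R.F_neg hSC ha1, inner_neg_right, inner_neg_right, hφ'a, hφa] at h2
  have hρ : |(fderiv ℝ R.F a).det| = r := by linarith
  rw [hρ] at hlim
  have hunit : ∀ b₀, N b₀ = 1 → ⟪grad N' (R.F a), R.F b₀⟫ = ⟪grad N a, b₀⟫ := by
    intro b₀ hb1
    by_cases hab : a = b₀
    · rw [← hab, hφ'a, hφa]
    · have h3 := hlim b₀ hb1 hab
      have h4 := mul_left_cancel₀ hrpos.ne' h3
      linarith
  intro x
  by_cases hx : x = 0
  · rw [hx, R.F_zero, inner_zero_right, inner_zero_right]
  · have hNx := N.pos x hx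
    have hxe : x = N x • rad N x := by
      rw [show rad N x = (N x)⁻¹ • x from rfl, smul_smul, mul_inv_cancel₀ hNx.ne', one_smul]
    have h5 := hunit (rad N x) (N.norm_rad hx)
    rw [hxe, R.smul_F _ _ hNx, inner_smul_right, inner_smul_right, h5]

end Vale.Agent.Lib.P084T
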