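import Vale.Agent.Lib.P084T.J3

set_option linter.unusedSectionVars false

/-! # P084T part J4. See `notes/P084_blueprint.md`, section J4. -/

open MeasureTheory Set Filter Topology
open scoped RealInnerProductSpace ENNReal NNReal

namespace Vale.Agent.Lib.P084T

variable {E : Type*} [NormedAddCommGroup E] [InnerProductSpace ℝ E] [FiniteDimensional ℝ E]
  [CompleteSpace E] [MeasurableSpace E] [BorelSpace E]
variable {N N' : NF E}

/-- The points where the relation of `ae_point_relation` holds. -/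
def J4set (R : RadIso N N') : Set E :=
  {a | a ∈ Good R ∧ ∀ x, ⟪grad N' (R.F a), R.F x⟫ = ⟪grad N a, x⟫}

/-- The gradients at these points separate the points of `E`. -/
theorem J4_sep (R : RadIso N N') (hSC : StrictC N) {v : E}
    (hv : ∀ a ∈ J4set R, ⟪grad N a, v⟫ = 0) : v = 0 := by
  by_contra hv0
  haveI : Nontrivial E := ⟨⟨v, 0, hv0⟩⟩
  have hNv : 0 < N v := N.pos v hv0
  have hv1 : N (rad N v) = 1 := N.norm_rad hv0
  obtain ⟨t, ht⟩ : ∃ t : Set E, t = {w | N (w - rad N v) < 1} := ⟨_, rfl⟩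
  have hto : IsOpen t := by
    rw [ht]
    exact isOpen_lt (N.continuous.comp (by fun_prop)) continuous_const
  have hs0 : IsOpen ({0}ᶜ : Set E) := isOpen_compl_singleton
  have hU1 : IsOpen (({0}ᶜ : Set E) ∩ rad N ⁻¹' t) := N.continuousOn_rad.isOpen_inter_preimage hs0 hto
  have hball : IsOpen N.ball := isOpen_lt N.continuous continuous_const
  have hU : IsOpen (N.ball ∩ (({0}ᶜ : Set E) ∩ rad N ⁻¹' t)) := hball.inter hU1
  have hne : (N.ball ∩ (({0}ᶜ : Set E) ∩ rad N ⁻¹' t)).Nonempty := by
    have hrv0 : rad N v ≠ 0 := by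
      intro h
      rw [h, N.map_zero'] at hv1
      norm_num at hv1
    refine ⟨(1 / 2 : ℝ) • rad N v, ?_, ?_, ?_⟩
    · show N _ < 1
      rw [N.smul_eq, hv1]
      norm_num
    · simp [hrv0]
    · show rad N ((1 / 2 : ℝ) • rad N v) ∈ t
      rw [N.rad_smul (by norm_num), N.rad_rad hv0, ht]
      show N (rad N v - rad N v) < 1
      rw [sub_self, N.map_zero']
      norm_num
  have hdense := Measure.dense_of_ae (ae_point_relation R hSC)
  obtain ⟨z, ⟨hzb, hz0, hzt⟩, hzP⟩ := hdense.inter_open_nonempty _ hU hne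
  obtain ⟨hG, hrel⟩ := hzP hzb
  have hz0' : z ≠ 0 := hz0
  have ha1 : N (rad N z) = 1 := N.norm_rad hz0'
  have hzt' : N (rad N z - rad N v) < 1 := by
    have : rad N z ∈ t := hzt
    rw [ht] at this
    exact this
  obtain ⟨-, hd, hself⟩ := N.grad_spec hG.1 hG.2.2.2.1
  rw [ha1] at hself
  have h0 := hv (rad N z) ⟨hG, hrel⟩
  have h1 : ⟪grad N (rad N z), rad N v⟫ = 0 := by
    have e : rad N v = (N v)⁻¹ • v := rfl
    rw [e, inner_smul_right, h0, mul_zero]
  have h2 := N.inner_le (grad N (rad N z)) (rad N z - rad N v)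
  rw [hd, one_mul, inner_sub_right, hself, h1, sub_zero] at h2
  linarith

/-- The gradients of the target norm at the image points separate the points of `E`. -/
theorem J4_sep' (R : RadIso N N') (hSC : StrictC N) {y : E}
    (hy : ∀ a ∈ J4set R, ⟪grad N' (R.F a), y⟫ = 0) : y = 0 := by
  have h : R.G y = 0 := by
    refine J4_sep R hSC (fun a ha => ?_)
    rw [← ha.2 (R.G y), R.F_G]
    exact hy a ha
  rw [← R.F_G y, h, R.F_zero]

/-- The radial isometry is linear. -/
theorem F_linear (R : RadIso N N') (hSC : StrictC N) :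
    ∃ T : E →ₗ[ℝ] E, ∀ x, R.F x = T x := by
  refine ⟨{ toFun := R.F, map_add' := ?_, map_smul' := ?_ }, fun _ => rfl⟩
  · intro x y
    have h : R.F (x + y) - (R.F x + R.F y) = 0 := by
      refine J4_sep' R hSC (fun a ha => ?_)
      rw [inner_sub_right, inner_add_right, ha.2, ha.2, ha.2, inner_add_right]
      ring
    exact sub_eq_zero.1 h
  · intro c x
    have h : R.F (c • x) - c • R.F x = 0 := by
      refine J4_sep' R hSC (fun a ha => ?_)
      rw [inner_sub_right, inner_smul_right, ha.2, ha.2, inner_smul_right]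
      ring
    simpa using sub_eq_zero.1 h

end Vale.Agent.Lib.P084T
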