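import Vale.Agent.Lib.P084T.J4
import Vale.Agent.Lib.P084_helper82.Bridge

set_option linter.unusedSectionVars false

/-! # P084T part K1: the wrapper. See `notes/P084_blueprint.md`, section K. -/

open Metric

namespace Vale.Agent.Lib.P084T

open Vale.Agent.Lib.P084_helper82 in
/-- Equal dimensions from bi-Lipschitz radial maps. -/
private theorem finrank_le_of_lipschitz {X Y : Type*} [NormedAddCommGroup X] [NormedSpace ℝ X]
    [FiniteDimensional ℝ X] [NormedAddCommGroup Y] [NormedSpace ℝ Y] [FiniteDimensional ℝ Y]
    {G : Y → X} {K : NNReal} (hG : LipschitzWith K G) (hs : Function.Surjective G) :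
    Module.finrank ℝ X ≤ Module.finrank ℝ Y := by
  have h1 := hG.dimH_image_le Set.univ
  rw [Set.image_univ, hs.range_eq, Real.dimH_univ_eq_finrank, Real.dimH_univ_eq_finrank] at h1
  exact_mod_cast h1

/-- The norm function on the model space transported from a normed space. -/
private noncomputable def nfOf {X E : Type*} [NormedAddCommGroup X] [NormedSpace ℝ X]
    [NormedAddCommGroup E] [InnerProductSpace ℝ E] (e : E ≃L[ℝ] X) : NF E where
  toFun z := ‖e z‖
  add_le x y := by
    rw [map_add]
    exact norm_add_le _ _
  smul_eq c x := by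
    rw [map_smul, norm_smul, Real.norm_eq_abs]
  pos x hx := by
    rw [norm_pos_iff]
    intro h
    exact hx (by simpa using h)

private theorem nfOf_apply {X E : Type*} [NormedAddCommGroup X] [NormedSpace ℝ X]
    [NormedAddCommGroup E] [InnerProductSpace ℝ E] (e : E ≃L[ℝ] X) (z : E) :
    (nfOf e) z = ‖e z‖ := rfl

/-- Strict convexity transported. -/
private theorem strictC_nfOf {X E : Type*} [NormedAddCommGroup X] [NormedSpace ℝ X]
    [StrictConvexSpace ℝ X] [NormedAddCommGroup E] [InnerProductSpace ℝ E] (e : E ≃L[ℝ] X) :
    StrictC (nfOf e) := by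
  intro x y hx hy hxy
  rw [nfOf_apply] at hx hy ⊢
  have hne : e x ≠ e y := fun h => hxy (e.injective h)
  have := norm_combo_lt_of_ne (x := e x) (y := e y) (r := 1) hx.le hy.le hne
    (a := 1 / 2) (b := 1 / 2) (by norm_num) (by norm_num) (by norm_num)
  rw [map_smul, map_add, smul_add]
  exact this

/-- Tingley's problem for finite dimensional strictly convex spaces. -/
theorem main_strict {X Y : Type*} [NormedAddCommGroup X] [NormedSpace ℝ X] [FiniteDimensional ℝ X]
    [StrictConvexSpace ℝ X] [NormedAddCommGroup Y] [NormedSpace ℝ Y]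
    (f : sphere (0 : X) 1 → sphere (0 : Y) 1)
    (hiso : ∀ x y, ‖(f x : Y) - (f y : Y)‖ = ‖(x : X) - (y : X)‖)
    (hsurj : Function.Surjective f) :
    ∃ L : X ≃ₗᵢ[ℝ] Y, ∀ x, (f x : Y) = L x := by
  classical
  open Vale.Agent.Lib.P084_helper82 in
  by_cases hnt : Nontrivial X
  · have hY : FiniteDimensional ℝ Y := finiteDimensional_target f hiso hsurj
    obtain ⟨f', g', hS, hf'⟩ := exists_sphIso f hiso hsurj
    have hRF : Vale.Agent.Lib.P084_helper82.RadIso (radial f') := radIso_of hS (fun x hx => hS.odd_f hx)
    have hRG : Vale.Agent.Lib.P084_helper82.RadIso (radial g') := radIso_of hS.symm (fun y hy => hS.odd_g hy)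
    have hGF : ∀ z, radial g' (radial f' z) = z := radial_left_inverse hS
    have hFG : ∀ y, radial f' (radial g' y) = y := radial_left_inverse hS.symm
    have hdim : Module.finrank ℝ X = Module.finrank ℝ Y :=
      le_antisymm
        (finrank_le_of_lipschitz hRG.lipschitz (fun z => ⟨_, hGF z⟩))
        (finrank_le_of_lipschitz hRF.lipschitz (fun y => ⟨_, hFG y⟩))
    -- the model space
    let n := Module.finrank ℝ X
    let E := EuclideanSpace ℝ (Fin n)
    have hEX : Module.finrank ℝ E = Module.finrank ℝ X := by simp [E, n]
    have hEY : Module.finrank ℝ E = Module.finrank ℝ Y := by rw [hEX, hdim]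
    let eX : E ≃L[ℝ] X := ContinuousLinearEquiv.ofFinrankEq hEX
    let eY : E ≃L[ℝ] Y := ContinuousLinearEquiv.ofFinrankEq hEY
    let N : NF E := nfOf eX
    let N' : NF E := nfOf eY
    have hSC : StrictC N := strictC_nfOf eX
    let R : Vale.Agent.Lib.P084T.RadIso N N' :=
      { F := fun z => eY.symm (radial f' (eX z))
        G := fun z => eX.symm (radial g' (eY z))
        G_F := by
          intro x
          simp [hGF]
        F_G := by
          intro y
          simp [hFG]
        norm_F := by
          intro x
          show ‖eY (eY.symm (radial f' (eX x)))‖ = ‖eX x‖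
          rw [ContinuousLinearEquiv.apply_symm_apply, hRF.norm_eq]
        smul_F := by
          intro c x hc
          show eY.symm (radial f' (eX (c • x))) = c • eY.symm (radial f' (eX x))
          rw [map_smul, hRF.hom c _ hc, map_smul]
        iso := by
          intro x y hx hy
          show ‖eY (eY.symm (radial f' (eX x)) - eY.symm (radial f' (eX y)))‖ = ‖eX (x - y)‖
          have hx' : ‖eX x‖ = 1 := hx
          have hy' : ‖eX y‖ = 1 := hy
          rw [map_sub, map_sub, ContinuousLinearEquiv.apply_symm_apply,
            ContinuousLinearEquiv.apply_symm_apply, radial_unit _ hx', radial_unit _ hy']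
          exact hS.iso _ _ hx' hy' }
    obtain ⟨T, hT⟩ := F_linear R hSC
    -- the linear isometry
    let L0 : X →ₗᵢ[ℝ] Y :=
      { toLinearMap := (eY.toLinearEquiv.toLinearMap).comp (T.comp eX.symm.toLinearEquiv.toLinearMap)
        norm_map' := by
          intro z
          have h1 : R.F (eX.symm z) = T (eX.symm z) := hT _
          have h2 : R.F (eX.symm z) = eY.symm (radial f' z) := by
            show eY.symm (radial f' (eX (eX.symm z))) = _
            rw [ContinuousLinearEquiv.apply_symm_apply]
          show ‖eY (T (eX.symm z))‖ = ‖z‖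
          rw [← h1, h2, ContinuousLinearEquiv.apply_symm_apply, hRF.norm_eq] }
    have hL0 : ∀ z, L0 z = radial f' z := by
      intro z
      have h1 : R.F (eX.symm z) = T (eX.symm z) := hT _
      have h2 : R.F (eX.symm z) = eY.symm (radial f' z) := by
        show eY.symm (radial f' (eX (eX.symm z))) = _
        rw [ContinuousLinearEquiv.apply_symm_apply]
      show eY (T (eX.symm z)) = _
      rw [← h1, h2, ContinuousLinearEquiv.apply_symm_apply]
    have hL0s : Function.Surjective L0 := fun y => ⟨radial g' y, by rw [hL0, hFG]⟩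
    refine ⟨LinearIsometryEquiv.ofSurjective L0 hL0s, fun x => ?_⟩
    have hx1 : ‖(x : X)‖ = 1 := norm_of_mem x
    show (f x : Y) = L0 x
    rw [hL0, radial_unit _ hx1, hf']
  · -- the trivial case
    have hXs : Subsingleton X := not_nontrivial_iff_subsingleton.mp hnt
    have hsX : ∀ x : sphere (0 : X) 1, False := by
      intro x
      have h1 : ‖(x : X)‖ = 1 := norm_of_mem x
      rw [Subsingleton.elim (x : X) 0, norm_zero] at h1
      exact zero_ne_one h1
    have hYs : Subsingleton Y := by
      refine ⟨fun a b => ?_⟩
      have hall : ∀ y : Y, y = 0 := by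
        intro y
        by_contra hy
        obtain ⟨x, -⟩ := hsurj ⟨‖y‖⁻¹ • y, mem_of_norm (unit_of_ne hy)⟩
        exact hsX x
      rw [hall a, hall b]
    let L0 : X →ₗᵢ[ℝ] Y :=
      { toLinearMap := 0
        norm_map' := by
          intro z
          rw [Subsingleton.elim z 0]
          simp }
    refine ⟨LinearIsometryEquiv.ofSurjective L0 (fun y => ⟨0, Subsingleton.elim _ _⟩), fun x => ?_⟩
    exact (hsX x).elim

end Vale.Agent.Lib.P084T
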